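import Vale.Agent.P356F.Defs

namespace Vale.Agent.P356F

open Matrix Vale.Agent.P356
open scoped ComplexOrder

section vec
variable {n : Type} [Fintype n]

theorem nn_eq (v : n → ℂ) : nn v = ‖(WithLp.toLp 2 v : EuclideanSpace ℂ n)‖ := by
  rw [EuclideanSpace.norm_eq]; rfl

theorem nn_nonneg (v : n → ℂ) : 0 ≤ nn v := Real.sqrt_nonneg _

theorem nn_sq (v : n → ℂ) : nn v ^ 2 = nsq v := Real.sq_sqrt (nsq_nonneg v)

theorem nn_zero : nn (0 : n → ℂ) = 0 := by simp [nn, nsq]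

theorem nn_add_le (u v : n → ℂ) : nn (u + v) ≤ nn u + nn v := by
  rw [nn_eq, nn_eq, nn_eq, WithLp.toLp_add]; exact norm_add_le _ _

theorem nn_neg (v : n → ℂ) : nn (-v) = nn v := by simp [nn, nsq]

theorem nn_sub_le (u v : n → ℂ) : nn (u - v) ≤ nn u + nn v := by
  rw [sub_eq_add_neg, ← nn_neg v]; exact nn_add_le _ _

theorem nn_sub_comm (u v : n → ℂ) : nn (u - v) = nn (v - u) := by
  rw [← nn_neg, neg_sub]

theorem nn_smul (c : ℂ) (v : n → ℂ) : nn (c • v) = ‖c‖ * nn v := by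
  rw [nn, nsq_smul, Real.sqrt_mul (sq_nonneg _), Real.sqrt_sq (norm_nonneg _)]; rfl

theorem nn_sum_le {ι : Type} (S : Finset ι) (v : ι → n → ℂ) :
    nn (∑ i ∈ S, v i) ≤ ∑ i ∈ S, nn (v i) :=
  Finset.le_sum_of_subadditive nn nn_zero.le nn_add_le S v

theorem nn_le_of_nsq {u : n → ℂ} {c : ℝ} (hc : 0 ≤ c) (h : nsq u ≤ c ^ 2) : nn u ≤ c :=
  Real.sqrt_le_iff.2 ⟨hc, h⟩

theorem eq_zero_of_nn {v : n → ℂ} (h : nn v = 0) : v = 0 :=
  eq_zero_of_nsq v (by rw [← nn_sq, h]; simp)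

theorem dot_le (u v : n → ℂ) : ‖star u ⬝ᵥ v‖ ≤ nn u * nn v := by
  refine abs_le_of_sq_le_sq' ?_ (mul_nonneg (nn_nonneg _) (nn_nonneg _)) |>.2
  rw [mul_pow, nn_sq, nn_sq]; exact cs u v

theorem nsq_re (v : n → ℂ) : (star v ⬝ᵥ v).re = nsq v := by
  rw [← nsq_eq]; simp

theorem OpLe.mono {M : Matrix n n ℂ} {a b : ℝ} (h : OpLe M a) (hab : a ≤ b) : OpLe M b :=
  fun v => (h v).trans (mul_le_mul_of_nonneg_right hab (nn_nonneg v))

theorem OpLe.mul {M N : Matrix n n ℂ} {a b : ℝ} (hM : OpLe M a) (hN : OpLe N b) (ha : 0 ≤ a) :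
    OpLe (M * N) (a * b) := fun v => by
  rw [← mulVec_mulVec, mul_assoc]
  exact (hM _).trans (mul_le_mul_of_nonneg_left (hN v) ha)

theorem OpLe.add {M N : Matrix n n ℂ} {a b : ℝ} (hM : OpLe M a) (hN : OpLe N b) :
    OpLe (M + N) (a + b) := fun v => by
  rw [add_mulVec, add_mul]
  exact (nn_add_le _ _).trans (add_le_add (hM v) (hN v))

theorem opLe_zero : OpLe (0 : Matrix n n ℂ) 0 := fun v => by simp [nn_zero]

theorem opLe_sum {ι : Type} (S : Finset ι) (M : ι → Matrix n n ℂ) (c : ℝ)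
    (h : ∀ i ∈ S, OpLe (M i) c) : OpLe (∑ i ∈ S, M i) (S.card * c) := fun v => by
  rw [sum_mulVec]
  refine (nn_sum_le _ _).trans ?_
  rw [mul_assoc, ← nsmul_eq_mul, ← Finset.sum_const]
  exact Finset.sum_le_sum fun i hi => h i hi v

theorem OpLe.ct {M : Matrix n n ℂ} {c : ℝ} (h : OpLe M c) (hc : 0 ≤ c) : OpLe Mᴴ c := by
  classical
  intro v
  have e : nsq (Mᴴ *ᵥ v) = (star v ⬝ᵥ (M *ᵥ (Mᴴ *ᵥ v))).re := by
    rw [dot_mulVec, nsq_re]
  have h1 : nn (Mᴴ *ᵥ v) ^ 2 ≤ nn v * (c * nn (Mᴴ *ᵥ v)) := by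
    rw [nn_sq, e]
    exact (Complex.re_le_norm _).trans ((dot_le _ _).trans
      (mul_le_mul_of_nonneg_left (h _) (nn_nonneg _)))
  have h0 := nn_nonneg (Mᴴ *ᵥ v)
  have h2 := mul_nonneg hc (nn_nonneg v)
  rcases h0.eq_or_lt with h3 | h3
  · rw [← h3]; exact h2
  · nlinarith

theorem ip_le {M : Matrix n n ℂ} {c : ℝ} (h : OpLe M c) (v : n → ℂ) :
    (ip v M v).re ≤ c * nsq v := by
  have h1 := (Complex.re_le_norm _).trans ((dot_le v (M *ᵥ v)).trans
    (mul_le_mul_of_nonneg_left (h v) (nn_nonneg _)))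
  rw [← nn_sq]
  unfold ip
  linarith

variable [DecidableEq n]

theorem opLe_one : OpLe (1 : Matrix n n ℂ) 1 := fun v => by simp

theorem opLe_of_norm {M : Matrix n n ℂ} {J : ℝ}
    (h : ‖Matrix.toEuclideanCLM (𝕜 := ℂ) (n := n) M‖ ≤ J) : OpLe M J := fun v => by
  have h1 := (Matrix.toEuclideanCLM (𝕜 := ℂ) (n := n) M).le_opNorm (WithLp.toLp 2 v)
  rw [nn_eq, nn_eq]
  exact h1.trans (mul_le_mul_of_nonneg_right h (norm_nonneg _))

theorem proj_one : Proj (1 : Matrix n n ℂ) := ⟨by simp, by simp⟩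

theorem Proj.compl {P : Matrix n n ℂ} (h : Proj P) : Proj (1 - P) :=
  ⟨by rw [conjTranspose_sub, h.1, conjTranspose_one], by
    rw [Matrix.sub_mul, Matrix.mul_sub, Matrix.mul_sub, h.2]; simp⟩

theorem Proj.pyth {P : Matrix n n ℂ} (h : Proj P) (v : n → ℂ) :
    nsq v = nsq (P *ᵥ v) + nsq ((1 - P) *ᵥ v) := by
  have e : ∀ {R : Matrix n n ℂ}, Proj R → (nsq (R *ᵥ v) : ℂ) = star v ⬝ᵥ (R *ᵥ v) := by
    intro R hR
    rw [nsq_eq, ← hR.1, ← dot_mulVec, hR.1, mulVec_mulVec, hR.2]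
  apply Complex.ofReal_injective
  rw [Complex.ofReal_add, e h, e h.compl, ← dotProduct_add, ← add_mulVec, nsq_eq]
  simp

theorem Proj.opLe {P : Matrix n n ℂ} (h : Proj P) : OpLe P 1 := fun v => by
  rw [one_mul]
  refine Real.sqrt_le_sqrt ?_
  have := h.pyth v
  have := nsq_nonneg ((1 - P) *ᵥ v)
  linarith

omit [DecidableEq n] in
theorem Proj.mul {P R : Matrix n n ℂ} (hP : Proj P) (hR : Proj R) (h : Commute P R) :
    Proj (P * R) :=
  ⟨by rw [conjTranspose_mul, hP.1, hR.1, h.eq], by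
    rw [Matrix.mul_assoc, ← Matrix.mul_assoc R, ← h.eq, Matrix.mul_assoc, hR.2,
      ← Matrix.mul_assoc, hP.2]⟩

end vec

section alg
variable {𝒜 ι : Type} [Monoid 𝒜]

theorem lay_empty (Q : ι → 𝒜) : lay Q ∅ = 1 := by simp [lay]

theorem commute_lay {Q : ι → 𝒜} {S : Finset ι} {M : 𝒜} (h : ∀ x ∈ S, Commute M (Q x)) :
    Commute M (lay Q S) := by
  refine Commute.list_prod_right _ _ fun y hy => ?_
  obtain ⟨x, hx, rfl⟩ := List.mem_map.1 hy
  exact h x (Finset.mem_toList.1 hx)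

theorem lay_eq_list {Q : ι → 𝒜} {S : Finset ι}
    (h : ∀ x ∈ S, ∀ y ∈ S, x ≠ y → Commute (Q x) (Q y)) (l : List ι) (hl : l.Perm S.toList) :
    lay Q S = (l.map Q).prod := by
  refine (List.Perm.prod_eq' (hl.map Q) ?_).symm
  rw [List.pairwise_map]
  have hn : l.Nodup := hl.nodup_iff.2 S.nodup_toList
  refine hn.imp_of_mem fun {a b} ha hb hab => ?_
  exact h a (Finset.mem_toList.1 (hl.subset ha)) b (Finset.mem_toList.1 (hl.subset hb)) hab

theorem lay_union [DecidableEq ι] {Q : ι → 𝒜} {S S' : Finset ι} (hd : Disjoint S S')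
    (h : ∀ x ∈ S ∪ S', ∀ y ∈ S ∪ S', x ≠ y → Commute (Q x) (Q y)) :
    lay Q (S ∪ S') = lay Q S * lay Q S' := by
  rw [lay_eq_list h (S.toList ++ S'.toList), List.map_append, List.prod_append]
  · rfl
  · rw [List.perm_ext_iff_of_nodup _ (Finset.nodup_toList _)]
    · simp
    · rw [List.nodup_append]
      refine ⟨S.nodup_toList, S'.nodup_toList, fun a ha b hb hab => ?_⟩
      subst hab
      exact Finset.disjoint_left.1 hd (Finset.mem_toList.1 ha) (Finset.mem_toList.1 hb)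

theorem lay_single (Q : ι → 𝒜) (x : ι) : lay Q {x} = Q x := by simp [lay]

theorem lay_erase [DecidableEq ι] {Q : ι → 𝒜} {S : Finset ι} {x : ι} (hx : x ∈ S)
    (h : ∀ x ∈ S, ∀ y ∈ S, x ≠ y → Commute (Q x) (Q y)) :
    lay Q S = Q x * lay Q (S.erase x) := by
  have e : S = {x} ∪ S.erase x := by
    ext y; by_cases hy : y = x <;> simp [hy, hx]
  conv_lhs => rw [e]
  rw [lay_union (by simp) (by rw [← e]; exact h), lay_single]

theorem lay_sdiff [DecidableEq ι] {Q : ι → 𝒜} {S U : Finset ι} (hU : U ⊆ S)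
    (h : ∀ x ∈ S, ∀ y ∈ S, x ≠ y → Commute (Q x) (Q y)) :
    lay Q S = lay Q (S \ U) * lay Q U := by
  have e : S = (S \ U) ∪ U := (Finset.sdiff_union_of_subset hU).symm
  conv_lhs => rw [e]
  rw [lay_union Finset.sdiff_disjoint (by rw [← e]; exact h)]

theorem lay_ind {Q : ι → 𝒜} {S : Finset ι} (p : 𝒜 → Prop) (h1 : p 1)
    (hm : ∀ a b, p a → p b → p (a * b)) (h : ∀ x ∈ S, p (Q x)) : p (lay Q S) := by
  refine List.prod_induction p hm h1 fun y hy => ?_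
  obtain ⟨x, hx, rfl⟩ := List.mem_map.1 hy
  exact h x (Finset.mem_toList.1 hx)

theorem up_add (P : ℕ → 𝒜) (s m n : ℕ) : up P s (m + n) = up P s m * up P (s + m) n := by
  induction n with
  | zero => simp [up]
  | succ n ih => rw [← add_assoc, up, ih, up, mul_assoc, add_assoc]

theorem up_one (P : ℕ → 𝒜) (s : ℕ) : up P s 1 = P s := by simp [up]

theorem up_succ' (P : ℕ → 𝒜) (s n : ℕ) : up P s (n + 1) = P s * up P (s + 1) n := by
  rw [add_comm n 1, up_add, up_one]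

theorem up_congr {P P' : ℕ → 𝒜} {s n : ℕ} (h : ∀ σ, s ≤ σ → σ < s + n → P σ = P' σ) :
    up P s n = up P' s n := by
  induction n with
  | zero => rfl
  | succ n ih =>
    rw [up, up, ih fun σ h1 h2 => h σ h1 (by omega), h (s + n) (by omega) (by omega)]

theorem up_ind {P : ℕ → 𝒜} {s n : ℕ} (p : 𝒜 → Prop) (h1 : p 1)
    (hm : ∀ a b, p a → p b → p (a * b)) (h : ∀ σ, s ≤ σ → σ < s + n → p (P σ)) :
    p (up P s n) := by
  induction n with
  | zero => exact h1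
  | succ n ih =>
    exact hm _ _ (ih fun σ h1 h2 => h σ h1 (by omega)) (h _ (by omega) (by omega))

end alg

theorem up_ct {n : Type} [Fintype n] [DecidableEq n] (P : ℕ → Matrix n n ℂ) (s m : ℕ)
    (h : ∀ σ, (P σ)ᴴ = P σ) : (up P s m)ᴴ = seg P s m := by
  induction m with
  | zero => simp [up, seg]
  | succ m ih => rw [up, seg, conjTranspose_mul, ih, h]

theorem proj_lay {n ι : Type} [Fintype n] [DecidableEq n] {Q : ι → Matrix n n ℂ} {S : Finset ι}
    (hp : ∀ x ∈ S, Proj (Q x)) (h : ∀ x ∈ S, ∀ y ∈ S, x ≠ y → Commute (Q x) (Q y)) :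
    Proj (lay Q S) := by
  classical
  induction S using Finset.induction_on with
  | empty => rw [lay_empty]; exact proj_one
  | insert x S hx ih =>
    rw [lay_erase (Finset.mem_insert_self x S) h, Finset.erase_insert hx]
    refine (hp x (by simp)).mul (ih (fun y hy => hp y (by simp [hy]))
      fun a ha b hb => h a (by simp [ha]) b (by simp [hb])) (commute_lay fun y hy => ?_)
    exact h x (by simp) y (by simp [hy]) fun e => hx (e ▸ hy)

variable {Λ Q : Type} [Fintype Λ] [DecidableEq Λ] [Fintype Q] [DecidableEq Q]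

omit [DecidableEq Λ] in
theorem mem_ball {d : Λ → Λ → ℕ} {y x : Λ} {r : ℕ} : x ∈ ball d y r ↔ d y x ≤ r := by
  simp [ball]

omit [Fintype Λ] [DecidableEq Λ] [Fintype Q] [DecidableEq Q] in
theorem loc_zero (p : Λ → Prop) : Loc p (0 : Matrix (Λ → Q) (Λ → Q) ℂ) :=
  ⟨fun _ _ _ _ _ => rfl, fun _ _ _ _ _ _ _ _ => rfl⟩

omit [Fintype Λ] [DecidableEq Λ] [Fintype Q] [DecidableEq Q] in
theorem loc_add {p : Λ → Prop} {M N : Matrix (Λ → Q) (Λ → Q) ℂ} (hM : Loc p M) (hN : Loc p N) :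
    Loc p (M + N) :=
  ⟨fun s t x hx hne => by rw [Matrix.add_apply, hM.1 s t x hx hne, hN.1 s t x hx hne, add_zero],
   fun s t s' t' h1 h2 h3 h4 => by
    rw [Matrix.add_apply, Matrix.add_apply, hM.2 s t s' t' h1 h2 h3 h4,
      hN.2 s t s' t' h1 h2 h3 h4]⟩

omit [Fintype Λ] [DecidableEq Λ] [Fintype Q] [DecidableEq Q] in
theorem loc_sub {p : Λ → Prop} {M N : Matrix (Λ → Q) (Λ → Q) ℂ} (hM : Loc p M) (hN : Loc p N) :
    Loc p (M - N) :=
  ⟨fun s t x hx hne => by rw [Matrix.sub_apply, hM.1 s t x hx hne, hN.1 s t x hx hne, sub_zero],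
   fun s t s' t' h1 h2 h3 h4 => by
    rw [Matrix.sub_apply, Matrix.sub_apply, hM.2 s t s' t' h1 h2 h3 h4,
      hN.2 s t s' t' h1 h2 h3 h4]⟩

omit [Fintype Λ] [DecidableEq Λ] [Fintype Q] [DecidableEq Q] in
theorem loc_sum {ι : Type} {p : Λ → Prop} (S : Finset ι) (M : ι → Matrix (Λ → Q) (Λ → Q) ℂ)
    (h : ∀ i ∈ S, Loc p (M i)) : Loc p (∑ i ∈ S, M i) :=
  Finset.sum_induction M (Loc p) (fun _ _ => loc_add) (loc_zero p) h

theorem commute_ball [Nonempty Q] {d : Λ → Λ → ℕ} (hd : Met d) {y z : Λ} {r r' : ℕ}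
    {M N : Matrix (Λ → Q) (Λ → Q) ℂ} (hM : Loc (fun x => x ∈ ball d y r) M)
    (hN : Loc (fun x => x ∈ ball d z r') N) (h : r + r' < d y z) : Commute M N := by
  refine hM.comm hN fun x hx hx' => ?_
  rw [mem_ball] at hx hx'
  have := hd.tri y x z
  have := hd.symm x z
  omega

end Vale.Agent.P356F
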