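import Vale.Agent.P356F.Rank

namespace Vale.Agent.P356F

open Matrix Vale.Agent.P356
open scoped ComplexOrder

variable {Λ Q : Type} [Fintype Λ] [DecidableEq Λ] [Fintype Q] [DecidableEq Q]

theorem cost_nonneg (k : ℕ) (v : (Λ → Q) → ℂ) (R : ℕ → ℕ) : 0 ≤ cost k v R := by
  unfold cost
  exact mul_nonneg (Real.sqrt_nonneg _)
    (Real.rpow_nonneg (Finset.prod_nonneg fun _ _ => Nat.cast_nonneg _) _)

theorem dec_atom {X : ℕ → Finset Λ} {k : ℕ} {v : (Λ → Q) → ℂ} {R : ℕ → ℕ}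
    (h : ∀ j, j < k → RankLe (fun z => z ∈ X j) v (R j)) : Dec X k v (cost k v R) := by
  refine ⟨Unit, inferInstance, fun _ => v, fun _ => R, by simp, fun _ => h, by simp⟩

theorem Dec.mono {X : ℕ → Finset Λ} {k : ℕ} {v : (Λ → Q) → ℂ} {M M' : ℝ} (h : Dec X k v M)
    (hM : M ≤ M') : Dec X k v M' := by
  obtain ⟨ι, hι, x, R, h1, h2, h3⟩ := h
  exact ⟨ι, hι, x, R, h1, h2, h3.trans hM⟩

theorem Dec.add {X : ℕ → Finset Λ} {k : ℕ} {u v : (Λ → Q) → ℂ} {M M' : ℝ} (h : Dec X k u M)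
    (h' : Dec X k v M') : Dec X k (u + v) (M + M') := by
  obtain ⟨ι, hι, x, R, h1, h2, h3⟩ := h
  obtain ⟨ι', hι', x', R', h1', h2', h3'⟩ := h'
  refine ⟨ι ⊕ ι', inferInstance, Sum.elim x x', Sum.elim R R', ?_, ?_, ?_⟩
  · rw [Fintype.sum_sum_type, h1, h1']
    rfl
  · rintro (i | i) j hj
    · exact h2 i j hj
    · exact h2' i j hj
  · rw [Fintype.sum_sum_type]
    exact add_le_add h3 h3'

theorem atom_dec_zero (X : ℕ → Finset Λ) (k : ℕ) : Dec X k (0 : (Λ → Q) → ℂ) 0 :=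
  ⟨Empty, inferInstance, fun i => i.elim, fun i => i.elim, by simp, fun i => i.elim, by simp⟩

theorem atom_dec_sum {X : ℕ → Finset Λ} {k : ℕ} {ι : Type} (S : Finset ι)
    (u : ι → (Λ → Q) → ℂ) (m : ι → ℝ) (h : ∀ i ∈ S, Dec X k (u i) (m i)) :
    Dec X k (∑ i ∈ S, u i) (∑ i ∈ S, m i) := by
  classical
  induction S using Finset.induction_on with
  | empty => simpa using atom_dec_zero X k
  | insert a S ha ih =>
    rw [Finset.sum_insert ha, Finset.sum_insert ha]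
    exact (h a (Finset.mem_insert_self _ _)).add
      (ih fun i hi => h i (Finset.mem_insert_of_mem hi))

theorem atom_dec_neg {X : ℕ → Finset Λ} {k : ℕ} {v : (Λ → Q) → ℂ} {M : ℝ} (h : Dec X k v M) :
    Dec X k (-v) M := by
  obtain ⟨ι, hι, x, R, h1, h2, h3⟩ := h
  refine ⟨ι, hι, fun i => -x i, R, ?_, fun i j hj => ?_, ?_⟩
  · rw [h1, Finset.sum_neg_distrib]
  · have := (h2 i j hj).smul (-1)
    rwa [neg_one_smul] at this
  · simpa only [cost, nn_neg] using h3

theorem OpB.dec {X : ℕ → Finset Λ} {k : ℕ} {O : Matrix (Λ → Q) (Λ → Q) ℂ} {c M : ℝ}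
    (h : OpB X k O c) (hc : 0 ≤ c) {v : (Λ → Q) → ℂ} (hv : Dec X k v M) :
    Dec X k (O *ᵥ v) (c * M) := by
  obtain ⟨ι, hι, x, R, h1, h2, h3⟩ := hv
  have := atom_dec_sum Finset.univ (fun i => O *ᵥ x i) (fun i => c * cost k (x i) (R i))
    fun i _ => h (x i) (R i) (h2 i)
  rw [← Matrix.mulVec_sum, ← h1, ← Finset.mul_sum] at this
  exact this.mono (mul_le_mul_of_nonneg_left h3 hc)

theorem qn_opB (X : ℕ → Finset Λ) (k : ℕ) :
    QN (OpB X k : Matrix (Λ → Q) (Λ → Q) ℂ → ℝ → Prop) := by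
  refine ⟨fun v R h => ?_, fun v R _ => ?_, fun hM hN ha v R h => ?_, fun hM hN v R h => ?_,
    fun hM v R h => ?_, fun hM hab v R h => ?_⟩
  · rw [Matrix.one_mulVec, one_mul]
    exact dec_atom h
  · rw [Matrix.zero_mulVec, zero_mul]
    exact atom_dec_zero X k
  · rw [← Matrix.mulVec_mulVec, mul_assoc]
    exact hM.dec ha (hN v R h)
  · rw [Matrix.add_mulVec, add_mul]
    exact (hM v R h).add (hN v R h)
  · rw [Matrix.neg_mulVec]
    exact atom_dec_neg (hM v R h)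
  · exact (hM v R h).mono (mul_le_mul_of_nonneg_right hab (cost_nonneg _ _ _))

theorem atom_sqrt {O : Matrix (Λ → Q) (Λ → Q) ℂ} {c : ℝ} (hc : 0 ≤ c) (hn : OpLe O c)
    (v : (Λ → Q) → ℂ) : Real.sqrt (nn (O *ᵥ v)) ≤ Real.sqrt c * Real.sqrt (nn v) := by
  rw [← Real.sqrt_mul hc]
  exact Real.sqrt_le_sqrt (hn v)

/-- an operator that crosses no cut: one atom with the same ranks (`rank_in`, `rank_out`) -/
theorem opB_free {X : ℕ → Finset Λ} {k : ℕ} {Z : Finset Λ} {O : Matrix (Λ → Q) (Λ → Q) ℂ}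
    (hO : Loc (fun x => x ∈ Z) O) {c : ℝ} (hc : 0 ≤ c) (hn : OpLe O c)
    (hX : ∀ j, j < k → Z ⊆ X j ∨ Disjoint Z (X j)) : OpB X k O (Real.sqrt c) := by
  intro v R h
  refine (dec_atom (R := R) fun j hj => ?_).mono ?_
  · rcases hX j hj with h1 | h1
    · exact rank_in (hO.mono fun x hx => h1 hx) (h j hj)
    · exact rank_out (hO.mono fun x hx => Finset.disjoint_left.1 h1 hx) (h j hj)
  · unfold cost
    rw [← mul_assoc]
    exact mul_le_mul_of_nonneg_right (atom_sqrt hc hn v)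
      (Real.rpow_nonneg (Finset.prod_nonneg fun _ _ => Nat.cast_nonneg _) _)

theorem atom_cross {d : Λ → Λ → ℕ} (hd : Met d) {X : ℕ → Finset Λ}
    (hX : ∀ j n z z', z ∈ X j → d z z' ≤ n → z' ∈ X (j + n)) (y : Λ) (r : ℕ) (S : Finset ℕ)
    (hS : ∀ j ∈ S, ¬ (ball d y r ⊆ X j ∨ Disjoint (ball d y r) (X j))) : S.card ≤ 2 * r := by
  rcases S.eq_empty_or_nonempty with h | h
  · simp [h]
  obtain ⟨z, hz, hz'⟩ := Finset.not_disjoint_iff.1 (not_or.1 (hS _ (S.min'_mem h))).2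
  have hsub : S ⊆ Finset.Ico (S.min' h) (S.min' h + 2 * r) := by
    intro j hj
    have h1 := S.min'_le j hj
    refine Finset.mem_Ico.2 ⟨h1, ?_⟩
    by_contra h2
    refine (not_or.1 (hS j hj)).1 fun z' hb => ?_
    have h3 := hd.tri z y z'
    rw [hd.symm z y] at h3
    have h4 := mem_ball.1 hz
    have h5 := mem_ball.1 hb
    have h6 := hX (S.min' h) (j - S.min' h) z z' hz' (by omega)
    rwa [Nat.add_sub_cancel' h1] at h6
  simpa using Finset.card_le_card hsub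

/-- a local operator: the crossed cuts `j` (neither `ball ⊆ X j` nor disjoint) lie in
`Ico j0 (j0 + 2 r)` for the least crossed `j0` (two points of the ball are within `2 r`);
one atom with ranks multiplied by `q ^ (2 |ball|)` at the crossed cuts (`rank_loc`) -/
theorem opB_loc [Nonempty Q] {d : Λ → Λ → ℕ} (hd : Met d) {X : ℕ → Finset Λ} {k : ℕ}
    (hk : 1 ≤ k) (hX : ∀ j n z z', z ∈ X j → d z z' ≤ n → z' ∈ X (j + n)) (y : Λ) (r : ℕ)
    {O : Matrix (Λ → Q) (Λ → Q) ℂ} (hO : Loc (fun x => x ∈ ball d y r) O) {c : ℝ} (hc : 0 ≤ c)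
    (hn : OpLe O c) :
    OpB X k O (Real.sqrt c *
      Real.exp (2 * r * (2 * r + 1) ^ 2 * Real.log (Fintype.card Q) / k)) := by
  classical
  intro v R h
  set B := ball d y r with hB
  set q := Fintype.card Q with hq
  have hq1 : (1 : ℝ) ≤ q := by exact_mod_cast Fintype.card_pos
  have hk0 : (0 : ℝ) < k := by exact_mod_cast hk
  let m : ℕ → ℕ := fun j => if B ⊆ X j ∨ Disjoint B (X j) then 1 else q ^ (2 * B.card)
  refine (dec_atom (R := fun j => m j * R j) fun j hj => ?_).mono ?_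
  · by_cases h0 : B ⊆ X j ∨ Disjoint B (X j)
    · simp only [m, if_pos h0, one_mul]
      rcases h0 with h1 | h1
      · exact rank_in (hO.mono fun x hx => h1 hx) (h j hj)
      · exact rank_out (hO.mono fun x hx => Finset.disjoint_left.1 h1 hx) (h j hj)
    · simp only [m, if_neg h0]
      exact rank_loc hO (h j hj)
  · unfold cost
    have e1 : ∏ j ∈ Finset.range k, ((m j * R j : ℕ) : ℝ) =
        (∏ j ∈ Finset.range k, (m j : ℝ)) * ∏ j ∈ Finset.range k, (R j : ℝ) := by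
      rw [← Finset.prod_mul_distrib]
      exact Finset.prod_congr rfl fun j _ => Nat.cast_mul _ _
    set S := (Finset.range k).filter fun j => ¬ (B ⊆ X j ∨ Disjoint B (X j)) with hS
    have e2 : ∏ j ∈ Finset.range k, (m j : ℝ) = (q : ℝ) ^ (2 * B.card * S.card) := by
      rw [pow_mul, ← Finset.prod_const, hS, Finset.prod_filter]
      refine Finset.prod_congr rfl fun j _ => ?_
      by_cases h0 : B ⊆ X j ∨ Disjoint B (X j)
      · simp only [m, if_pos h0, h0, not_true, if_false, Nat.cast_one, if_true]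
      · simp only [m, if_neg h0, h0, not_false_iff, if_true, Nat.cast_pow, if_false]
    have h1 : S.card ≤ 2 * r := atom_cross hd hX y r S fun j hj => (Finset.mem_filter.1 hj).2
    have h2 : B.card ≤ (2 * r + 1) ^ 2 := hd.card y r
    have h3 : ((q : ℝ) ^ (2 * B.card * S.card)) ^ (1 / (2 * (k : ℝ))) ≤
        Real.exp (2 * r * (2 * r + 1) ^ 2 * Real.log q / k) := by
      rw [Real.rpow_def_of_pos (by positivity), Real.log_pow]
      refine Real.exp_le_exp.2 ?_
      have h4 : ((B.card * S.card : ℕ) : ℝ) ≤ (((2 * r + 1) ^ 2 * (2 * r) : ℕ) : ℝ) :=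
        Nat.cast_le.2 (Nat.mul_le_mul h2 h1)
      have h5 := Real.log_nonneg hq1
      push_cast at h4 ⊢
      have e3 : 2 * (B.card : ℝ) * S.card * Real.log q * (1 / (2 * k)) =
          (B.card : ℝ) * S.card * Real.log q / k := by
        field_simp
      rw [e3]
      refine div_le_div_of_nonneg_right (mul_le_mul_of_nonneg_right ?_ h5) hk0.le
      linarith
    have h6 : 0 ≤ ∏ j ∈ Finset.range k, (R j : ℝ) :=
      Finset.prod_nonneg fun _ _ => Nat.cast_nonneg _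
    rw [e1, e2, Real.mul_rpow (by positivity) h6]
    calc Real.sqrt (nn (O *ᵥ v)) * (((q : ℝ) ^ (2 * B.card * S.card)) ^ (1 / (2 * (k : ℝ))) *
          (∏ j ∈ Finset.range k, (R j : ℝ)) ^ (1 / (2 * (k : ℝ))))
        ≤ (Real.sqrt c * Real.sqrt (nn v)) *
          (Real.exp (2 * r * (2 * r + 1) ^ 2 * Real.log q / k) *
          (∏ j ∈ Finset.range k, (R j : ℝ)) ^ (1 / (2 * (k : ℝ)))) :=
          mul_le_mul (atom_sqrt hc hn v)
            (mul_le_mul_of_nonneg_right h3 (Real.rpow_nonneg h6 _)) (by positivity)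
            (by positivity)
      _ = _ := by ring

/-- cost of an atom with equal ranks -/
theorem cost_const {k : ℕ} (hk : 1 ≤ k) (v : (Λ → Q) → ℂ) (D : ℕ) :
    cost k v (fun _ => D) = Real.sqrt (nn v) * Real.sqrt D := by
  unfold cost
  have hk0 : (0 : ℝ) < k := by exact_mod_cast hk
  rw [Finset.prod_const, Finset.card_range, ← Real.rpow_natCast,
    ← Real.rpow_mul (Nat.cast_nonneg D), Real.sqrt_eq_rpow (D : ℝ)]
  congr 2
  field_simp

theorem atom_cost_mono {k : ℕ} (v : (Λ → Q) → ℂ) {R R' : ℕ → ℕ} (h : ∀ j, j < k → R j ≤ R' j) :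
    cost k v R ≤ cost k v R' := by
  unfold cost
  refine mul_le_mul_of_nonneg_left (Real.rpow_le_rpow
    (Finset.prod_nonneg fun _ _ => Nat.cast_nonneg _) ?_ (by positivity)) (Real.sqrt_nonneg _)
  exact Finset.prod_le_prod (fun _ _ => Nat.cast_nonneg _)
    fun j hj => Nat.cast_le.2 (h j (Finset.mem_range.1 hj))

/-- low rank approximation. For atom `i` let `ρ i` be the least of its ranks, so
`u i = sqrt (nn (x i) * ρ i) ≤ cost` and the rank across `A` is at most `q ^ w * ρ i` (`rank_move`).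
Keep the atoms with `ρ i * M ≤ u i * t`; a dropped atom has `nn (x i) * t ≤ u i * M`. -/
theorem dec_approx [Nonempty Q] {X : ℕ → Finset Λ} {k : ℕ} (hk : 1 ≤ k) (A : Finset Λ) (w : ℕ)
    (hA : ∀ j, j < k → A ⊆ X j ∧ (X j \ A).card ≤ w) {v : (Λ → Q) → ℂ} {M : ℝ} (hM : 0 < M)
    (h : Dec X k v M) (t : ℝ) (ht : 0 < t) :
    ∃ (a : (Λ → Q) → ℂ) (R : ℕ), RankLe (fun z => z ∈ A) a R ∧
      (R : ℝ) ≤ (Fintype.card Q : ℝ) ^ w * t ∧ nn (v - a) ≤ M ^ 2 / t := by
  classical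
  obtain ⟨ι, hι, x, R, h1, h2, h3⟩ := h
  have hmin : ∀ i, ∃ j, j < k ∧ ∀ j', j' < k → R i j ≤ R i j' := by
    intro i
    obtain ⟨j, hj, hj'⟩ := Finset.exists_min_image (Finset.range k) (R i)
      ⟨0, Finset.mem_range.2 hk⟩
    exact ⟨j, Finset.mem_range.1 hj, fun j' h' => hj' j' (Finset.mem_range.2 h')⟩
  choose J hJ hJ' using hmin
  set q := Fintype.card Q with hq
  have hq1 : 1 ≤ q := Fintype.card_pos
  let ρ : ι → ℕ := fun i => R i (J i)
  let u : ι → ℝ := fun i => Real.sqrt (nn (x i)) * Real.sqrt (ρ i)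
  have hu0 : ∀ i, 0 ≤ u i := fun i => by positivity
  have hu2 : ∀ i, u i ^ 2 = nn (x i) * ρ i := fun i => by
    simp only [u, mul_pow]
    rw [Real.sq_sqrt (nn_nonneg _), Real.sq_sqrt (Nat.cast_nonneg _)]
  have hu : ∑ i, u i ≤ M := by
    refine le_trans (Finset.sum_le_sum fun i _ => ?_) h3
    simp only [u]
    rw [← cost_const hk]
    exact atom_cost_mono _ (hJ' i)
  have hr : ∀ i, RankLe (fun z => z ∈ A) (x i) (q ^ w * ρ i) := by
    intro i
    obtain ⟨a1, a2⟩ := hA (J i) (hJ i)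
    refine (rank_move (X (J i) \ A) (fun z hz => ?_) (h2 i (J i) (hJ i))).mono
      (Nat.mul_le_mul_right _ (Nat.pow_le_pow_right hq1 a2))
    rw [Finset.mem_sdiff] at hz
    exact ⟨fun h4 => by_contra fun h5 => hz ⟨h4, h5⟩, fun h4 => a1 h4⟩
  set S := Finset.univ.filter fun i => (ρ i : ℝ) * M ≤ u i * t with hS
  refine ⟨∑ i ∈ S, x i, ∑ i ∈ S, q ^ w * ρ i, rank_sum S x _ fun i _ => hr i, ?_, ?_⟩
  · push_cast
    rw [← Finset.mul_sum]
    refine mul_le_mul_of_nonneg_left ?_ (by positivity)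
    have h4 : (∑ i ∈ S, (ρ i : ℝ)) * M ≤ (∑ i ∈ S, u i) * t := by
      rw [Finset.sum_mul, Finset.sum_mul]
      exact Finset.sum_le_sum fun i hi => (Finset.mem_filter.1 hi).2
    have h5 : ∑ i ∈ S, u i ≤ M :=
      (Finset.sum_le_sum_of_subset_of_nonneg (Finset.subset_univ _) fun i _ _ => hu0 i).trans hu
    have h6 : (∑ i ∈ S, (ρ i : ℝ)) * M ≤ t * M := by nlinarith
    exact le_of_mul_le_mul_right h6 hM
  · have e : v - ∑ i ∈ S, x i = ∑ i ∈ Sᶜ, x i := by
      rw [h1, ← Finset.sum_add_sum_compl S x]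
      abel
    rw [e, le_div_iff₀ ht]
    have h4 : ∀ i ∈ Sᶜ, nn (x i) * t ≤ u i * M := by
      intro i hi
      have h5 : u i * t < (ρ i : ℝ) * M := by
        have := Finset.mem_compl.1 hi
        rw [hS, Finset.mem_filter] at this
        exact not_le.1 fun h6 => this ⟨Finset.mem_univ _, h6⟩
      have h6 : (0 : ℝ) < ρ i := by
        have : 0 ≤ u i * t := mul_nonneg (hu0 i) ht.le
        exact (mul_pos_iff_of_pos_right hM).1 (this.trans_lt h5)
      refine le_of_mul_le_mul_right ?_ h6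
      have h7 := hu2 i
      have h8 := mul_le_mul_of_nonneg_left h5.le (hu0 i)
      nlinarith
    have h5 : ∑ i ∈ Sᶜ, u i ≤ M :=
      (Finset.sum_le_sum_of_subset_of_nonneg (Finset.subset_univ _) fun i _ _ => hu0 i).trans hu
    calc nn (∑ i ∈ Sᶜ, x i) * t ≤ (∑ i ∈ Sᶜ, nn (x i)) * t :=
          mul_le_mul_of_nonneg_right (nn_sum_le _ _) ht.le
      _ ≤ (∑ i ∈ Sᶜ, u i) * M := by
          rw [Finset.sum_mul, Finset.sum_mul]
          exact Finset.sum_le_sum h4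
      _ ≤ M ^ 2 := by nlinarith

end Vale.Agent.P356F
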