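import Vale.Agent.P356F.Round

namespace Vale.Agent.P356F

open Matrix Vale.Agent.P356
open scoped ComplexOrder

variable {Λ Q : Type} [Fintype Λ] [DecidableEq Λ] [Fintype Q] [DecidableEq Q] [Nonempty Q]
  {d : Λ → Λ → ℕ} {T : Finset (Finset Λ)} {h : Finset Λ → Matrix (Λ → Q) (Λ → Q) ℂ}
  {R : ℕ} {J : ℝ} {Qp : Λ → Matrix (Λ → Q) (Λ → Q) ℂ} {act : ℕ → Finset Λ} {g : ℕ}

theorem cone_seg_add {n : Type} [Fintype n] [DecidableEq n] (P : ℕ → Matrix n n ℂ)
    (j a b : ℕ) : seg P j (a + b) = seg P (j + a) b * seg P j a := by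
  induction b with
  | zero => simp [seg]
  | succ b ih => rw [← add_assoc, seg, ih, seg, Matrix.mul_assoc, add_assoc]

omit [Nonempty Q] in
theorem cone_fix (Sy : Sys d T h R J)
    (hQ : ∀ x, IsKP (ball d x R) (HZ T h (ball d x R)) (Qp x)) {Z : Finset Λ}
    {P : Matrix (Λ → Q) (Λ → Q) ℂ} (hP : HZ T h Z * P = 0) {x : Λ} (hx : ball d x R ⊆ Z) :
    Qp x * P = P := by
  refine loc_mat_ext fun v => ?_
  rw [← mulVec_mulVec]
  refine (hQ x).fix _ (hz_mono Sy hx ?_)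
  rw [mulVec_mulVec, hP, zero_mulVec]

omit [Nonempty Q] in
theorem cone_up_fix {S : ℕ → Finset Λ} {P : Matrix (Λ → Q) (Λ → Q) ℂ} {s n : ℕ}
    (hx : ∀ σ, s ≤ σ → σ < s + n → ∀ x ∈ S σ, Qp x * P = P) :
    up (fun σ => lay Qp (S σ)) s n * P = P := by
  have hm : ∀ a b : Matrix (Λ → Q) (Λ → Q) ℂ, a * P = P → b * P = P → a * b * P = P :=
    fun a b ha hb => by rw [Matrix.mul_assoc, hb, ha]
  exact up_ind (fun M => M * P = P) (Matrix.one_mul _) hm fun σ h1 h2 =>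
    lay_ind (fun M => M * P = P) (Matrix.one_mul _) hm (hx σ h1 h2)

theorem cone_herm (hd : Met d) (hQ : ∀ x, IsKP (ball d x R) (HZ T h (ball d x R)) (Qp x))
    {S : Finset Λ} (hS : Sep d R S) : (lay Qp S)ᴴ = lay Qp S :=
  (proj_lay (fun x _ => (hQ x).proj) fun x hx y hy hxy =>
    commute_ball hd (hQ x).loc (hQ y).loc (by have := hS x hx y hy hxy; omega)).1

omit [Fintype Q] [DecidableEq Q] [Nonempty Q] in
theorem cone_sep (hS : ∀ σ, Sep d R (act σ)) (y : Λ) (s σ : ℕ) :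
    Sep d R (cone d act R y s σ) := fun x hx x' hx' hne =>
  hS σ x (Finset.mem_filter.1 hx).1 x' (Finset.mem_filter.1 hx').1 hne

omit [Fintype Q] [DecidableEq Q] [Nonempty Q] in
theorem cone_sub (hd : Met d) {y x : Λ} {s n σ : ℕ} (h2 : σ < s + 1 + n)
    (hx : x ∈ cone d act R y s σ) : ball d x R ⊆ ball d y (2 * R * n + R) := by
  intro z hz
  rw [mem_ball] at hz ⊢
  have h3 := (Finset.mem_filter.1 hx).2
  have h4 : 2 * R * (σ - s) ≤ 2 * R * n := Nat.mul_le_mul_left _ (by omega)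
  have := hd.tri y x z
  omega

omit [Nonempty Q] in
theorem cone_kill (hd : Met d) (Sy : Sys d T h R J)
    (hQ : ∀ x, IsKP (ball d x R) (HZ T h (ball d x R)) (Qp x)) (y : Λ) (s n : ℕ)
    {P : Matrix (Λ → Q) (Λ → Q) ℂ} (hP : HZ T h (ball d y (2 * R * n + R)) * P = 0) :
    (1 - Qp y) * up (fun σ => lay Qp (cone d act R y s σ)) (s + 1) n * P = 0 := by
  rw [Matrix.mul_assoc, cone_up_fix fun σ _ h2 x hx => cone_fix Sy hQ hP (cone_sub hd h2 hx),
    Matrix.sub_mul, Matrix.one_mul, cone_fix Sy hQ hP, sub_self]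
  intro z hz
  rw [mem_ball] at hz ⊢
  omega

omit [Nonempty Q] in
theorem cone_iter {L : ℕ → Matrix (Λ → Q) (Λ → Q) ℂ} {s m : ℕ} {θ : ℝ} (hθ : 0 ≤ θ)
    {G : Matrix (Λ → Q) (Λ → Q) ℂ} (hG : Proj G) (hL : ∀ σ, (L σ)ᴴ = L σ)
    (hr : ∀ i, i < m → ∀ ψ, nsq (seg L (s + g * i) g *ᵥ (seg L s (g * i) *ᵥ (G *ᵥ ψ))) ≤
      θ * nsq (seg L s (g * i) *ᵥ (G *ᵥ ψ))) :
    OpLe (G * up L s (g * m)) (Real.sqrt θ ^ m) := by
  have key : ∀ i, i ≤ m → OpLe (seg L s (g * i) * G) (Real.sqrt θ ^ i) := by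
    intro i
    induction i with
    | zero => intro _; simpa [seg] using hG.opLe
    | succ i ih =>
      intro hi ψ
      have h1 := ih (by omega) ψ
      have h2 := hr i (by omega) ψ
      rw [← mulVec_mulVec] at h1
      rw [Nat.mul_succ, cone_seg_add, ← mulVec_mulVec, ← mulVec_mulVec, pow_succ', mul_assoc]
      refine le_trans ?_ (mul_le_mul_of_nonneg_left h1 (Real.sqrt_nonneg _))
      rw [nn, nn, ← Real.sqrt_mul hθ]
      exact Real.sqrt_le_sqrt h2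
  have := (key m le_rfl).ct (pow_nonneg (Real.sqrt_nonneg _) _)
  rwa [conjTranspose_mul, ← up_ct L s _ hL, conjTranspose_conjTranspose, hG.1] at this

/-- Take adjoints (`OpLe.ct`, `up_ct`, `proj_lay`): bound `φ i = seg L (s+1) (g i) (1 - Qp y) ψ`.
With `Z i = ball y (2 R (g i) + R)`: `φ i` is orthogonal to every `w` with `HZ (Z i) w = 0`
(all factors are Hermitian and fix `w` by `hz_mono`, `IsKP.fix`, and `(1 - Qp y) w = 0`), so the
kernel projection `P` of `HZ (Z i)` (`exists_kp`, `kp_gap`) kills `φ i`; `round_dl` for the layers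
`s + 1 + g i ..`, which cover `Z i` by `hcov` (if `R = 0` or not: `2R(g i) + R ≤ 2R(g i + 1 + j)`).
-/
theorem cone_small (hd : Met d) (Sy : Sys d T h R J) (hJ : 0 ≤ J)
    (hQ : ∀ x, IsKP (ball d x R) (HZ T h (ball d x R)) (Qp x))
    (hS : ∀ σ, Sep d R (act σ)) (hcov : ∀ s x, ∃ i, i < g ∧ x ∈ act (s + i))
    {γ : ℝ} (hγ : 0 < γ) (m : ℕ) (y : Λ) (s : ℕ)
    (hg : ∀ i, i ≤ m → GapOn (HZ T h (ball d y (2 * R * (g * i) + R))) γ) :
    OpLe ((1 - Qp y) * up (fun σ => lay Qp (cone d act R y s σ)) (s + 1) (g * m))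
      (Real.sqrt (thet g R J γ) ^ m) := by
  refine cone_iter (thet_pos hJ hγ).1.le (hQ y).proj.compl
    (fun σ => cone_herm hd hQ (cone_sep hS y s σ)) fun i hi ψ => ?_
  obtain ⟨P, hP⟩ := exists_kp _ _ (hz_psd Sy (ball d y (2 * R * (g * i) + R))) (hz_loc Sy _)
  have hk := kp_gap (hz_psd Sy _) (hz_loc Sy _) hP hγ (hg i hi.le)
  refine round_dl hd Sy hJ hQ _ (cone_sep hS y s) _ g _ (fun x hx => ?_) hP.proj hγ hk.1 _ ?_
  · obtain ⟨j, hj, hx'⟩ := hcov (s + 1 + g * i) x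
    refine ⟨j, hj, Finset.mem_filter.2 ⟨hx', ?_⟩⟩
    rw [mem_ball] at hx
    have e : s + 1 + g * i + j - s = g * i + (1 + j) := by omega
    rw [e, Nat.mul_add, Nat.mul_add]
    omega
  · have h0 := congrArg conjTranspose (cone_kill (act := act) hd Sy hQ y s (g * i) hP.mul)
    rw [conjTranspose_mul, conjTranspose_mul, hP.proj.1, (hQ y).proj.compl.1,
      up_ct _ _ _ fun σ => cone_herm hd hQ (cone_sep hS y s σ), conjTranspose_zero] at h0
    rw [mulVec_mulVec, mulVec_mulVec, Matrix.mul_assoc, h0, zero_mulVec]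

/-- `O = (1 - Qp y) * up ..` kills the kernel of `HZ Z`, `Z = ball y r`, so `O * P = 0` and
`O = O * W * HZ Z` (`kp_gap`); `hz_split` gives `O x = O * W * K x`. -/
theorem cone_step (hd : Met d) (Sy : Sys d T h R J) (hJ : 0 ≤ J)
    (hQ : ∀ x, IsKP (ball d x R) (HZ T h (ball d x R)) (Qp x))
    (hS : ∀ σ, Sep d R (act σ)) (hcov : ∀ s x, ∃ i, i < g ∧ x ∈ act (s + i))
    {γ : ℝ} (hγ : 0 < γ) (m : ℕ) (y : Λ) (s : ℕ)
    (hg : ∀ i, i ≤ m → GapOn (HZ T h (ball d y (2 * R * (g * i) + R))) γ) :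
    ∃ O : Λ → Matrix (Λ → Q) (Λ → Q) ℂ,
      (1 - Qp y) * up (fun σ => lay Qp (cone d act R y s σ)) (s + 1) (g * m) =
        ∑ x ∈ ball d y (2 * R * (g * m) + R), O x * (1 - Qp x) ∧
      ∀ x ∈ ball d y (2 * R * (g * m) + R),
        OpLe (O x) (Real.sqrt (thet g R J γ) ^ m * (JJ R J / γ)) ∧
        Loc (fun z => z ∈ ball d y (2 * R * (g * m) + R)) (O x) := by
  have hO := cone_small hd Sy hJ hQ hS hcov hγ m y s hg
  obtain ⟨P, hP⟩ := exists_kp _ _ (hz_psd Sy (ball d y (2 * R * (g * m) + R))) (hz_loc Sy _)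
  obtain ⟨-, W, hW1, hW2, hW3⟩ := kp_gap (hz_psd Sy _) (hz_loc Sy _) hP hγ (hg m le_rfl)
  obtain ⟨K, hK1, hK2⟩ := hz_split hd Sy hJ hQ (ball d y (2 * R * (g * m) + R))
  have h0 := cone_kill (act := act) hd Sy hQ y s (g * m) hP.mul
  have hl : Loc (fun z => z ∈ ball d y (2 * R * (g * m) + R))
      ((1 - Qp y) * up (fun σ => lay Qp (cone d act R y s σ)) (s + 1) (g * m)) := by
    refine (loc_sub (loc_one _) ((hQ y).loc.mono fun z hz => ?_)).mul ?_
    · rw [mem_ball] at hz ⊢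
      omega
    · exact up_ind (Loc _) (loc_one _) (fun _ _ => Loc.mul) fun σ _ h2 =>
        lay_ind (Loc _) (loc_one _) (fun _ _ => Loc.mul) fun x hx =>
          (hQ x).loc.mono fun z hz => cone_sub hd h2 hx hz
  generalize (1 - Qp y) * up (fun σ => lay Qp (cone d act R y s σ)) (s + 1) (g * m) = O at *
  refine ⟨fun x => O * (W * K x), ?_, fun x hx => ⟨?_, hl.mul (hW1.mul (hK2 x hx).2.1)⟩⟩
  · have e : O = O * (W * HZ T h (ball d y (2 * R * (g * m) + R))) := by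
      rw [hW2, Matrix.mul_sub, h0, Matrix.mul_one, sub_zero]
    conv_lhs => rw [e, hK1, Matrix.mul_sum, Matrix.mul_sum]
    refine Finset.sum_congr rfl fun x _ => ?_
    simp only [Matrix.mul_assoc]
  · have := hO.mul (hW3.mul (hK2 x hx).1 (by positivity)) (pow_nonneg (Real.sqrt_nonneg _) _)
    refine this.mono (le_of_eq ?_)
    ring

/-- `P = vecMulVec Ω (star Ω)`; every `Qp x` fixes `Ω`. By `round_dl` with `Z = univ`,
`seg L 0 (g i) * (1 - P)` has norm `≤ sqrt(thet)^i`; take the adjoint; `P * up L 0 N = P`. -/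
theorem glob_conv (hd : Met d) (Sy : Sys d T h R J) (hJ : 0 ≤ J)
    (hQ : ∀ x, IsKP (ball d x R) (HZ T h (ball d x R)) (Qp x))
    (hS : ∀ σ, Sep d R (act σ)) (hcov : ∀ s x, ∃ i, i < g ∧ x ∈ act (s + i))
    {Ω : (Λ → Q) → ℂ} (hΩ : nsq Ω = 1) (h0 : ∀ X ∈ T, h X *ᵥ Ω = 0) {Δ : ℝ} (hΔ : 0 < Δ)
    (hg : (∑ X ∈ T, h X - (Δ : ℂ) • (1 - vecMulVec Ω (star Ω))).PosSemidef)
    (δ : ℝ) (hδ : 0 < δ) :
    ∃ N, ∀ ζ : (Λ → Q) → ℂ,
      nn (up (fun σ => lay Qp (act σ)) 0 N *ᵥ ζ - (star Ω ⬝ᵥ ζ) • Ω) ≤ δ * nn ζ := by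
  have hdot : star Ω ⬝ᵥ Ω = 1 := by rw [← nsq_eq, hΩ]; simp
  have hv : ∀ ζ : (Λ → Q) → ℂ, vecMulVec Ω (star Ω) *ᵥ ζ = (star Ω ⬝ᵥ ζ) • Ω := by
    intro ζ
    funext a
    simp only [mulVec, dotProduct, vecMulVec_apply, Pi.smul_apply, smul_eq_mul, Finset.sum_mul]
    exact Finset.sum_congr rfl fun b _ => by ring
  generalize hPd : vecMulVec Ω (star Ω) = P at *
  have hP : Proj P := by
    refine ⟨?_, loc_mat_ext fun v => ?_⟩
    · rw [← hPd]
      ext a b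
      simp [vecMulVec_apply, mul_comm]
    · rw [← mulVec_mulVec, hv v, mulVec_smul, hv Ω, hdot, one_smul]
  have hT : HZ T h Finset.univ = ∑ X ∈ T, h X := by
    simp [HZ]
  have hHP : HZ T h Finset.univ * P = 0 := by
    refine loc_mat_ext fun v => ?_
    rw [← mulVec_mulVec, hv v, mulVec_smul, hT, sum_mulVec, Finset.sum_eq_zero h0, smul_zero,
      zero_mulVec]
  have hup : ∀ n, up (fun σ => lay Qp (act σ)) 0 n * P = P := fun n =>
    cone_up_fix fun σ _ _ x _ => cone_fix Sy hQ hHP (Finset.subset_univ _)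
  have hL : ∀ σ, (lay Qp (act σ))ᴴ = lay Qp (act σ) := fun σ => cone_herm hd hQ (hS σ)
  have hseg : ∀ n, P * seg (fun σ => lay Qp (act σ)) 0 n = P := by
    intro n
    have := congrArg conjTranspose (hup n)
    rwa [conjTranspose_mul, hP.1, up_ct _ _ _ hL] at this
  have hPup : ∀ n, P * up (fun σ => lay Qp (act σ)) 0 n = P := by
    have hm : ∀ a b : Matrix (Λ → Q) (Λ → Q) ℂ, P * a = P → P * b = P → P * (a * b) = P :=
      fun a b ha hb => by rw [← Matrix.mul_assoc, ha, hb]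
    refine fun n => up_ind (fun M => P * M = P) (Matrix.mul_one _) hm fun σ _ _ =>
      lay_ind (fun M => P * M = P) (Matrix.mul_one _) hm fun x _ => ?_
    have := congrArg conjTranspose (cone_fix Sy hQ hHP (Finset.subset_univ (ball d x R)))
    rwa [conjTranspose_mul, hP.1, (hQ x).proj.1] at this
  have hgap : ∀ v, Δ * nsq ((1 - P) *ᵥ v) ≤ (ip v (HZ T h Finset.univ) v).re := by
    intro v
    have h1 := hg.dotProduct_mulVec_nonneg v
    have h2 : (nsq ((1 - P) *ᵥ v) : ℂ) = star v ⬝ᵥ ((1 - P) *ᵥ v) := by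
      rw [nsq_eq, ← hP.compl.1, ← dot_mulVec, hP.compl.1, mulVec_mulVec, hP.compl.2]
    rw [sub_mulVec, smul_mulVec, dotProduct_sub, dotProduct_smul, ← h2] at h1
    have h3 := (Complex.nonneg_iff.1 h1).1
    rw [hT, ip]
    simp only [Complex.sub_re, smul_eq_mul, Complex.mul_re, Complex.ofReal_re, Complex.ofReal_im,
      mul_zero, sub_zero] at h3
    linarith
  have ht := thet_pos (g := g) (R := R) hJ hΔ
  obtain ⟨m, hm⟩ := exists_pow_lt_of_lt_one hδ (show Real.sqrt (thet g R J Δ) < 1 by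
    rw [Real.sqrt_lt' one_pos]; simpa using ht.2)
  have hO : OpLe ((1 - P) * up (fun σ => lay Qp (act σ)) 0 (g * m))
      (Real.sqrt (thet g R J Δ) ^ m) := by
    refine cone_iter ht.1.le hP.compl hL fun i _ ψ => ?_
    refine round_dl hd Sy hJ hQ _ hS _ g _ (fun x _ => hcov _ x) hP hΔ hgap _ ?_
    rw [mulVec_mulVec, hseg, mulVec_mulVec, Matrix.mul_sub, hP.2, Matrix.mul_one, sub_self,
      zero_mulVec]
  refine ⟨g * m, fun ζ => ?_⟩
  have := (hO.mono hm.le) ζ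
  rwa [Matrix.sub_mul, Matrix.one_mul, hPup, sub_mulVec, hv] at this

end Vale.Agent.P356F
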