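import Vale.Agent.P356.Loc

namespace Vale.Agent.P356F

open Matrix Vale.Agent.P356
open scoped ComplexOrder

/-- Euclidean norm -/
noncomputable def nn {n : Type} [Fintype n] (v : n → ℂ) : ℝ := Real.sqrt (nsq v)

/-- operator norm bound -/
def OpLe {n : Type} [Fintype n] (M : Matrix n n ℂ) (c : ℝ) : Prop :=
  ∀ v : n → ℂ, nn (M *ᵥ v) ≤ c * nn v

/-- orthogonal projection -/
def Proj {n : Type} [Fintype n] (P : Matrix n n ℂ) : Prop := Pᴴ = P ∧ P * P = P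

/-- no spectrum in `(0, γ)` -/
def GapOn {n : Type} [Fintype n] (M : Matrix n n ℂ) (γ : ℝ) : Prop :=
  (M * M - (γ : ℂ) • M).PosSemidef

/-- product of the `Q x` over `x` in `S` -/
noncomputable def lay {𝒜 ι : Type} [Monoid 𝒜] (Q : ι → 𝒜) (S : Finset ι) : 𝒜 :=
  (S.toList.map Q).prod

/-- ordered product `P s * P (s+1) * ... * P (s+n-1)` -/
def up {𝒜 : Type} [Monoid 𝒜] (P : ℕ → 𝒜) (s : ℕ) : ℕ → 𝒜
  | 0 => 1
  | n + 1 => up P s n * P (s + n)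

/-- abstract quasi-norm bounds -/
structure QN {𝒜 : Type} [Ring 𝒜] (B : 𝒜 → ℝ → Prop) : Prop where
  one : B 1 1
  zero : B 0 0
  mul : ∀ {M N : 𝒜} {a b : ℝ}, B M a → B N b → 0 ≤ a → B (M * N) (a * b)
  add : ∀ {M N : 𝒜} {a b : ℝ}, B M a → B N b → B (M + N) (a + b)
  neg : ∀ {M : 𝒜} {a : ℝ}, B M a → B (-M) a
  mono : ∀ {M : 𝒜} {a b : ℝ}, B M a → a ≤ b → B M b

variable {Λ Q : Type} [Fintype Λ] [DecidableEq Λ] [Fintype Q] [DecidableEq Q]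

/-- closed ball -/
def ball (d : Λ → Λ → ℕ) (y : Λ) (r : ℕ) : Finset Λ := Finset.univ.filter fun x => d y x ≤ r

/-- a metric with two dimensional growth -/
structure Met (d : Λ → Λ → ℕ) : Prop where
  symm : ∀ x y, d x y = d y x
  tri : ∀ x y z, d x z ≤ d x y + d y z
  self : ∀ x, d x x = 0
  card : ∀ y i, (ball d y i).card ≤ (2 * i + 1) ^ 2

/-- sites of a set are more than `2 R` apart -/
def Sep (d : Λ → Λ → ℕ) (R : ℕ) (S : Finset Λ) : Prop :=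
  ∀ x ∈ S, ∀ x' ∈ S, x ≠ x' → 2 * R < d x x'

/-- layer `σ` of the cone below site `y` placed after layer `s` -/
def cone (d : Λ → Λ → ℕ) (act : ℕ → Finset Λ) (R : ℕ) (y : Λ) (s σ : ℕ) : Finset Λ :=
  (act σ).filter fun x => d y x ≤ 2 * R * (σ - s)

/-- Schmidt rank at most `R` across the cut `p` -/
def RankLe (p : Λ → Prop) (v : (Λ → Q) → ℂ) (R : ℕ) : Prop :=
  ∃ (ι : Type) (_ : Fintype ι) (f g : ι → (Λ → Q) → ℂ), Fintype.card ι ≤ R ∧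
    (∀ i, Dep p (f i)) ∧ (∀ i, Dep (fun x => ¬ p x) (g i)) ∧ ∀ s, v s = ∑ i, f i s * g i s

/-- cost of an atom -/
noncomputable def cost (k : ℕ) (v : (Λ → Q) → ℂ) (R : ℕ → ℕ) : ℝ :=
  Real.sqrt (nn v) * (∏ j ∈ Finset.range k, (R j : ℝ)) ^ (1 / (2 * (k : ℝ)))

/-- `v` is a sum of atoms of total cost at most `M` -/
def Dec (X : ℕ → Finset Λ) (k : ℕ) (v : (Λ → Q) → ℂ) (M : ℝ) : Prop :=
  ∃ (ι : Type) (_ : Fintype ι) (x : ι → (Λ → Q) → ℂ) (R : ι → ℕ → ℕ), v = ∑ i, x i ∧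
    (∀ i j, j < k → RankLe (fun z => z ∈ X j) (x i) (R i j)) ∧ ∑ i, cost k (x i) (R i) ≤ M

/-- operator bound for the atomic quasi-norm -/
def OpB (X : ℕ → Finset Λ) (k : ℕ) (O : Matrix (Λ → Q) (Λ → Q) ℂ) (c : ℝ) : Prop :=
  ∀ (v : (Λ → Q) → ℂ) (R : ℕ → ℕ), (∀ j, j < k → RankLe (fun z => z ∈ X j) v (R j)) →
    Dec X k (O *ᵥ v) (c * cost k v R)

/-- restricted Hamiltonian -/
def HZ (T : Finset (Finset Λ)) (h : Finset Λ → Matrix (Λ → Q) (Λ → Q) ℂ) (Z : Finset Λ) :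
    Matrix (Λ → Q) (Λ → Q) ℂ :=
  ∑ X ∈ T.filter (fun X => X ⊆ Z), h X

/-- positive local terms of range `R` -/
structure Sys (d : Λ → Λ → ℕ) (T : Finset (Finset Λ))
    (h : Finset Λ → Matrix (Λ → Q) (Λ → Q) ℂ) (R : ℕ) (J : ℝ) : Prop where
  ne : ∀ X ∈ T, X.Nonempty
  diam : ∀ X ∈ T, ∀ x ∈ X, ∀ y ∈ X, d x y ≤ R
  psd : ∀ X ∈ T, (h X).PosSemidef
  loc : ∀ X ∈ T, Loc (fun x => x ∈ X) (h X)
  op : ∀ X ∈ T, OpLe (h X) J

/-- `P` is the projection on the kernel of `M`, acting on `Z` -/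
structure IsKP (Z : Finset Λ) (M P : Matrix (Λ → Q) (Λ → Q) ℂ) : Prop where
  proj : Proj P
  loc : Loc (fun x => x ∈ Z) P
  mul : M * P = 0
  fix : ∀ v, M *ᵥ v = 0 → P *ᵥ v = v

/-- norm bound for the terms inside one ball of radius `R` -/
noncomputable def JJ (R : ℕ) (J : ℝ) : ℝ := J * 2 ^ ((2 * R + 1) ^ 2)

/-- the constant of one round -/
noncomputable def CC (g R : ℕ) (J γ : ℝ) : ℝ := 2 ^ g * (1 + JJ R J * (4 * R + 1) ^ 4 / γ)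

/-- the contraction of one round (squared norm) -/
noncomputable def thet (g R : ℕ) (J γ : ℝ) : ℝ := CC g R J γ / (1 + CC g R J γ)

end Vale.Agent.P356F
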