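import Vale.Agent.P356F.EntC

namespace Vale.Agent.P356F

open Matrix Vale.Agent.P356
open scoped ComplexOrder

variable {Λ Q : Type} [Fintype Λ] [DecidableEq Λ] [Fintype Q] [DecidableEq Q]

theorem ent_pt (K x : ℝ) (hK : 0 < K) (N : ℕ) (h : (1 / 8 : ℝ) ^ N / K ≤ x) :
    -Real.log x ≤ Real.log K +
      Real.log 8 * ∑ n ∈ Finset.range N, if x < (1 / 8 : ℝ) ^ n / K then (1 : ℝ) else 0 := by
  have h8 : 0 ≤ Real.log 8 := Real.log_nonneg (by norm_num)
  have key : ∀ M : ℕ, (1 / 8 : ℝ) ^ M / K ≤ x → -Real.log x ≤ Real.log K + Real.log 8 * M := by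
    intro M hM
    have h1 := Real.log_le_log (by positivity) hM
    rw [Real.log_div (by positivity) hK.ne', Real.log_pow, one_div, Real.log_inv] at h1
    linarith
  induction N with
  | zero => simpa using key 0 h
  | succ N ih =>
    by_cases h1 : (1 / 8 : ℝ) ^ N / K ≤ x
    · refine (ih h1).trans ?_
      rw [Finset.sum_range_succ, if_neg (not_lt.2 h1), add_zero]
    · have h2 : ∑ n ∈ Finset.range (N + 1), (if x < (1 / 8 : ℝ) ^ n / K then (1 : ℝ) else 0) =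
          ((N + 1 : ℕ) : ℝ) := by
        rw [Finset.sum_congr rfl (g := fun _ => (1 : ℝ)) fun n hn => ?_]
        · simp
        · refine if_pos ((not_le.1 h1).trans_le (div_le_div_of_nonneg_right ?_ hK.le))
          exact pow_le_pow_of_le_one (by norm_num) (by norm_num)
            (Nat.lt_succ_iff.1 (Finset.mem_range.1 hn))
      rw [h2]
      exact key _ h

theorem ent_geom (N : ℕ) : ∑ n ∈ Finset.range N, 2 * (1 / 4 : ℝ) ^ n ≤ 8 / 3 := by
  have h : ∑ n ∈ Finset.range N, 2 * (1 / 4 : ℝ) ^ n = 8 / 3 - 8 / 3 * (1 / 4 : ℝ) ^ N := by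
    induction N with
    | zero => simp
    | succ N ih => rw [Finset.sum_range_succ, ih]; ring
  rw [h]
  have : (0 : ℝ) ≤ (1 / 4 : ℝ) ^ N := by positivity
  linarith

theorem ent_tail {ι : Type} [Fintype ι] (l : ι → ℝ) (h0 : ∀ i, 0 ≤ l i) (h1 : ∑ i, l i = 1)
    (D T0 : ℝ) (hD : 0 < D) (hT : 0 < T0)
    (h : ∀ T t : ℝ, 0 < T → 0 < t →
      ∑ i ∈ Finset.univ.filter (fun i => l i < t), l i ≤ (T0 / T) ^ 2 + D * T * t) :
    ∑ i, Real.negMulLog (l i) ≤ Real.log (D * T0) + 6 := by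
  have hK : 0 < D * T0 := mul_pos hD hT
  have hlim : Filter.Tendsto (fun N : ℕ => (1 / 8 : ℝ) ^ N / (D * T0)) Filter.atTop (nhds 0) := by
    simpa using (tendsto_pow_atTop_nhds_zero_of_lt_one (r := (1 / 8 : ℝ)) (by norm_num)
      (by norm_num)).div_const (D * T0)
  have hev : ∀ i, ∀ᶠ N : ℕ in Filter.atTop, 0 < l i → (1 / 8 : ℝ) ^ N / (D * T0) ≤ l i := by
    intro i
    by_cases hi : 0 < l i
    · exact (hlim.eventually (ge_mem_nhds hi)).mono fun N hN _ => hN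
    · exact Filter.Eventually.of_forall fun N h => absurd h hi
  obtain ⟨N, hN⟩ := (Filter.eventually_all.2 hev).exists
  have h2 : ∀ i, Real.negMulLog (l i) ≤ l i * Real.log (D * T0) + Real.log 8 *
      ∑ n ∈ Finset.range N, if l i < (1 / 8 : ℝ) ^ n / (D * T0) then l i else 0 := by
    intro i
    rcases (h0 i).eq_or_lt with hi | hi
    · rw [← hi]
      simp
    · have h3 := mul_le_mul_of_nonneg_left (ent_pt _ _ hK N (hN i hi)) hi.le
      have h4 : (∑ n ∈ Finset.range N, if l i < (1 / 8 : ℝ) ^ n / (D * T0) then l i else 0) =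
          l i * ∑ n ∈ Finset.range N,
            if l i < (1 / 8 : ℝ) ^ n / (D * T0) then (1 : ℝ) else 0 := by
        rw [Finset.mul_sum]
        exact Finset.sum_congr rfl fun n _ => by split_ifs <;> simp
      rw [h4, Real.negMulLog]
      linarith
  have h5 : ∀ n : ℕ, (∑ i, if l i < (1 / 8 : ℝ) ^ n / (D * T0) then l i else 0) ≤
      2 * (1 / 4 : ℝ) ^ n := by
    intro n
    rw [← Finset.sum_filter]
    refine (h (T0 * 2 ^ n) _ (by positivity) (by positivity)).trans (le_of_eq ?_)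
    have e1 : (1 / 4 : ℝ) ^ n = (1 / 2 ^ n) ^ 2 := by
      rw [← _root_.one_div_pow, ← pow_mul, mul_comm, pow_mul]
      norm_num
    have e2 : (1 / 8 : ℝ) ^ n = (1 / 2 ^ n) ^ 3 := by
      rw [← _root_.one_div_pow, ← pow_mul, mul_comm, pow_mul]
      norm_num
    rw [e1, e2]
    field_simp
    ring
  have h8 : 0 ≤ Real.log 8 := Real.log_nonneg (by norm_num)
  have h9 : Real.log 8 ≤ 9 / 4 := by
    rw [show (8 : ℝ) = 2 ^ 3 by norm_num, Real.log_pow]
    have := Real.log_two_lt_d9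
    push_cast
    linarith
  refine (Finset.sum_le_sum fun i _ => h2 i).trans ?_
  rw [Finset.sum_add_distrib, ← Finset.sum_mul, h1, one_mul, ← Finset.mul_sum, Finset.sum_comm]
  have h10 := (Finset.sum_le_sum fun n (_ : n ∈ Finset.range N) => h5 n).trans (ent_geom N)
  nlinarith [mul_le_mul_of_nonneg_left h10 h8]

theorem ent_of_approx [Nonempty Q] (A : Finset Λ) (Ω : (Λ → Q) → ℂ) (hΩ : nsq Ω = 1)
    (D T0 : ℝ) (hD : 0 < D) (hT : 0 < T0)
    (h : ∀ T : ℝ, 0 < T → ∃ (a : (Λ → Q) → ℂ) (R : ℕ), RankLe (fun z => z ∈ A) a R ∧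
      (R : ℝ) ≤ D * T ∧ nn (Ω - a) ≤ T0 / T) :
    entropy A Ω ≤ Real.log (D * T0) + 6 := by
  obtain ⟨V0, l, hV, h1, h2, h3, h4⟩ := ent_basis A hΩ
  rw [h4]
  refine ent_tail l h2 h3 D T0 hD hT fun T t hT' ht => ?_
  obtain ⟨a, R, ha, hR, he⟩ := h T hT'
  refine (ent_cut A Ω a R ha _ he V0 l hV h1 h2 t ht.le).trans ?_
  have := mul_le_mul_of_nonneg_right hR ht.le
  linarith

theorem top_vec [Nonempty Q] (A : Finset Λ) (Ω : (Λ → Q) → ℂ) (hΩ : nsq Ω = 1) :
    ∃ (ζ : (Λ → Q) → ℂ) (μ : ℝ), 0 < μ ∧ -Real.log μ ≤ entropy A Ω ∧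
      RankLe (fun z => z ∈ A) ζ 1 ∧ star Ω ⬝ᵥ ζ = (μ : ℂ) ∧ nsq ζ = μ := by
  obtain ⟨V0, l, hV, h1, h2, h3, h4⟩ := ent_basis A hΩ
  obtain ⟨i0, -, hi⟩ := Finset.exists_max_image Finset.univ l Finset.univ_nonempty
  have hμ : 0 < l i0 := by
    by_contra hc
    have : ∑ i, l i ≤ 0 :=
      Finset.sum_nonpos fun i _ => (hi i (Finset.mem_univ _)).trans (not_lt.1 hc)
    linarith
  set u : ({x // x ∈ A} → Q) → ℝ := fun j => if j = i0 then 1 else 0 with hu
  have hP0 : fr V0 u * fr V0 u = fr V0 u := by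
    rw [fr_mul hV]
    congr 1
    funext j
    by_cases h : j = i0 <;> simp [hu, h]
  have hP : Proj (lift A (fr V0 u)) := ⟨by rw [← lift_ct, fr_ct], by rw [← lift_mul, hP0]⟩
  have h5 : star Ω ⬝ᵥ (lift A (fr V0 u) *ᵥ Ω) = (l i0 : ℂ) := by
    have := ip_lift A (fr V0 u) Ω Ω
    rw [← rho_amp, h1, fr_mul hV, ent_trace_fr hV, ip] at this
    rw [this]
    simp [hu]
  refine ⟨lift A (fr V0 u) *ᵥ Ω, l i0, hμ, ?_, ?_, h5, ?_⟩
  · rw [h4, ← one_mul (-Real.log (l i0)), ← h3, Finset.sum_mul]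
    refine Finset.sum_le_sum fun i _ => ?_
    rcases (h2 i).eq_or_lt with h6 | h6
    · rw [← h6]
      simp
    · have h7 := mul_le_mul_of_nonneg_left (Real.log_le_log h6 (hi i (Finset.mem_univ _))) h6.le
      rw [Real.negMulLog]
      linarith
  · refine ⟨Unit, inferInstance, fun _ s => V0 (res A s) i0,
      fun _ s => (V0ᴴ * amp A Ω) i0 (cores A s), by simp, fun _ => dep_res A fun a => V0 a i0,
      fun _ s t hst => ?_, fun s => ?_⟩
    · simp only [(loc_cores_iff A s t).2 hst]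
    · have h6 := congrFun (congrFun (amp_lift A (fr V0 u) Ω) (res A s)) (cores A s)
      rw [amp, glue_res] at h6
      rw [h6, fr, fn, Matrix.mul_assoc, Matrix.mul_apply]
      simp [mul_diagonal, hu, apply_ite]
  · apply Complex.ofReal_injective
    rw [← h5, nsq_eq]
    conv_lhs => rw [← hP.1, ← dot_mulVec, hP.1, mulVec_mulVec, hP.2]

end Vale.Agent.P356F
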