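import Vale.Agent.P356F.Nrm
import Vale.Agent.P356.Ent

namespace Vale.Agent.P356F

open Matrix Vale.Agent.P356
open scoped ComplexOrder

variable {Λ Q : Type} [Fintype Λ] [DecidableEq Λ] [Fintype Q] [DecidableEq Q]

theorem entc_ker {n ι : Type} [Fintype n] [DecidableEq n] [Fintype ι] (F : Matrix n ι ℂ) :
    ∃ (W : Matrix n n ℂ) (e : n → ℝ), W * Wᴴ = 1 ∧ (∀ j, e j = 0 ∨ e j = 1) ∧
      fr W e * F = 0 ∧ ∑ j, (1 - e j) ≤ (Fintype.card ι : ℝ) := by
  classical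
  have hM := isHermitian_mul_conjTranspose_self F
  obtain ⟨W, hW, h1⟩ := herm_spec hM
  have hr := hM.rank_eq_card_non_zero_eigs
  have hr2 : (F * Fᴴ).rank ≤ Fintype.card ι := (rank_mul_le_left _ _).trans (rank_le_card_width F)
  generalize hM.eigenvalues = k at h1 hr
  refine ⟨W, fun j => if k j = 0 then 1 else 0, hW, fun j => ?_, ?_, ?_⟩
  · by_cases h : k j = 0 <;> simp [h]
  · rw [← self_mul_conjTranspose_eq_zero, conjTranspose_mul, fr_ct, Matrix.mul_assoc,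
      ← Matrix.mul_assoc F, h1, ← Matrix.mul_assoc, fr_mul hW, fr_mul hW]
    have : (fun i => (if k i = 0 then (1 : ℝ) else 0) * k i * if k i = 0 then (1 : ℝ) else 0) =
        fun _ => 0 := by
      funext i
      by_cases h : k i = 0 <;> simp [h]
    rw [this]
    simp [fr, fn]
  · have : ∑ j, (1 - if k j = 0 then (1 : ℝ) else 0) = (Fintype.card {i // k i ≠ 0} : ℝ) := by
      rw [Fintype.card_subtype, Finset.card_filter]
      push_cast
      refine Finset.sum_congr rfl fun j _ => ?_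
      by_cases h : k j = 0 <;> simp [h]
    rw [this, ← hr]
    exact_mod_cast hr2

omit [Fintype Λ] [Fintype Q] [DecidableEq Q] in
theorem entc_fac [Nonempty Q] (A : Finset Λ) (a : (Λ → Q) → ℂ) (R : ℕ)
    (ha : RankLe (fun z => z ∈ A) a R) :
    ∃ (ι : Type) (_ : Fintype ι) (F : Matrix ({x // x ∈ A} → Q) ι ℂ)
      (G : Matrix ι ({x // x ∉ A} → Q) ℂ), Fintype.card ι ≤ R ∧ amp A a = F * G := by
  obtain ⟨ι, _, f, g, hc, hf, hg, hs⟩ := ha
  obtain ⟨q⟩ := ‹Nonempty Q›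
  refine ⟨ι, inferInstance, Matrix.of fun b i => f i (glue A b fun _ => q),
    Matrix.of fun i c => g i (glue A (fun _ => q) c), hc, ?_⟩
  ext b c
  rw [Matrix.mul_apply, amp, hs]
  refine Finset.sum_congr rfl fun i _ => ?_
  rw [Matrix.of_apply, Matrix.of_apply, hf i (glue A b c) (glue A b fun _ => q) fun x hx => by simp only [glue, dif_pos hx],
    hg i (glue A b c) (glue A (fun _ => q) c) fun x hx => by simp only [glue, dif_neg hx]]

theorem ent_cut [Nonempty Q] (A : Finset Λ) (Ω a : (Λ → Q) → ℂ) (R : ℕ)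
    (ha : RankLe (fun z => z ∈ A) a R) (e : ℝ) (he : nn (Ω - a) ≤ e)
    (V0 : Matrix ({x // x ∈ A} → Q) ({x // x ∈ A} → Q) ℂ) (l : ({x // x ∈ A} → Q) → ℝ)
    (hV : V0 * V0ᴴ = 1) (hl : rho A Ω = fr V0 l) (h0 : ∀ i, 0 ≤ l i) (t : ℝ) (ht : 0 ≤ t) :
    ∑ i ∈ Finset.univ.filter (fun i => l i < t), l i ≤ e ^ 2 + R * t := by
  obtain ⟨ι, _, F, G, hc, hFG⟩ := entc_fac A a R ha
  obtain ⟨W, u, hW, hu, hF, hs⟩ := entc_ker F
  have hu0 : ∀ j, 0 ≤ u j := fun j => by rcases hu j with h | h <;> simp [h]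
  have hu1 : ∀ j, u j ≤ 1 := fun j => by rcases hu j with h | h <;> simp [h]
  have hP0 : fr W u * fr W u = fr W u := by
    rw [fr_mul hW]
    congr 1
    funext j
    rcases hu j with h | h <;> simp [h]
  have hP : Proj (lift A (fr W u)) := ⟨by rw [← lift_ct, fr_ct], by rw [← lift_mul, hP0]⟩
  have hPa : lift A (fr W u) *ᵥ a = 0 := by
    refine amp_inj A ?_
    rw [amp_lift, hFG, ← Matrix.mul_assoc, hF, Matrix.zero_mul]
    rfl
  have h1 : nsq (lift A (fr W u) *ᵥ Ω) ≤ e ^ 2 := by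
    have h2 := hP.opLe (Ω - a)
    rw [mulVec_sub, hPa, sub_zero, one_mul] at h2
    rw [← nn_sq]
    exact pow_le_pow_left₀ (nn_nonneg _) (h2.trans he) 2
  have h2 : (nsq (lift A (fr W u) *ᵥ Ω) : ℂ) = trace (fr W u * fr V0 l) := by
    rw [← hl, rho_amp, ← ip_lift, nsq_eq, ip]
    conv_lhs => rw [← hP.1, ← dot_mulVec, hP.1, mulVec_mulVec, hP.2]
  have h3 := trace_fr_fr (V := V0) (W := W) u l
  rw [← h2, Complex.ofReal_re] at h3
  have hY := bip_uni hV hW
  set Y := V0ᴴ * W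
  have h4 : ∀ i, l i = ∑ j, l i * ‖Y i j‖ ^ 2 * u j + l i * ∑ j, ‖Y i j‖ ^ 2 * (1 - u j) := by
    intro i
    rw [Finset.mul_sum, ← Finset.sum_add_distrib]
    conv_lhs => rw [← mul_one (l i), ← bip_row hY i, Finset.mul_sum]
    exact Finset.sum_congr rfl fun j _ => by ring
  have h5 : ∑ i, ∑ j, ‖Y i j‖ ^ 2 * (1 - u j) ≤ (R : ℝ) := by
    rw [Finset.sum_comm]
    simp only [← Finset.sum_mul, bip_col hY, one_mul]
    exact hs.trans (by exact_mod_cast hc)
  have h6 : ∀ i, 0 ≤ ∑ j, ‖Y i j‖ ^ 2 * (1 - u j) := fun i =>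
    Finset.sum_nonneg fun j _ => mul_nonneg (sq_nonneg _) (by linarith [hu1 j])
  calc ∑ i ∈ Finset.univ.filter (fun i => l i < t), l i
      ≤ ∑ i ∈ Finset.univ.filter (fun i => l i < t),
        (∑ j, l i * ‖Y i j‖ ^ 2 * u j + t * ∑ j, ‖Y i j‖ ^ 2 * (1 - u j)) := by
        refine Finset.sum_le_sum fun i hi => ?_
        have h7 := mul_le_mul_of_nonneg_right (Finset.mem_filter.1 hi).2.le (h6 i)
        linarith [h4 i]
    _ ≤ ∑ i, (∑ j, l i * ‖Y i j‖ ^ 2 * u j + t * ∑ j, ‖Y i j‖ ^ 2 * (1 - u j)) :=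
        Finset.sum_le_sum_of_subset_of_nonneg (Finset.filter_subset _ _) fun i _ _ =>
          add_nonneg (Finset.sum_nonneg fun j _ =>
            mul_nonneg (mul_nonneg (h0 i) (sq_nonneg _)) (hu0 j)) (mul_nonneg ht (h6 i))
    _ ≤ e ^ 2 + R * t := by
        rw [Finset.sum_add_distrib, ← Finset.mul_sum, ← h3]
        nlinarith [mul_le_mul_of_nonneg_left h5 ht]

end Vale.Agent.P356F
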