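import Vale.Agent.P356.Stmt

namespace Vale.Agent.P356F

open Matrix Vale.Agent.P356
open scoped ComplexOrder

/-- The rectangle of sites with first coordinate in `[a, b]` and second coordinate in `[c, d]`. -/
def rect (L a b c d : ℕ) : Finset (Fin L × Fin L) :=
  Finset.univ.filter fun z => a ≤ z.1.val ∧ z.1.val ≤ b ∧ c ≤ z.2.val ∧ z.2.val ≤ d

/-- The restricted Hamiltonian: the sum of the terms whose support lies in `Z`. -/
def hamOn (L q R : ℕ) (h : Finset (Fin L × Fin L) → Op L q) (Z : Finset (Fin L × Fin L)) :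
    Op L q :=
  ∑ X ∈ (supports L R).filter (fun X => X ⊆ Z), h X

/-- Every term is positive semidefinite and annihilates `Ω`. -/
def FrustrationFree (L q R : ℕ) (h : Finset (Fin L × Fin L) → Op L q)
    (Ω : (Fin L × Fin L → Fin q) → ℂ) : Prop :=
  ∀ X ∈ supports L R, (h X).PosSemidef ∧ h X *ᵥ Ω = 0

/-- For every rectangle `Z` with sides at most `l`, `H_Z ^ 2 ≥ γ H_Z`. -/
def LocalGap (L q R : ℕ) (h : Finset (Fin L × Fin L) → Op L q) (γ : ℝ) (l : ℕ) : Prop :=
  ∀ a b c d : ℕ, b ≤ a + l → d ≤ c + l →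
    (hamOn L q R h (rect L a b c d) * hamOn L q R h (rect L a b c d)
      - (γ : ℂ) • hamOn L q R h (rect L a b c d)).PosSemidef

end Vale.Agent.P356F
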