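import Vale.Agent.P356F.Nrm
import Vale.Agent.P356F.Stmt
import Vale.Agent.P356.Fin

namespace Vale.Agent.P356F

open Matrix Vale.Agent.P356

/-- sup distance -/
def dI {L : ℕ} (x y : Fin L × Fin L) : ℕ :=
  max ((x.1.val : ℤ) - y.1.val).natAbs ((x.2.val : ℤ) - y.2.val).natAbs

/-- colour classes -/
def actI (L R τ : ℕ) : Finset (Fin L × Fin L) :=
  Finset.univ.filter fun x =>
    x.1.val % (2 * R + 1) + (2 * R + 1) * (x.2.val % (2 * R + 1)) = τ % (2 * R + 1) ^ 2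

/-- neighbourhoods of `A` -/
def nbh {L : ℕ} (A : Finset (Fin L × Fin L)) (j : ℕ) : Finset (Fin L × Fin L) :=
  Finset.univ.filter fun x => ∃ a ∈ A, dI a x ≤ j

/-- sites whose ball of radius `R` crosses one of the first `k` cuts -/
def crs {L : ℕ} (A : Finset (Fin L × Fin L)) (R k : ℕ) : Finset (Fin L × Fin L) :=
  Finset.univ.filter fun y =>
    ∃ j, j < k ∧ ¬ (ball dI y R ⊆ nbh A j ∨ Disjoint (ball dI y R) (nbh A j))

theorem geo_mem_ball {L : ℕ} {y x : Fin L × Fin L} {i : ℕ} : x ∈ ball dI y i ↔ dI y x ≤ i := by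
  simp only [ball, Finset.mem_filter, Finset.mem_univ, true_and]

theorem geo_mem_nbh {L : ℕ} {A : Finset (Fin L × Fin L)} {j : ℕ} {x : Fin L × Fin L} :
    x ∈ nbh A j ↔ ∃ a ∈ A, dI a x ≤ j := by
  simp only [nbh, Finset.mem_filter, Finset.mem_univ, true_and]

theorem geo_symm {L : ℕ} (x y : Fin L × Fin L) : dI x y = dI y x := by
  unfold dI
  omega

theorem geo_tri {L : ℕ} (x y z : Fin L × Fin L) : dI x z ≤ dI x y + dI y z := by
  unfold dI
  omega

theorem geo_self {L : ℕ} (x : Fin L × Fin L) : dI x x = 0 := by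
  unfold dI
  omega

theorem ball_rect {L : ℕ} (y : Fin L × Fin L) (i : ℕ) :
    ball dI y i = rect L (y.1.val - i) (y.1.val + i) (y.2.val - i) (y.2.val + i) := by
  ext x
  simp only [geo_mem_ball, rect, Finset.mem_filter, Finset.mem_univ, true_and, dI]
  omega

theorem geo_ball_card {L : ℕ} (y : Fin L × Fin L) (i : ℕ) :
    (ball dI y i).card ≤ (2 * i + 1) ^ 2 := by
  refine (Finset.card_le_card fun x hx => ?_).trans (geoSq_card L i y)
  have h := geo_mem_ball.1 hx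
  unfold dI at h
  exact geo_mem.2 (by omega)

/-- `geoSq_card` or `box_card_le` in P356/Geo -/
theorem met_dI (L : ℕ) : Met (dI (L := L)) :=
  ⟨geo_symm, geo_tri, geo_self, geo_ball_card⟩

theorem dI_le {L : ℕ} (x y : Fin L × Fin L) : dI x y ≤ dist1 x y := by
  unfold dI dist1
  omega

theorem geo_digit {m a b a' b' : ℕ} (ha : a < m) (ha' : a' < m) (h : a + m * b = a' + m * b') :
    a = a' ∧ b = b' := by
  have h1 : (a + m * b) % m = (a' + m * b') % m := by rw [h]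
  rw [Nat.add_mul_mod_self_left, Nat.add_mul_mod_self_left, Nat.mod_eq_of_lt ha,
    Nat.mod_eq_of_lt ha'] at h1
  subst h1
  exact ⟨rfl, Nat.eq_of_mul_eq_mul_left (by omega) (Nat.add_left_cancel h)⟩

theorem geo_far {m a b : ℕ} (h : a % m = b % m) : a = b ∨ a + m ≤ b ∨ b + m ≤ a := by
  rcases lt_trichotomy a b with h1 | h1 | h1
  · have h2 := Nat.le_of_dvd (by omega) ((Nat.modEq_iff_dvd' h1.le).1 h)
    omega
  · exact Or.inl h1
  · have h2 := Nat.le_of_dvd (by omega) ((Nat.modEq_iff_dvd' h1.le).1 h.symm)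
    omega

theorem actI_sep (L R τ : ℕ) : Sep dI R (actI L R τ) := by
  intro x hx x' hx' hne
  have h1 := (Finset.mem_filter.1 hx).2
  have h2 := (Finset.mem_filter.1 hx').2
  obtain ⟨h3, h4⟩ := geo_digit (Nat.mod_lt _ (by omega)) (Nat.mod_lt _ (by omega))
    (h1.trans h2.symm)
  have h5 := geo_far h3
  have h6 := geo_far h4
  have h7 : ¬ (x.1.val = x'.1.val ∧ x.2.val = x'.2.val) := fun h =>
    hne (Prod.ext (Fin.ext h.1) (Fin.ext h.2))
  unfold dI
  omega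

theorem geo_hit {n c : ℕ} (hc : c < n) (s : ℕ) : ∃ i, i < n ∧ c = (s + i) % n := by
  have h1 : s % n < n := Nat.mod_lt _ (by omega)
  have h2 := Nat.mod_add_div s n
  by_cases h : s % n ≤ c
  · refine ⟨c - s % n, by omega, ?_⟩
    rw [show s + (c - s % n) = c + n * (s / n) by omega, Nat.add_mul_mod_self_left,
      Nat.mod_eq_of_lt hc]
  · refine ⟨c + n - s % n, by omega, ?_⟩
    rw [show s + (c + n - s % n) = c + n * (s / n + 1) by rw [Nat.mul_succ]; omega,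
      Nat.add_mul_mod_self_left, Nat.mod_eq_of_lt hc]

theorem actI_cov (L R s : ℕ) (x : Fin L × Fin L) :
    ∃ i, i < (2 * R + 1) ^ 2 ∧ x ∈ actI L R (s + i) := by
  have h1 : x.1.val % (2 * R + 1) < 2 * R + 1 := Nat.mod_lt _ (by omega)
  have h2 : x.2.val % (2 * R + 1) + 1 ≤ 2 * R + 1 := Nat.mod_lt _ (by omega)
  have h3 := Nat.mul_le_mul_left (2 * R + 1) h2
  rw [Nat.mul_succ, ← sq] at h3
  obtain ⟨i, hi, h⟩ := geo_hit (n := (2 * R + 1) ^ 2)
    (c := x.1.val % (2 * R + 1) + (2 * R + 1) * (x.2.val % (2 * R + 1))) (by omega) s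
  exact ⟨i, hi, Finset.mem_filter.2 ⟨Finset.mem_univ _, h⟩⟩

theorem nbh_step {L : ℕ} (A : Finset (Fin L × Fin L)) (j n : ℕ) (z z' : Fin L × Fin L)
    (hz : z ∈ nbh A j) (h : dI z z' ≤ n) : z' ∈ nbh A (j + n) := by
  obtain ⟨a, ha, h1⟩ := geo_mem_nbh.1 hz
  exact geo_mem_nbh.2 ⟨a, ha, (geo_tri a z z').trans (add_le_add h1 h)⟩

theorem nbh_sub {L : ℕ} (A : Finset (Fin L × Fin L)) (j : ℕ) : A ⊆ nbh A j := fun a ha =>
  geo_mem_nbh.2 ⟨a, ha, (geo_self a).trans_le (Nat.zero_le _)⟩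

/-- `fin_edge` (P356/Fin) gives a boundary edge whose end `u` lies between `a` and `z`, so within
`ρ` of `y`; cover by the balls around the ends of boundary edges -/
theorem near_card {L : ℕ} (A S : Finset (Fin L × Fin L)) (ρ : ℕ)
    (h : ∀ y ∈ S, ∃ a ∈ A, ∃ z, z ∉ A ∧ dI y a ≤ ρ ∧ dI y z ≤ ρ) :
    S.card ≤ bdry A * (2 * ρ + 1) ^ 2 := by
  have h1 : S ⊆ (finE A).biUnion fun e => ball dI e.1 ρ := by
    intro y hy
    obtain ⟨a, ha, z, hz, h2, h3⟩ := h y hy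
    obtain ⟨u, v, hu, hv, h4, h5⟩ := fin_edge A z hz _ a ha rfl
    refine Finset.mem_biUnion.2 ⟨(u, v), by simp [finE, hu, hv, h4], geo_mem_ball.2 ?_⟩
    unfold finBtw at h5
    unfold dI at h2 h3 ⊢
    dsimp only
    omega
  exact (Finset.card_le_card h1).trans
    (Finset.card_biUnion_le_card_mul _ _ _ fun e _ => geo_ball_card e.1 ρ)

theorem nbh_card {L : ℕ} (A : Finset (Fin L × Fin L)) {j k : ℕ} (hj : j < k) :
    (nbh A j \ A).card ≤ bdry A * (2 * k + 1) ^ 2 := by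
  refine near_card A _ k fun y hy => ?_
  obtain ⟨h1, h2⟩ := Finset.mem_sdiff.1 hy
  obtain ⟨a, ha, h3⟩ := geo_mem_nbh.1 h1
  refine ⟨a, ha, y, h2, ?_, (geo_self y).trans_le (Nat.zero_le _)⟩
  rw [geo_symm]
  omega

theorem crs_card {L : ℕ} (A : Finset (Fin L × Fin L)) (R k : ℕ) :
    (crs A R k).card ≤ bdry A * (2 * (k + R) + 1) ^ 2 := by
  refine near_card A _ (k + R) fun y hy => ?_
  obtain ⟨j, hj, h⟩ := (Finset.mem_filter.1 hy).2
  rw [not_or] at h
  obtain ⟨z, hz, hz'⟩ := Finset.not_subset.1 h.1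
  obtain ⟨w, hw, hw'⟩ := Finset.not_disjoint_iff.1 h.2
  obtain ⟨a, ha, h1⟩ := geo_mem_nbh.1 hw'
  have h2 := geo_mem_ball.1 hz
  have h3 := geo_mem_ball.1 hw
  have h4 := geo_tri y w a
  rw [geo_symm w a] at h4
  exact ⟨a, ha, z, fun h5 => hz' (nbh_sub A j h5), by omega, by omega⟩

end Vale.Agent.P356F
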