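import Vale.Agent.P356F.Nrm

namespace Vale.Agent.P356F

open Matrix Vale.Agent.P356
open scoped ComplexOrder

variable {Λ Q : Type} [Fintype Λ] [DecidableEq Λ] [Fintype Q] [DecidableEq Q]

section aux
variable {n : Type} [Fintype n] [DecidableEq n]

theorem ker_ip (V : Matrix n n ℂ) (f : n → ℝ) (v : n → ℂ) :
    (ip v (fr V f) v).re = ∑ i, f i * ‖(Vᴴ *ᵥ v) i‖ ^ 2 := by
  rw [ip, fr, fn, ← mulVec_mulVec, ← mulVec_mulVec, dot_mulVec, dotProduct, Complex.re_sum]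
  refine Finset.sum_congr rfl fun i _ => ?_
  rw [mulVec_diagonal, Pi.star_apply, mul_left_comm, Complex.star_def, Complex.conj_mul',
    ← Complex.ofReal_pow, ← Complex.ofReal_mul, Complex.ofReal_re]

theorem ker_nsq {V : Matrix n n ℂ} (hV : V * Vᴴ = 1) (f : n → ℝ) (v : n → ℂ) :
    nsq (fr V f *ᵥ v) = ∑ i, f i * f i * ‖(Vᴴ *ᵥ v) i‖ ^ 2 := by
  rw [← ker_ip, ← nsq_fr hV, Complex.ofReal_re]

theorem ker_nonneg {V : Matrix n n ℂ} (hV : V * Vᴴ = 1) {f : n → ℝ} (h : (fr V f).PosSemidef)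
    (i : n) : 0 ≤ f i := by
  have h1 : 0 ≤ (ip (V *ᵥ Pi.single i 1) (fr V f) (V *ᵥ Pi.single i 1)).re :=
    (Complex.nonneg_iff.1 (h.dotProduct_mulVec_nonneg (V *ᵥ Pi.single i 1))).1
  rw [ker_ip, mulVec_mulVec, uni_symm hV, one_mulVec, Finset.sum_eq_single i
    (fun j _ hj => by simp [hj]) (by simp)] at h1
  simpa using h1

theorem ker_sub (V : Matrix n n ℂ) (f g : n → ℝ) :
    fr V (fun i => f i - g i) = fr V f - fr V g := by
  rw [eq_sub_iff_add_eq, fr, fr, fr, ← fn_add]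
  simp

theorem ker_inv {V : Matrix n n ℂ} (hV : V * Vᴴ = 1) (l : n → ℝ) :
    fr V (fun i => 1 / l i) * fr V l = 1 - fr V fun i => if l i = 0 then 1 else 0 := by
  have e : (1 : Matrix n n ℂ) = fr V fun _ => 1 := by
    rw [fr, ← fn_one hV]
    simp
  rw [fr_mul hV, e, ← ker_sub]
  refine congrArg (fr V) (funext fun i => ?_)
  split_ifs with h
  · simp [h]
  · simp [h]

end aux

theorem ker_diag [Nonempty Q] {Z : Finset Λ} {M : Matrix (Λ → Q) (Λ → Q) ℂ}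
    (hM : M.IsHermitian) (hl : Loc (fun x => x ∈ Z) M) :
    ∃ (V : Matrix (Λ → Q) (Λ → Q) ℂ) (l : (Λ → Q) → ℝ), V * Vᴴ = 1 ∧ M = fr V l ∧
      ∀ φ : ℝ → ℝ, Loc (fun x => x ∈ Z) (fr V fun s => φ (l s)) := by
  obtain ⟨m, rfl⟩ := hl.exists_lift
  have hm : m.IsHermitian := lift_inj Z ((lift_ct Z m).trans hM)
  obtain ⟨V, hV, e⟩ := herm_spec hm
  refine ⟨lift Z V, fun s => hm.eigenvalues (res Z s), ?_, ?_, fun φ => ?_⟩
  · rw [← lift_ct, ← lift_mul, hV, lift_one]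
  · rw [fr_lift, ← e]
  · rw [fr_lift Z V fun a => φ (hm.eigenvalues a)]
    exact loc_lift _ _

theorem ker_kp {Z : Finset Λ} {V : Matrix (Λ → Q) (Λ → Q) ℂ} {l : (Λ → Q) → ℝ}
    (hV : V * Vᴴ = 1) (hl : ∀ φ : ℝ → ℝ, Loc (fun x => x ∈ Z) (fr V fun s => φ (l s))) :
    IsKP Z (fr V l) (fr V fun s => if l s = 0 then 1 else 0) := by
  refine ⟨⟨fr_ct _ _, ?_⟩, hl fun t => if t = 0 then 1 else 0, ?_, fun v hv => ?_⟩
  · rw [fr_mul hV]
    refine congrArg (fr V) (funext fun i => ?_)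
    split_ifs <;> simp
  · rw [fr_mul hV, show (fun i => l i * if l i = 0 then 1 else 0) = fun i => l i - l i from
      funext fun i => by split_ifs with h <;> simp [h], ker_sub, sub_self]
  · have h1 := congrArg (· *ᵥ v) (ker_inv hV l)
    simp only [← mulVec_mulVec, hv, mulVec_zero, sub_mulVec, one_mulVec] at h1
    exact (sub_eq_zero.1 h1.symm).symm

theorem ker_uniq {Z : Finset Λ} {M P P' : Matrix (Λ → Q) (Λ → Q) ℂ} (h : IsKP Z M P)
    (h' : IsKP Z M P') : P = P' := by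
  have e : ∀ {A B : Matrix (Λ → Q) (Λ → Q) ℂ}, IsKP Z M A → IsKP Z M B → A * B = B :=
    fun hA hB => loc_mat_ext fun v => by
      rw [← mulVec_mulVec]
      exact hA.fix _ (by rw [mulVec_mulVec, hB.mul, zero_mulVec])
  have h1 := congrArg conjTranspose (e h' h)
  rw [conjTranspose_mul, h.proj.1, h'.proj.1, e h h'] at h1
  exact h1.symm

/-- `M = lift Z m` (`Loc.exists_lift`, `lift_inj`, `lift_ct`), `m = fr V0 l` (`herm_spec`),
`M = fr (lift Z V0) (l ∘ res Z)` (`fr_lift`); `P = fr V (if l = 0 then 1 else 0)` -/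
theorem exists_kp [Nonempty Q] (Z : Finset Λ) (M : Matrix (Λ → Q) (Λ → Q) ℂ)
    (hM : M.PosSemidef) (hl : Loc (fun x => x ∈ Z) M) : ∃ P, IsKP Z M P := by
  obtain ⟨V, l, hV, rfl, h⟩ := ker_diag hM.isHermitian hl
  exact ⟨_, ker_kp hV h⟩

/-- same diagonalisation; eigenvalues are `0` or `≥ γ`; `W = fr V (1 / l)`; the kernel
projection is unique (`P0 * P = P` and `P * P0 = P0`, take adjoints) -/
theorem kp_gap [Nonempty Q] {Z : Finset Λ} {M P : Matrix (Λ → Q) (Λ → Q) ℂ}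
    (hM : M.PosSemidef) (hl : Loc (fun x => x ∈ Z) M) (hP : IsKP Z M P) {γ : ℝ} (hγ : 0 < γ)
    (hg : GapOn M γ) :
    (∀ v, γ * nsq ((1 - P) *ᵥ v) ≤ (ip v M v).re) ∧
      ∃ W, Loc (fun x => x ∈ Z) W ∧ W * M = 1 - P ∧ OpLe W (1 / γ) := by
  obtain ⟨V, l, hV, rfl, h⟩ := ker_diag hM.isHermitian hl
  obtain rfl := ker_uniq hP (ker_kp hV h)
  have hl2 : ∀ i, l i = 0 ∨ γ ≤ l i := fun i => by
    have e : fr V l * fr V l - (γ : ℂ) • fr V l = fr V fun i => l i * l i - γ * l i := by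
      rw [ker_sub, fr_mul hV, fr, fr, fr, ← fn_smul]
      simp
    rw [GapOn, e] at hg
    have h1 := ker_nonneg hV hg i
    rcases (ker_nonneg hV hM i).eq_or_lt with h2 | h2
    · exact Or.inl h2.symm
    · exact Or.inr (by nlinarith)
  refine ⟨fun v => ?_, _, h fun t => 1 / t, ker_inv hV l, fun v => ?_⟩
  · rw [← ker_inv hV, fr_mul hV, ker_nsq hV, ker_ip, Finset.mul_sum]
    refine Finset.sum_le_sum fun i _ => ?_
    rw [← mul_assoc]
    refine mul_le_mul_of_nonneg_right ?_ (sq_nonneg _)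
    rcases hl2 i with h1 | h1
    · simp [h1]
    · rw [one_div_mul_cancel (hγ.trans_le h1).ne', mul_one, mul_one]
      exact h1
  · refine nn_le_of_nsq (mul_nonneg (one_div_pos.2 hγ).le (nn_nonneg v)) ?_
    rw [mul_pow, nn_sq, ker_nsq hV, ← nsq_uni (U := Vᴴ)
      (by rw [conjTranspose_conjTranspose, uni_symm hV]) v, nsq, Finset.mul_sum]
    refine Finset.sum_le_sum fun i _ => mul_le_mul_of_nonneg_right ?_ (sq_nonneg _)
    rcases hl2 i with h1 | h1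
    · simp [h1]
      positivity
    · rw [← sq]
      exact pow_le_pow_left₀ (one_div_pos.2 (hγ.trans_le h1)).le
        (one_div_le_one_div_of_le hγ h1) 2

variable {d : Λ → Λ → ℕ} {T : Finset (Finset Λ)} {h : Finset Λ → Matrix (Λ → Q) (Λ → Q) ℂ}
  {R : ℕ} {J : ℝ}

theorem hz_psd (S : Sys d T h R J) (Z : Finset Λ) : (HZ T h Z).PosSemidef :=
  posSemidef_sum _ fun X hX => S.psd X (Finset.mem_filter.1 hX).1

theorem hz_loc (S : Sys d T h R J) (Z : Finset Λ) : Loc (fun x => x ∈ Z) (HZ T h Z) :=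
  loc_sum _ _ fun X hX => (S.loc X (Finset.mem_filter.1 hX).1).mono
    fun _ hx => (Finset.mem_filter.1 hX).2 hx

/-- `Matrix.PosSemidef.dotProduct_mulVec_zero_iff` -/
theorem hz_term (S : Sys d T h R J) {Z : Finset Λ} {v : (Λ → Q) → ℂ} (hv : HZ T h Z *ᵥ v = 0)
    {X : Finset Λ} (hX : X ∈ T) (hXZ : X ⊆ Z) : h X *ᵥ v = 0 := by
  have h1 : star v ⬝ᵥ (HZ T h Z *ᵥ v) = 0 := by rw [hv, dotProduct_zero]
  rw [HZ, sum_mulVec, dotProduct_sum] at h1
  exact ((S.psd X hX).dotProduct_mulVec_zero_iff v).1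
    ((Finset.sum_eq_zero_iff_of_nonneg fun Y hY =>
      (S.psd Y (Finset.mem_filter.1 hY).1).dotProduct_mulVec_nonneg v).1 h1 X
      (Finset.mem_filter.2 ⟨hX, hXZ⟩))

theorem hz_mono (S : Sys d T h R J) {Z Z' : Finset Λ} (hZ : Z' ⊆ Z) {v : (Λ → Q) → ℂ}
    (hv : HZ T h Z *ᵥ v = 0) : HZ T h Z' *ᵥ v = 0 := by
  rw [HZ, sum_mulVec]
  exact Finset.sum_eq_zero fun X hX =>
    hz_term S hv (Finset.mem_filter.1 hX).1 ((Finset.mem_filter.1 hX).2.trans hZ)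

/-- at most `2 ^ |ball|` terms -/
theorem op_terms (hd : Met d) (S : Sys d T h R J) (hJ : 0 ≤ J) (x : Λ) (U : Finset (Finset Λ))
    (hU : ∀ X ∈ U, X ∈ T ∧ X ⊆ ball d x R) : OpLe (∑ X ∈ U, h X) (JJ R J) := by
  refine (opLe_sum U h J fun X hX => S.op X (hU X hX).1).mono ?_
  have h1 : U.card ≤ 2 ^ ((2 * R + 1) ^ 2) := by
    refine (Finset.card_le_card (t := (ball d x R).powerset) fun X hX =>
      Finset.mem_powerset.2 (hU X hX).2).trans ?_
    rw [Finset.card_powerset]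
    exact Nat.pow_le_pow_right two_pos (hd.card x R)
  rw [JJ, mul_comm]
  exact mul_le_mul_of_nonneg_left (by exact_mod_cast h1) hJ

/-- group the terms by a chosen site `a X ∈ X`; `h X * Qp (a X) = 0` as `X ⊆ ball (a X) R` -/
theorem hz_split (hd : Met d) (S : Sys d T h R J) (hJ : 0 ≤ J)
    {Qp : Λ → Matrix (Λ → Q) (Λ → Q) ℂ}
    (hQ : ∀ x, IsKP (ball d x R) (HZ T h (ball d x R)) (Qp x)) (Z : Finset Λ) :
    ∃ K : Λ → Matrix (Λ → Q) (Λ → Q) ℂ, HZ T h Z = ∑ x ∈ Z, K x * (1 - Qp x) ∧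
      ∀ x ∈ Z, OpLe (K x) (JJ R J) ∧ Loc (fun z => z ∈ Z) (K x) ∧ (1 - Qp x) * K x = K x := by
  obtain ⟨c, hc⟩ : ∃ c : Finset Λ → Option Λ, (∀ X x, c X = some x → x ∈ X) ∧
      ∀ X : Finset Λ, X.Nonempty → ∃ x, c X = some x := by
    refine ⟨fun X => if hX : X.Nonempty then some hX.choose else none, fun X x hx => ?_,
      fun X hX => ⟨hX.choose, dif_pos hX⟩⟩
    by_cases hX : X.Nonempty
    · simp only [dif_pos hX, Option.some.injEq] at hx
      exact hx ▸ hX.choose_spec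
    · simp [dif_neg hX] at hx
  obtain ⟨U, hU⟩ : ∃ U : Λ → Finset (Finset Λ),
      ∀ x, U x = (T.filter fun X => X ⊆ Z).filter fun X => c X = some x := ⟨_, fun _ => rfl⟩
  have hm : ∀ x, ∀ X ∈ U x, X ∈ T ∧ X ⊆ Z ∧ X ⊆ ball d x R := fun x X hX => by
    rw [hU, Finset.mem_filter, Finset.mem_filter] at hX
    exact ⟨hX.1.1, hX.1.2, fun y hy => mem_ball.2 (S.diam X hX.1.1 x (hc.1 X x hX.2) y hy)⟩
  have h0 : ∀ x, (∑ X ∈ U x, h X) * (1 - Qp x) = ∑ X ∈ U x, h X := fun x => by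
    rw [Matrix.mul_sub, Matrix.mul_one, Finset.sum_mul, sub_eq_self]
    refine Finset.sum_eq_zero fun X hX => loc_mat_ext fun v => ?_
    rw [← mulVec_mulVec, zero_mulVec]
    exact hz_term S (by rw [mulVec_mulVec, (hQ x).mul, zero_mulVec]) (hm x X hX).1 (hm x X hX).2.2
  refine ⟨fun x => ∑ X ∈ U x, h X, ?_, fun x _ => ⟨op_terms hd S hJ x _ fun X hX =>
    ⟨(hm x X hX).1, (hm x X hX).2.2⟩, loc_sum _ _ fun X hX => (S.loc X (hm x X hX).1).mono
      fun _ hy => (hm x X hX).2.1 hy, ?_⟩⟩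
  · simp only [h0]
    simp only [hU, Finset.sum_filter (p := fun X => c X = some _)]
    rw [Finset.sum_comm, HZ]
    refine Finset.sum_congr rfl fun X hX => ?_
    rw [Finset.mem_filter] at hX
    obtain ⟨x, hx⟩ := hc.2 X (S.ne X hX.1)
    rw [Finset.sum_eq_single x (fun y _ hy => if_neg fun e => hy (Option.some.inj (e.symm.trans hx)))
      (fun hn => (hn (hX.2 (hc.1 X x hx))).elim), if_pos hx]
  · have h1 : (∑ X ∈ U x, h X)ᴴ = ∑ X ∈ U x, h X :=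
      (posSemidef_sum _ fun X hX => S.psd X (hm x X hX).1).isHermitian
    have h2 := congrArg conjTranspose (h0 x)
    rwa [conjTranspose_mul, h1, (hQ x).proj.compl.1] at h2

/-- from `hz_split`: `<v, K G v> = <G v, K G v>` with `G = 1 - Qp x` -/
theorem hz_energy (hd : Met d) (S : Sys d T h R J) (hJ : 0 ≤ J)
    {Qp : Λ → Matrix (Λ → Q) (Λ → Q) ℂ}
    (hQ : ∀ x, IsKP (ball d x R) (HZ T h (ball d x R)) (Qp x)) (Z : Finset Λ)
    (v : (Λ → Q) → ℂ) :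
    (ip v (HZ T h Z) v).re ≤ JJ R J * ∑ x ∈ Z, nsq ((1 - Qp x) *ᵥ v) := by
  obtain ⟨K, e, hK⟩ := hz_split hd S hJ hQ Z
  rw [e, ip, sum_mulVec, dotProduct_sum, Complex.re_sum, Finset.mul_sum]
  refine Finset.sum_le_sum fun x hx => ?_
  obtain ⟨h1, -, h2⟩ := hK x hx
  have h3 := ip_le h1 ((1 - Qp x) *ᵥ v)
  rw [← h2, ← mulVec_mulVec, ← mulVec_mulVec, dot_mulVec, (hQ x).proj.compl.1]
  exact h3

end Vale.Agent.P356F
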