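import Vale.Agent.P356F.WalkB

namespace Vale.Agent.P356F

open Finset

section
variable {𝒜 Λ : Type} [Ring 𝒜] [Fintype Λ] [DecidableEq Λ]

/-- the hypotheses of the expansion -/
structure Env.Hyp (E : Env 𝒜 Λ) (η : ℝ) : Prop where
  hB : QN E.B
  hd : Met E.d
  hT : 1 ≤ E.T
  hr : 2 * E.R * E.T + E.R ≤ E.r
  hr1 : 1 ≤ E.r
  hS : ∀ σ, Sep E.d E.R (E.act σ)
  hQ : ∀ x x', 2 * E.R < E.d x x' → Commute (E.Q x) (E.Q x')
  hε : 0 < E.ε
  hε1 : 1296 * E.T * E.r ^ 2 * E.ε ≤ 1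
  hη0 : 0 ≤ η
  hη : 64 * Real.exp 3 * (2 * E.r + 1) ^ 2 * η ≤ E.ε
  hBQ : ∀ y, E.B (E.Q y) (Real.exp E.ε)
  hBG : ∀ y, E.B (1 - E.Q y) (Real.exp E.ε)
  hB1 : ∀ y, y ∉ E.cr → E.B (E.Q y) 1
  hO : ∀ y s, ∃ O : Λ → 𝒜,
    (1 - E.Q y) * up (fun σ => lay E.Q (cone E.d E.act E.R y s σ)) (s + 1) E.T =
      ∑ x ∈ ball E.d y E.r, O x * (1 - E.Q x) ∧
    ∀ x ∈ ball E.d y E.r, E.B (O x) η ∧ ∀ z, E.r + E.R < E.d y z → Commute (E.Q z) (O x)

variable {E : Env 𝒜 Λ} {η : ℝ}

omit [Fintype Λ] in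
theorem P_dmg_ne (C : Cfg 𝒜 Λ) (s : ℕ) (y : Λ) (U : ℕ → Finset Λ) {σ0 : ℕ} (O : 𝒜) (co : ℝ)
    {σ : ℕ} (h : σ ≠ σ0) :
    E.P (E.dmg C s y U σ0 O co) σ = lay E.Q (C.D σ \ U σ) * C.X σ := by
  simp only [Env.P, Env.dmg, Function.update_of_ne h]

omit [Fintype Λ] in
theorem P_dmg_eq (C : Cfg 𝒜 Λ) (s : ℕ) (y : Λ) (U : ℕ → Finset Λ) (σ0 : ℕ) (O : 𝒜) (co : ℝ) :
    E.P (E.dmg C s y U σ0 O co) σ0 = lay E.Q (C.D σ0 \ U σ0) * C.X σ0 * O := by
  simp only [Env.P, Env.dmg, Function.update_self, mul_assoc]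

theorem walk_defect (H : E.Hyp η) {t n : ℕ}
    (IH : ∀ (C : Cfg 𝒜 Λ) (m : ℕ), t + m = E.N → E.Valid t C → E.size t C ≤ n →
      E.B (up (E.P C) t m) (E.Phi t C)) (j : ℕ) :
    ∀ (C : Cfg 𝒜 Λ) (a b : ℕ) (y : Λ), t + a + 1 + b = E.N → E.Valid t C → E.size t C ≤ n →
      E.Clean C (t + a) y j →
      E.B (up (E.P C) t (a + 1) * (1 - E.Q y) * up (E.P C) (t + a + 1) b)
        (Real.exp E.ε * Real.exp 1 * ((2 * E.r + 1) ^ 2 * (η * Real.exp 1)) ^ j * E.Phi t C) := by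
  induction j with
  | zero =>
    intro C a b y hN hC hn _
    have hR : ∀ z, E.r + E.R < E.d y z → Commute (E.Q z) (1 - E.Q y) := fun z hz =>
      (Commute.one_right _).sub_right (H.hQ z y (by
        have := H.hd.symm y z
        have := H.hr
        have : E.R * 1 ≤ E.R * E.T := Nat.mul_le_mul_left _ H.hT
        nlinarith))
    have hV := valid_dmg H.hB H.hd hC (s := t + a) (y := y) (U := fun _ => ∅) (σ0 := t + a)
      (by simp) le_rfl (by omega) (H.hBG y) (Real.exp_pos _).le hR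
    have h1 := IH _ (a + 1 + b) (by omega) hV ((size_dmg _ _ _ _ _ _ _ _).trans hn)
    rw [up_add, up, P_dmg_eq, sdiff_empty,
      up_congr (P' := E.P C) fun σ _ h => by rw [P_dmg_ne _ _ _ _ _ _ (by omega), sdiff_empty]; rfl,
      up_congr (s := t + (a + 1)) (P' := E.P C) fun σ h _ => by
        rw [P_dmg_ne _ _ _ _ _ _ (by omega), sdiff_empty]; rfl] at h1
    rw [up, pow_zero, mul_one]
    refine H.hB.mono (by simpa only [Env.P, mul_assoc, add_assoc] using h1) ?_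
    exact phi_dmg H.hd H.hT H.hr1 H.hε H.hε1 hC _ _ _ (by omega) (by omega) _ (Real.exp_pos _).le
  | succ j ih =>
    intro C a b y hN hC hn hcl
    have e1 : (j + 1) * E.T = j * E.T + E.T := by ring
    obtain ⟨b', rfl⟩ : ∃ b', b = E.T + b' := ⟨b - E.T, by have := hcl.1; omega⟩
    obtain ⟨T', hT'⟩ : ∃ T', E.T = T' + 1 := ⟨E.T - 1, by have := H.hT; omega⟩
    obtain ⟨O, hO1, hO2⟩ := H.hO y (t + a)
    have hU := U_mem (E := E) H.hr y (t + a)
    have hsl := slice H.hd H.hr H.hS H.hQ hC hcl E.T le_rfl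
    rw [up_add _ _ E.T b', ← mul_assoc, mul_assoc _ (1 - E.Q y), hsl, hO1, mul_sum, mul_sum,
      sum_mul]
    have hΦ := phi_nonneg hC
    have hη0 := H.hη0
    refine H.hB.mono (H.hB.sum _ _ (Real.exp E.ε * Real.exp 1 *
      ((2 * E.r + 1) ^ 2 * (η * Real.exp 1)) ^ j * (η * Real.exp 1 * E.Phi t C))
      fun x hx => ?_) ?_
    · have hV := valid_dmg H.hB H.hd hC hU (σ0 := t + a + E.T) (by omega) le_rfl (hO2 x hx).1
        H.hη0 (hO2 x hx).2
      have h1 := ih _ (a + E.T) b' x (by omega) hV ((size_dmg _ _ _ _ _ _ _ _).trans hn)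
        (by rw [← add_assoc]; exact clean_dmg H.hd hU hcl (mem_ball.1 hx))
      have a1 : up (E.P (E.dmg C (t + a) y (E.U y (t + a)) (t + a + E.T) (O x) η)) t
          (a + E.T + 1) = up (E.P C) t (a + 1) *
          (up (fun σ => lay E.Q (C.D σ \ E.U y (t + a) σ) * C.X σ) (t + a + 1) E.T * O x) := by
        rw [show a + E.T + 1 = a + 1 + E.T by ring, up_add]
        congr 1
        · refine up_congr fun σ _ h => ?_
          rw [P_dmg_ne _ _ _ _ _ _ (by omega), Env.U, if_neg (by omega), sdiff_empty]; rfl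
        · have a2 : t + a + E.T = t + (a + 1) + T' := by omega
          rw [← add_assoc t a 1]
          conv_lhs => rw [show E.T = T' + 1 from hT']
          conv_rhs => rw [show E.T = T' + 1 from hT']
          rw [up, up, show t + a + (T' + 1) = t + a + 1 + T' by ring, P_dmg_eq, mul_assoc _ _ (O x),
            mul_assoc _ _ (O x), ← mul_assoc _ (C.X _) (O x)]
          congr 1
          exact up_congr fun σ _ h => P_dmg_ne _ _ _ _ _ _ (by omega)
      have a3 : up (E.P (E.dmg C (t + a) y (E.U y (t + a)) (t + a + E.T) (O x) η))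
          (t + (a + E.T) + 1) b' = up (E.P C) (t + a + 1 + E.T) b' := by
        rw [show t + (a + E.T) + 1 = t + a + 1 + E.T by ring]
        refine up_congr fun σ h _ => ?_
        rw [P_dmg_ne _ _ _ _ _ _ (by omega), Env.U, if_neg (by omega), sdiff_empty]; rfl
      rw [a1, a3] at h1
      have h2 := H.hB.mono h1 (mul_le_mul_of_nonneg_left
        (phi_dmg H.hd H.hT H.hr1 H.hε H.hε1 hC (t + a) y (E.U y (t + a))
          (σ0 := t + a + E.T) (by omega) (by omega) (O x) H.hη0)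
        (by positivity))
      simpa only [mul_assoc] using h2
    · have hc : ((ball E.d y E.r).card : ℝ) ≤ (2 * E.r + 1) ^ 2 := by
        exact_mod_cast H.hd.card y E.r
      refine (mul_le_mul_of_nonneg_right hc (by positivity)).trans (le_of_eq ?_)
      ring

theorem walk_eps (H : E.Hyp η) : E.T * E.ε ≤ 1 ∧ E.ε ≤ 1 := by
  have h1 : (1 : ℝ) ≤ E.T := by exact_mod_cast H.hT
  have h2 : (1 : ℝ) ≤ E.r := by exact_mod_cast H.hr1
  have h3 := H.hε1
  have h4 := H.hε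
  have h5 : 1 ≤ (E.r : ℝ) ^ 2 := one_le_pow₀ h2
  have h6 : 0 < E.T * E.ε := by positivity
  constructor <;> nlinarith

theorem walk_num (H : E.Hyp η) {j : ℕ} (hj : j ≠ 0) :
    1 + Real.exp E.ε * Real.exp 1 * ((2 * E.r + 1) ^ 2 * (η * Real.exp 1)) ^ j ≤
      Real.exp (E.ε / 64 ^ j) := by
  set β : ℝ := (2 * E.r + 1) ^ 2 * (η * Real.exp 1) with hβ
  have hη0 := H.hη0
  have b0 : 0 ≤ β := by positivity
  have he : Real.exp E.ε ≤ Real.exp 1 := Real.exp_le_exp.2 (walk_eps H).2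
  have e1 : 1 ≤ Real.exp 1 := Real.one_le_exp (by norm_num)
  have h1 : Real.exp 1 * Real.exp 1 * (64 * β) ≤ E.ε := by
    refine le_trans (le_of_eq ?_) H.hη
    rw [show (3 : ℝ) = 1 + 1 + 1 by norm_num, Real.exp_add, Real.exp_add, hβ]; ring
  have h2 : 64 * β ≤ 1 := by
    have := (walk_eps H).2
    have : 1 ≤ Real.exp 1 * Real.exp 1 := by nlinarith
    nlinarith
  have h3 : (64 * β) ^ j ≤ 64 * β := pow_le_of_le_one (by positivity) h2 hj
  have h4 : Real.exp E.ε * Real.exp 1 * β ^ j ≤ E.ε / 64 ^ j := by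
    rw [le_div_iff₀ (by positivity), mul_assoc, mul_comm (β ^ j), ← mul_pow]
    refine le_trans ?_ h1
    gcongr
  linarith [Real.add_one_le_exp (E.ε / 64 ^ j)]

theorem walk_main (H : E.Hyp η) (n : ℕ) : ∀ (t : ℕ) (C : Cfg 𝒜 Λ) (m : ℕ), t + m = E.N →
    E.Valid t C → E.size t C ≤ n → E.B (up (E.P C) t m) (E.Phi t C) := by
  have base : ∀ (t : ℕ) (C : Cfg 𝒜 Λ), t = E.N → E.B (up (E.P C) t 0) (E.Phi t C) := by
    intro t C h
    simpa [up, Env.Phi, h] using H.hB.one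
  induction n with
  | zero =>
    intro t C m hN _ hn
    rcases m with _ | m
    · exact base t C hN
    · have := single_le_sum (f := fun σ => (C.D σ).card + 1) (fun _ _ => Nat.zero_le _)
        (show t ∈ Ico t E.N from mem_Ico.2 ⟨le_rfl, by omega⟩)
      unfold Env.size at hn
      omega
  | succ n ih =>
    intro t C m hN hC hn
    rcases m with _ | m
    · exact base t C hN
    have htN : t < E.N := by omega
    rcases (C.D t).eq_empty_or_nonempty with he | ⟨v, hv⟩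
    · have hV : E.Valid (t + 1) C :=
        ⟨hC.sub, hC.bx, hC.c0, hC.com, fun σ hσ => hC.good σ (by omega)⟩
      have hs : E.size (t + 1) C ≤ n := by
        unfold Env.size at hn ⊢
        rw [sum_eq_sum_Ico_succ_bot htN] at hn
        omega
      have h1 := H.hB.mul (hC.bx t) (ih (t + 1) C m (by omega) hV hs) (hC.c0 t)
      rw [up_succ', Env.P, he, lay_empty, one_mul]
      refine H.hB.mono h1 (le_of_eq ?_)
      unfold Env.Phi
      rw [prod_eq_prod_Ico_succ_bot htN, sum_eq_sum_Ico_succ_bot htN, he, sum_empty, zero_add,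
        mul_assoc]
    · let C1 : Cfg 𝒜 Λ := { C with D := Function.update C.D t ((C.D t).erase v) }
      have d1 : C1.D t = (C.D t).erase v := Function.update_self _ _ _
      have d2 : ∀ σ, σ ≠ t → C1.D σ = C.D σ := fun σ h => Function.update_of_ne h _ _
      have d3 : ∀ σ, C1.D σ ⊆ C.D σ := fun σ => by
        by_cases e : σ = t
        · rw [e, d1]; exact erase_subset _ _
        · rw [d2 σ e]
      have hcl : ∀ σ y j, t ≤ σ → E.Clean C σ y j → E.Clean C1 σ y j := fun σ y j hσ h =>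
        ⟨h.1, fun σ' a1 a2 => by rw [d2 σ' (by omega)]; exact h.2 σ' a1 a2⟩
      have hV : E.Valid t C1 := ⟨fun σ => (d3 σ).trans (hC.sub σ), hC.bx, hC.c0, hC.com,
        fun σ hσ y hy => (hC.good σ hσ y (d3 σ hy)).imp id fun h => ⟨hcl σ y _ hσ h.1, h.2⟩⟩
      have hs : E.size t C1 ≤ n := by
        unfold Env.size at hn ⊢
        rw [sum_eq_sum_Ico_succ_bot htN] at hn ⊢
        rw [sum_congr rfl fun σ hσ => by rw [d2 σ (by have := (mem_Ico.1 hσ).1; omega)], d1,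
          card_erase_of_mem hv]
        have := card_pos.2 ⟨v, hv⟩
        omega
      have hcm : ∀ x ∈ C.D t, ∀ x' ∈ C.D t, x ≠ x' → Commute (E.Q x) (E.Q x') :=
        fun x hx x' hx' hne => H.hQ x x' (H.hS _ x (hC.sub _ hx) x' (hC.sub _ hx') hne)
      have eU : up (E.P C) (t + 1) m = up (E.P C1) (t + 1) m :=
        up_congr fun σ h _ => by rw [Env.P, Env.P, d2 σ (by omega)]
      have eW : up (E.P C) t (m + 1) = E.Q v * up (E.P C1) t (m + 1) := by
        rw [up_succ', up_succ', eU, Env.P, Env.P, lay_erase hv hcm, d1]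
        simp only [mul_assoc]
        rfl
      have eΦ : E.Phi t C = Real.exp (E.psi v (C.δ t v)) * E.Phi t C1 := by
        unfold Env.Phi
        rw [sum_eq_sum_Ico_succ_bot htN, sum_eq_sum_Ico_succ_bot htN, d1,
          sum_congr rfl fun σ hσ => show ∑ y ∈ C1.D σ, E.psi y (C1.δ σ y) =
            ∑ y ∈ C.D σ, E.psi y (C.δ σ y) by
              rw [d2 σ (by have := (mem_Ico.1 hσ).1; omega)],
          ← add_sum_erase _ _ hv, add_assoc, Real.exp_add]
        ring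
      have h1 := ih t C1 (m + 1) hN hV hs
      rw [eW, eΦ]
      by_cases hcr : v ∈ E.cr
      · rw [Env.psi, if_pos hcr]
        by_cases h0 : C.δ t v = 0
        · rw [h0, pow_zero, div_one]
          exact H.hB.mul (H.hBQ v) h1 (Real.exp_pos _).le
        obtain ⟨g1, g2⟩ := (hC.good t le_rfl v hv).resolve_left h0
        have h2 := walk_defect H (ih t) (C.δ t v) C1 0 m v (by omega) hV hs
          (hcl t v _ le_rfl g1)
        have c1 : Commute (E.P C1 t) (1 - E.Q v) := by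
          refine (Commute.one_right _).sub_right (Commute.symm (Commute.mul_right ?_ ?_))
          · rw [d1]
            exact commute_lay fun x hx =>
              hcm v hv x (mem_of_mem_erase hx) (ne_of_mem_erase hx).symm
          · refine hC.com t v fun u hu => ?_
            have := g2 u hu
            have := H.hd.symm u v
            have := H.hr
            have : 1 * (3 * E.r) ≤ C.δ t v * (3 * E.r) := Nat.mul_le_mul_right _ (by omega)
            omega
        rw [zero_add, up_one, add_zero, c1.eq, mul_assoc, ← up_succ'] at h2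
        have h3 := H.hB.add h1 (H.hB.neg h2)
        rw [show up (E.P C1) t (m + 1) + -((1 - E.Q v) * up (E.P C1) t (m + 1)) =
          E.Q v * up (E.P C1) t (m + 1) by noncomm_ring] at h3
        refine H.hB.mono h3 ?_
        have := mul_le_mul_of_nonneg_right (walk_num H h0) (phi_nonneg hV)
        linarith
      · rw [Env.psi, if_neg hcr, Real.exp_zero]
        exact H.hB.mul (H.hB1 v hcr) h1 zero_le_one

theorem walk_env (H : E.Hyp η) :
    E.B (up (fun σ => lay E.Q (E.act σ)) 0 E.N) (Real.exp (2 * E.cr.card)) := by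
  let C : Cfg 𝒜 Λ := ⟨E.act, fun _ => 1, fun _ => 1, fun _ => ∅, fun σ _ => (E.N - 1 - σ) / E.T⟩
  have hV : E.Valid 0 C := by
    refine ⟨fun _ => Subset.rfl, fun _ => H.hB.one, fun _ => zero_le_one,
      fun _ _ _ => Commute.one_right _, fun σ _ y _ => ?_⟩
    by_cases h0 : (E.N - 1 - σ) / E.T = 0
    · exact Or.inl h0
    · have a1 := Nat.div_mul_le_self (E.N - 1 - σ) E.T
      have a2 : E.N - 1 - σ ≠ 0 := fun h => h0 (by rw [h, Nat.zero_div])
      refine Or.inr ⟨⟨?_, fun _ _ _ => ⟨fun _ hx _ => hx, by simp [C]⟩⟩, by simp [C]⟩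
      change σ + (E.N - 1 - σ) / E.T * E.T < E.N
      omega
  have h1 := walk_main H _ 0 C E.N (by omega) hV le_rfl
  rw [up_congr (P := E.P C) (P' := fun σ => lay E.Q (E.act σ)) fun σ _ _ => mul_one _] at h1
  refine H.hB.mono h1 ?_
  unfold Env.Phi
  rw [prod_const_one, one_mul]
  refine Real.exp_le_exp.2 ?_
  have hε := H.hε
  have a1 : ∀ σ, ∑ y ∈ C.D σ, E.psi y (C.δ σ y) ≤
      E.cr.card * E.ε * (1 / 8 : ℝ) ^ ((E.N - σ - 1) / E.T) := fun σ => by
    change ∑ y ∈ E.act σ, E.psi y ((E.N - 1 - σ) / E.T) ≤ _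
    unfold Env.psi
    rw [← sum_filter, sum_const, nsmul_eq_mul, mul_assoc, Nat.sub_right_comm E.N 1 σ]
    refine mul_le_mul (Nat.cast_le.2 (card_le_card fun x hx => (mem_filter.1 hx).2)) ?_
      (by positivity) (by positivity)
    rw [div_eq_mul_one_div, ← one_div_pow]
    exact mul_le_mul_of_nonneg_left (pow_le_pow_left₀ (by norm_num) (by norm_num) _) hε.le
  refine (sum_le_sum fun σ _ => a1 σ).trans ?_
  rw [← mul_sum]
  have a2 := sum_time E.T E.N 0 E.N H.hT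
  rw [filter_true_of_mem fun σ hσ => by have := (mem_Ico.1 hσ).2; omega] at a2
  have a3 := mul_le_mul_of_nonneg_left a2 (show (0 : ℝ) ≤ E.cr.card * E.ε by positivity)
  have h2 : (1 : ℝ) ≤ E.r := by exact_mod_cast H.hr1
  have h5 : 1 ≤ (E.r : ℝ) ^ 2 := one_le_pow₀ h2
  have h6 : (0 : ℝ) ≤ E.T * E.ε := by positivity
  have h7 : 4 * (E.T * E.ε) ≤ 1 := by have := H.hε1; nlinarith
  have h8 : (0 : ℝ) ≤ E.cr.card := by positivity
  nlinarith

end

theorem walk {𝒜 Λ : Type} [Ring 𝒜] [Fintype Λ] [DecidableEq Λ] {B : 𝒜 → ℝ → Prop} (hB : QN B)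
    {d : Λ → Λ → ℕ} (hd : Met d) {act : ℕ → Finset Λ} {Q : Λ → 𝒜} (cr : Finset Λ)
    {R r T : ℕ} {ε η : ℝ} (hT : 1 ≤ T) (hr : 2 * R * T + R ≤ r) (hr1 : 1 ≤ r)
    (hS : ∀ σ, Sep d R (act σ)) (hQ : ∀ x x', 2 * R < d x x' → Commute (Q x) (Q x'))
    (hε : 0 < ε) (hε1 : 1296 * T * r ^ 2 * ε ≤ 1) (hη0 : 0 ≤ η)
    (hη : 64 * Real.exp 3 * (2 * r + 1) ^ 2 * η ≤ ε)
    (hBQ : ∀ y, B (Q y) (Real.exp ε)) (hBG : ∀ y, B (1 - Q y) (Real.exp ε))
    (hB1 : ∀ y, y ∉ cr → B (Q y) 1)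
    (hO : ∀ y s, ∃ O : Λ → 𝒜,
      (1 - Q y) * up (fun σ => lay Q (cone d act R y s σ)) (s + 1) T =
        ∑ x ∈ ball d y r, O x * (1 - Q x) ∧
      ∀ x ∈ ball d y r, B (O x) η ∧ ∀ z, r + R < d y z → Commute (Q z) (O x))
    (N : ℕ) : B (up (fun σ => lay Q (act σ)) 0 N) (Real.exp (2 * cr.card)) :=
  walk_env (E := ⟨B, d, act, Q, cr, R, r, T, N, ε⟩) (η := η)
    ⟨hB, hd, hT, hr, hr1, hS, hQ, hε, hε1, hη0, hη, hBQ, hBG, hB1, hO⟩

end Vale.Agent.P356F
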