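import Vale.Agent.P356F.Atom
import Vale.Agent.P356F.Ent
import Vale.Agent.P356F.Cone
import Vale.Agent.P356F.Walk
import Vale.Agent.P356F.Geo

namespace Vale.Agent.P356F

open Matrix Vale.Agent.P356 Filter Topology
open scoped ComplexOrder

theorem main_par (g R : ℕ) (hg : 1 ≤ g) (a ρ : ℝ) (ha : 0 ≤ a) (h0 : 0 ≤ ρ) (h1 : ρ < 1) :
    ∃ m : ℕ, 1 ≤ m ∧ 64 * Real.exp 3 * (2 * ((2 * R * (g * m) + R + 1 : ℕ) : ℝ) + 1) ^ 2 *
      (Real.sqrt (ρ ^ m * a) * Real.exp 1) ≤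
      1 / (1296 * ((g * m : ℕ) : ℝ) * ((2 * R * (g * m) + R + 1 : ℕ) : ℝ) ^ 2) := by
  have hs0 := Real.sqrt_nonneg ρ
  have hs1 : Real.sqrt ρ < 1 := by rw [Real.sqrt_lt' one_pos]; simpa using h1
  set c : ℝ := 2 * R * g + R + 1 with hc
  set K : ℝ := 64 * Real.exp 3 * (3 * c) ^ 2 * (Real.sqrt a * Real.exp 1) * (1296 * g * c ^ 2)
  have ht := (tendsto_pow_const_mul_const_pow_of_abs_lt_one 5
    (show |Real.sqrt ρ| < 1 by rwa [abs_of_nonneg hs0])).const_mul K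
  rw [mul_zero] at ht
  obtain ⟨m, hm, hm1⟩ := ((ht.eventually (ge_mem_nhds one_pos)).and (eventually_ge_atTop 1)).exists
  refine ⟨m, hm1, ?_⟩
  have m1 : (1 : ℝ) ≤ m := by exact_mod_cast hm1
  have g1 : (1 : ℝ) ≤ g := by exact_mod_cast hg
  have R0 : (0 : ℝ) ≤ R := by positivity
  set r : ℝ := ((2 * R * (g * m) + R + 1 : ℕ) : ℝ) with hr
  have r1 : 1 ≤ r := by rw [hr]; exact_mod_cast (by omega)
  have r2 : r ≤ c * m := by rw [hr, hc]; push_cast; nlinarith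
  rw [le_div_iff₀ (by push_cast; positivity), Real.sqrt_mul (pow_nonneg h0 m),
    show Real.sqrt (ρ ^ m) = Real.sqrt ρ ^ m by
      rw [Real.sqrt_eq_iff_mul_self_eq (pow_nonneg h0 m) (pow_nonneg hs0 m), ← mul_pow,
        Real.mul_self_sqrt h0]]
  refine le_trans ?_ hm
  calc _ ≤ 64 * Real.exp 3 * (3 * (c * m)) ^ 2 * (Real.sqrt ρ ^ m * Real.sqrt a * Real.exp 1) *
        (1296 * ((g * m : ℕ) : ℝ) * (c * m) ^ 2) := by gcongr; linarith
    _ = _ := by push_cast; ring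

variable {Λ Q : Type} [Fintype Λ] [DecidableEq Λ] [Fintype Q] [DecidableEq Q] [Nonempty Q]

theorem main_ent {k : ℕ} (hk : 1 ≤ k) (A : Finset Λ) (X : ℕ → Finset Λ) (w : ℕ)
    (hA : ∀ j, j < k → A ⊆ X j ∧ (X j \ A).card ≤ w) {Ω : (Λ → Q) → ℂ} (hΩ : nsq Ω = 1)
    (W : ℕ → Matrix (Λ → Q) (Λ → Q) ℂ) (c : ℝ) (hc : 0 ≤ c)
    (hW : ∀ N, OpB X k (W N) (Real.exp c))
    (hcv : ∀ δ : ℝ, 0 < δ → ∃ N, ∀ ζ : (Λ → Q) → ℂ,
      nn (W N *ᵥ ζ - (star Ω ⬝ᵥ ζ) • Ω) ≤ δ * nn ζ) :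
    entropy A Ω ≤ 4 * w * Real.log (Fintype.card Q) + 4 * c + 16 := by
  obtain ⟨ζ, μ, hμ, hS, hr, hd, hn⟩ := top_vec A Ω hΩ
  have q1 : 1 ≤ Fintype.card Q := Fintype.card_pos
  set D : ℕ := Fintype.card Q ^ w with hD
  set F : ℕ := Fintype.card Q ^ Fintype.card Λ with hF
  have D1 : (1 : ℝ) ≤ D := by exact_mod_cast Nat.one_le_pow _ _ q1
  have F1 : (1 : ℝ) ≤ F := by exact_mod_cast Nat.one_le_pow _ _ q1
  have hz : nn ζ = Real.sqrt μ := by rw [nn, hn]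
  have z0 : 0 < nn ζ := by rw [hz]; positivity
  have hζ : ∀ j, j < k → RankLe (fun z => z ∈ X j) ζ D := fun j hj =>
    (rank_move (X j \ A) (fun x hx => ⟨fun h => (hA j hj).1 h, fun h => by
      by_contra h'; exact hx (Finset.mem_sdiff.2 ⟨h, h'⟩)⟩) hr).mono (by
        rw [mul_one]; exact Nat.pow_le_pow_right q1 (hA j hj).2)
  obtain ⟨N, hN⟩ := hcv (1 / F) (by positivity)
  have h1 := hW N ζ (fun _ => D) hζ
  have h2 := dec_atom (X := X) (k := k) (v := -(W N *ᵥ ζ - (star Ω ⬝ᵥ ζ) • Ω))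
    (R := fun _ => F) fun j _ => rank_triv _ _
  rw [cost_const hk] at h1 h2
  set M : ℝ := 2 * Real.exp c * Real.sqrt (nn ζ) * Real.sqrt D with hM
  have M0 : 0 < M := by positivity
  have h3 : Dec X k ((μ : ℂ) • Ω) M := by
    have e : (μ : ℂ) • Ω = W N *ᵥ ζ + -(W N *ᵥ ζ - (star Ω ⬝ᵥ ζ) • Ω) := by rw [hd]; abel
    rw [e]
    refine (h1.add h2).mono ?_
    have a1 : Real.sqrt (nn (-(W N *ᵥ ζ - (star Ω ⬝ᵥ ζ) • Ω))) * Real.sqrt F ≤
        Real.sqrt (nn ζ) := by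
      rw [← Real.sqrt_mul (nn_nonneg _), nn_neg]
      refine Real.sqrt_le_sqrt ?_
      have := mul_le_mul_of_nonneg_right (hN ζ) (show (0 : ℝ) ≤ F by positivity)
      rwa [one_div, mul_comm (F : ℝ)⁻¹, inv_mul_cancel_right₀ (by positivity)] at this
    have a2 : 1 ≤ Real.exp c * Real.sqrt D :=
      one_le_mul_of_one_le_of_one_le (Real.one_le_exp hc) (Real.one_le_sqrt.2 D1)
    have a3 := mul_le_mul_of_nonneg_left a2 (Real.sqrt_nonneg (nn ζ))
    rw [hM]; linarith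
  have h4 := ent_of_approx A Ω hΩ D (M ^ 2 / μ) (by positivity) (by positivity) fun t ht => by
    obtain ⟨a, R, b1, b2, b3⟩ := dec_approx hk A w hA M0 h3 t ht
    refine ⟨(μ : ℂ)⁻¹ • a, R, b1.smul _, by rw [hD]; exact_mod_cast b2, ?_⟩
    have e : Ω - (μ : ℂ)⁻¹ • a = (μ : ℂ)⁻¹ • ((μ : ℂ) • Ω - a) := by
      rw [smul_sub, smul_smul, inv_mul_cancel₀ (by exact_mod_cast hμ.ne'), one_smul]
    rw [e, nn_smul, norm_inv, Complex.norm_real, Real.norm_of_nonneg hμ.le, div_right_comm,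
      div_eq_inv_mul _ μ]
    exact mul_le_mul_of_nonneg_left b3 (by positivity)
  have e1 : (D : ℝ) * (M ^ 2 / μ) = 4 * Real.exp c ^ 2 * D ^ 2 / Real.sqrt μ := by
    rw [hM, mul_pow, mul_pow, Real.sq_sqrt z0.le, Real.sq_sqrt (by positivity), hz]
    have s0 : 0 < Real.sqrt μ := by positivity
    have s1 := Real.mul_self_sqrt hμ.le
    generalize Real.sqrt μ = s at *
    rw [← s1]
    field_simp
    norm_num
  have e2 : Real.log D = w * Real.log (Fintype.card Q) := by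
    rw [hD]; push_cast; rw [Real.log_pow]
  rw [e1, Real.log_div (by positivity) (by positivity), Real.log_mul (by positivity)
    (by positivity), Real.log_mul (by positivity) (by positivity), Real.log_pow, Real.log_pow,
    Real.log_exp, Real.log_sqrt hμ.le, e2] at h4
  have l4 : Real.log 4 ≤ 2 := by
    rw [show (4 : ℝ) = 2 ^ 2 by norm_num, Real.log_pow]
    have := Real.log_two_lt_d9
    push_cast; linarith
  push_cast at h4
  linarith

omit [Fintype Λ] [DecidableEq Λ] in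
theorem area_abs (g R : ℕ) (hg : 1 ≤ g) (J γ : ℝ) (hJ : 0 ≤ J) (hγ : 0 < γ) :
    ∃ m k : ℕ, 1 ≤ k ∧ ∀ (Λ : Type) [Fintype Λ] [DecidableEq Λ] (d : Λ → Λ → ℕ)
      (T : Finset (Finset Λ)) (h : Finset Λ → Matrix (Λ → Q) (Λ → Q) ℂ) (act : ℕ → Finset Λ)
      (Ω : (Λ → Q) → ℂ) (A : Finset Λ) (X : ℕ → Finset Λ) (cr : Finset Λ) (w : ℕ) (Δ : ℝ),
      Met d → Sys d T h R J → (∀ σ, Sep d R (act σ)) → (∀ s x, ∃ i, i < g ∧ x ∈ act (s + i)) →
      (∀ y i, i ≤ m → GapOn (HZ T h (ball d y (2 * R * (g * i) + R))) γ) → nsq Ω = 1 →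
      (∀ X ∈ T, h X *ᵥ Ω = 0) → 0 < Δ →
      (∑ X ∈ T, h X - (Δ : ℂ) • (1 - vecMulVec Ω (star Ω))).PosSemidef →
      (∀ j n z z', z ∈ X j → d z z' ≤ n → z' ∈ X (j + n)) →
      (∀ j, j < k → A ⊆ X j ∧ (X j \ A).card ≤ w) →
      (∀ y, y ∉ cr → ∀ j, j < k → ball d y R ⊆ X j ∨ Disjoint (ball d y R) (X j)) →
      entropy A Ω ≤ 4 * w * Real.log (Fintype.card Q) + 8 * cr.card + 16 := by
  obtain ⟨t0, t1⟩ := thet_pos (g := g) (R := R) hJ hγ
  have hJJ : 0 ≤ JJ R J / γ := div_nonneg (mul_nonneg hJ (by positivity)) hγ.le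
  obtain ⟨m, hm1, hm⟩ := main_par g R hg (JJ R J / γ) (Real.sqrt (thet g R J γ)) hJJ
    (Real.sqrt_nonneg _) (by rw [Real.sqrt_lt' one_pos]; simpa using t1)
  set r : ℕ := 2 * R * (g * m) + R + 1 with hr
  set ε : ℝ := 1 / (1296 * ((g * m : ℕ) : ℝ) * (r : ℝ) ^ 2) with hε
  have hT : 1 ≤ g * m := Nat.mul_pos hg hm1
  have T1 : (1 : ℝ) ≤ ((g * m : ℕ) : ℝ) := by exact_mod_cast hT
  have r1 : (1 : ℝ) ≤ r := by exact_mod_cast (show 1 ≤ r by omega)
  have ε0 : 0 < ε := by positivity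
  have ε1 : ε ≤ 1 := by
    rw [hε, div_le_one (by positivity)]
    have : 1 ≤ (r : ℝ) ^ 2 := one_le_pow₀ r1
    nlinarith
  obtain ⟨k, hk⟩ := exists_nat_gt (2 * r * (2 * r + 1) ^ 2 * Real.log (Fintype.card Q) / ε)
  have l0 : 0 ≤ Real.log (Fintype.card Q) := Real.log_natCast_nonneg _
  have k0 : (0 : ℝ) < k := lt_of_le_of_lt (by positivity) hk
  have k1 : 1 ≤ k := by exact_mod_cast k0
  have hx : Real.exp (2 * r * (2 * r + 1) ^ 2 * Real.log (Fintype.card Q) / k) ≤ Real.exp ε := by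
    rw [Real.exp_le_exp, div_le_iff₀ k0]
    rw [div_lt_iff₀ ε0] at hk
    linarith
  refine ⟨m, k, k1, fun Λ _ _ d T h act Ω A X cr w Δ hd Sy hS hcov hgap hΩ h0 hΔ hG hX hA hcr => ?_⟩
  choose Qp hQ using fun x => exists_kp (ball d x R) _ (hz_psd Sy _) (hz_loc Sy (ball d x R))
  have hb : ∀ y {a b : ℕ}, a ≤ b → ∀ x, x ∈ ball d y a → x ∈ ball d y b := fun y a b hab x hx =>
    mem_ball.2 ((mem_ball.1 hx).trans hab)
  have hP : ∀ y (P : Matrix (Λ → Q) (Λ → Q) ℂ), Proj P → Loc (fun x => x ∈ ball d y R) P →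
      OpB X k P (Real.exp ε) := fun y P h1 h2 =>
    (qn_opB X k).mono (opB_loc hd k1 hX y r (h2.mono (hb y (by omega))) zero_le_one h1.opLe)
      (by rw [Real.sqrt_one, one_mul]; exact hx)
  have hW := walk (qn_opB (Q := Q) X k) hd (act := act) (Q := Qp) cr (R := R) (r := r)
    (T := g * m) (ε := ε)
    (η := Real.sqrt (Real.sqrt (thet g R J γ) ^ m * (JJ R J / γ)) * Real.exp 1) hT (by omega)
    (by omega) hS (fun x x' hxx => commute_ball hd (hQ x).loc (hQ x').loc (by omega)) ε0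
    (by rw [hε, mul_one_div_cancel (by positivity)]) (by positivity) hm
    (fun y => hP y _ (hQ y).proj (hQ y).loc)
    (fun y => hP y _ (hQ y).proj.compl (loc_sub (loc_one _) (hQ y).loc))
    (fun y hy => by
      simpa using opB_free (hQ y).loc zero_le_one (hQ y).proj.opLe (hcr y hy))
    (fun y s => by
      obtain ⟨O, hO1, hO2⟩ := cone_step hd Sy hJ hQ hS hcov hγ m y s (hgap y)
      refine ⟨fun x => if x ∈ ball d y (2 * R * (g * m) + R) then O x else 0, ?_,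
        fun x _ => ?_⟩
      · rw [hO1]
        refine Finset.sum_subset_zero_on_sdiff (fun x hx => hb y (by omega) x hx)
          (fun x hx => ?_) fun x hx => by simp only [if_pos hx]
        simp only [if_neg (Finset.mem_sdiff.1 hx).2, Matrix.zero_mul]
      · by_cases hx' : x ∈ ball d y (2 * R * (g * m) + R)
        · simp only [if_pos hx']
          have hl := (hO2 x hx').2.mono (hb y (show _ ≤ r by omega))
          refine ⟨(qn_opB X k).mono (opB_loc hd k1 hX y r hl (by positivity) (hO2 x hx').1)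
            (mul_le_mul_of_nonneg_left (hx.trans (Real.exp_le_exp.2 ε1)) (Real.sqrt_nonneg _)),
            fun z hz => (commute_ball hd hl (hQ z).loc hz).symm⟩
        · simp only [if_neg hx']
          exact ⟨(qn_opB X k).mono (qn_opB X k).zero (by positivity),
            fun z _ => Commute.zero_right _⟩)
  have := main_ent k1 A X w hA hΩ _ (2 * cr.card) (by positivity) hW
    (glob_conv hd Sy hJ hQ hS hcov hΩ h0 hΔ hG)
  linarith

theorem area_ff (q R : ℕ) [NeZero q] (J γ : ℝ) (hJ : 0 ≤ J) (hγ : 0 < γ) :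
    ∃ (l : ℕ) (C : ℝ), ∀ (L : ℕ) (h : Finset (Fin L × Fin L) → Op L q),
      Admissible L q R J h → ∀ (E0 Δ : ℝ) (Ω : (Fin L × Fin L → Fin q) → ℂ), 0 < Δ →
      HasGap (ham L q R h) E0 Δ Ω → FrustrationFree L q R h Ω → LocalGap L q R h γ l →
      ∀ A : Finset (Fin L × Fin L), entropy A Ω ≤ C * (bdry A : ℝ) := by
  obtain ⟨m, k, k1, H⟩ := area_abs (Q := Fin q) ((2 * R + 1) ^ 2) R (Nat.one_le_pow _ _ (by omega))
    J γ hJ hγ
  refine ⟨2 * (2 * R * ((2 * R + 1) ^ 2 * m) + R),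
    4 * (2 * k + 1) ^ 2 * Real.log q + 8 * (2 * (k + R) + 1) ^ 2 + 16,
    fun L h hh E0 Δ Ω hΔ hg hf hl A => ?_⟩
  have hΩ : nsq Ω = 1 := hg.1
  rcases Nat.eq_zero_or_pos (bdry A) with hb | hb
  · rw [hb, Nat.cast_zero, mul_zero]; exact fin_zero hΩ A hb
  have hE : E0 = 0 := by
    have h1 : ham L q R h *ᵥ Ω = 0 := by
      rw [ham, sum_mulVec]; exact Finset.sum_eq_zero fun X hX => (hf X hX).2
    have h2 := congrArg nsq (hg.2.1.symm.trans h1)
    rw [nsq_smul, hΩ] at h2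
    simpa [nsq] using h2
  have hG := hg.2.2
  rw [hE, Complex.ofReal_zero, zero_smul, sub_zero] at hG
  have h1 := H _ dI (supports L R) h (actI L R) Ω A (nbh A) (crs A R k)
    (bdry A * (2 * k + 1) ^ 2) Δ (met_dI L)
    ⟨fun X hX => (Finset.mem_filter.1 hX).2.1,
      fun X hX x hx y hy => (dI_le x y).trans ((Finset.mem_filter.1 hX).2.2 x hx y hy),
      fun X hX => (hf X hX).1, fun X hX => (hh X hX).2.1.loc,
      fun X hX => opLe_of_norm (hh X hX).2.2⟩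
    (actI_sep L R) (actI_cov L R)
    (fun y i hi => by
      have : 2 * R * ((2 * R + 1) ^ 2 * i) ≤ 2 * R * ((2 * R + 1) ^ 2 * m) := by gcongr
      rw [ball_rect]
      exact hl _ _ _ _ (by omega) (by omega))
    hΩ (fun X hX => (hf X hX).2) hΔ hG (nbh_step A)
    (fun j hj => ⟨nbh_sub A j, nbh_card A hj⟩)
    (fun y hy j hj => by
      by_contra hc
      exact hy (Finset.mem_filter.2 ⟨Finset.mem_univ _, j, hj, hc⟩))
  have h2 : ((crs A R k).card : ℝ) ≤ bdry A * (2 * (k + R) + 1) ^ 2 := by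
    exact_mod_cast crs_card A R k
  have h3 : (1 : ℝ) ≤ bdry A := by exact_mod_cast hb
  rw [Fintype.card_fin] at h1
  push_cast at h1
  linarith

end Vale.Agent.P356F
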