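import Vale.Agent.P356F.Nrm

namespace Vale.Agent.P356F

open Matrix Vale.Agent.P356
open scoped ComplexOrder

variable {Λ Q : Type} [Fintype Λ] [DecidableEq Λ] [Fintype Q] [DecidableEq Q]

theorem RankLe.mono {p : Λ → Prop} {v : (Λ → Q) → ℂ} {R R' : ℕ} (h : RankLe p v R)
    (hR : R ≤ R') : RankLe p v R' := by
  obtain ⟨ι, hι, f, g, hc, hf, hg, hv⟩ := h
  exact ⟨ι, hι, f, g, hc.trans hR, hf, hg, hv⟩

theorem RankLe.smul {p : Λ → Prop} {v : (Λ → Q) → ℂ} {R : ℕ} (h : RankLe p v R) (c : ℂ) :
    RankLe p (c • v) R := by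
  obtain ⟨ι, hι, f, g, hc, hf, hg, hv⟩ := h
  refine ⟨ι, hι, fun i s => c * f i s, g, hc, fun i => (hf i).comp (fun z => c * z), hg,
    fun s => ?_⟩
  simp only [Pi.smul_apply, smul_eq_mul, hv s, Finset.mul_sum, mul_assoc]

theorem rank_add {p : Λ → Prop} {v w : (Λ → Q) → ℂ} {R R' : ℕ} (h : RankLe p v R)
    (h' : RankLe p w R') : RankLe p (v + w) (R + R') := by
  obtain ⟨ι, hι, f, g, hc, hf, hg, hv⟩ := h
  obtain ⟨κ, hκ, f', g', hc', hf', hg', hv'⟩ := h'
  refine ⟨ι ⊕ κ, inferInstance, Sum.elim f f', Sum.elim g g', ?_, ?_, ?_, fun s => ?_⟩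
  · rw [Fintype.card_sum]
    exact Nat.add_le_add hc hc'
  · rintro (i | i)
    · exact hf i
    · exact hf' i
  · rintro (i | i)
    · exact hg i
    · exact hg' i
  · rw [Fintype.sum_sum_type, Pi.add_apply, hv s, hv' s]
    rfl

theorem rank_swap {p : Λ → Prop} {v : (Λ → Q) → ℂ} {R : ℕ} (h : RankLe p v R) :
    RankLe (fun x => ¬ p x) v R := by
  obtain ⟨ι, hι, f, g, hc, hf, hg, hv⟩ := h
  refine ⟨ι, hι, g, f, hc, hg, fun i => (hf i).mono fun x hx => not_not.2 hx, fun s => ?_⟩
  rw [hv s]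
  exact Finset.sum_congr rfl fun i _ => mul_comm _ _

theorem rank_swap' {p : Λ → Prop} {v : (Λ → Q) → ℂ} {R : ℕ} (h : RankLe (fun x => ¬ p x) v R) :
    RankLe p v R := by
  obtain ⟨ι, hι, f, g, hc, hf, hg, hv⟩ := h
  refine ⟨ι, hι, g, f, hc, fun i => (hg i).mono fun x hx => not_not.1 hx, hf, fun s => ?_⟩
  rw [hv s]
  exact Finset.sum_congr rfl fun i _ => mul_comm _ _

theorem rank_dep {p : Λ → Prop} {M : Matrix (Λ → Q) (Λ → Q) ℂ} (hM : Loc p M)
    {f : (Λ → Q) → ℂ} (hf : Dep p f) : Dep p (M *ᵥ f) := by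
  classical
  intro s s' hs
  let e : (Λ → Q) → (Λ → Q) := fun t x => if p x then t x else Equiv.swap (s x) (s' x) (t x)
  have he : Function.Involutive e := by
    intro t
    funext x
    by_cases hp : p x <;> simp [e, hp]
  simp only [mulVec, dotProduct]
  rw [← Equiv.sum_comp (he.toPerm e) (fun t => M s' t * f t)]
  refine Finset.sum_congr rfl fun t _ => ?_
  have e1 : f (e t) = f t := hf _ _ fun x hx => by simp [e, hx]
  have e2 : M s t = M s' (e t) := by
    by_cases hc : ∀ x, ¬ p x → s x = t x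
    · refine hM.2 _ _ _ _ hs (fun x hx => by simp [e, hx]) hc fun x hx => ?_
      simp [e, hx, ← hc x hx]
    · push Not at hc
      obtain ⟨x, hx, hne⟩ := hc
      rw [hM.1 s t x hx hne, hM.1 s' (e t) x hx]
      simp only [e, hx, if_false]
      intro h'
      apply hne
      apply (Equiv.swap (s x) (s' x)).injective
      rw [← h', Equiv.swap_apply_left]
  simp only [Function.Involutive.coe_toPerm, e1, e2]

/-- Sigma type of the index types -/
theorem rank_sum {ι : Type} {p : Λ → Prop} (S : Finset ι) (v : ι → (Λ → Q) → ℂ) (R : ι → ℕ)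
    (h : ∀ i ∈ S, RankLe p (v i) (R i)) : RankLe p (∑ i ∈ S, v i) (∑ i ∈ S, R i) := by
  classical
  induction S using Finset.induction_on with
  | empty =>
    refine ⟨Empty, inferInstance, fun i => i.elim, fun i => i.elim, by simp, fun i => i.elim,
      fun i => i.elim, fun s => by simp⟩
  | insert a S ha ih =>
    rw [Finset.sum_insert ha, Finset.sum_insert ha]
    exact rank_add (h a (Finset.mem_insert_self _ _))
      (ih fun i hi => h i (Finset.mem_insert_of_mem hi))

/-- index set all configurations `a`: `f a s = [s = a on p] * v a`, `g a s = [s = a off p]` -/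
theorem rank_triv (p : Λ → Prop) (v : (Λ → Q) → ℂ) :
    RankLe p v (Fintype.card Q ^ Fintype.card Λ) := by
  classical
  refine ⟨Λ → Q, inferInstance, fun a s => (if ∀ x, p x → s x = a x then 1 else 0) * v a,
    fun a s => if ∀ x, ¬ p x → s x = a x then 1 else 0, by simp, fun a s t hst => ?_,
    fun a s t hst => ?_, fun s => ?_⟩
  · have e : (∀ x, p x → s x = a x) ↔ (∀ x, p x → t x = a x) :=
      ⟨fun h x hx => (hst x hx) ▸ h x hx, fun h x hx => (hst x hx).symm ▸ h x hx⟩
    simp only [e]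
  · have e : (∀ x, ¬ p x → s x = a x) ↔ (∀ x, ¬ p x → t x = a x) :=
      ⟨fun h x hx => (hst x hx) ▸ h x hx, fun h x hx => (hst x hx).symm ▸ h x hx⟩
    simp only [e]
  · rw [Finset.sum_eq_single s]
    · simp
    · intro a _ hne
      by_cases h1 : ∀ x, p x → s x = a x
      · have h2 : ¬ ∀ x, ¬ p x → s x = a x := by
          intro h2
          apply hne
          funext x
          by_cases hp : p x
          · exact (h1 x hp).symm
          · exact (h2 x hp).symm
        simp only [if_neg h2, mul_zero]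
      · simp only [if_neg h1, zero_mul]
    · intro hs
      exact absurd (Finset.mem_univ s) hs

/-- an operator inside the cut keeps the rank:
`(M v) s = sum_i (sum_t M s t * f i t ...) * g i s`, only `t` equal to `s` off `p` count -/
theorem rank_in {p : Λ → Prop} {M : Matrix (Λ → Q) (Λ → Q) ℂ} (hM : Loc p M)
    {v : (Λ → Q) → ℂ} {R : ℕ} (h : RankLe p v R) : RankLe p (M *ᵥ v) R := by
  obtain ⟨ι, hι, f, g, hc, hf, hg, hv⟩ := h
  refine ⟨ι, hι, fun i => M *ᵥ f i, g, hc, fun i => rank_dep hM (hf i), hg, fun s => ?_⟩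
  simp only [mulVec, dotProduct, hv, Finset.mul_sum, Finset.sum_mul]
  rw [Finset.sum_comm]
  refine Finset.sum_congr rfl fun i _ => Finset.sum_congr rfl fun t _ => ?_
  by_cases hc' : ∀ x, ¬ p x → s x = t x
  · rw [hg i s t hc', mul_assoc]
  · push Not at hc'
    obtain ⟨x, hx, hne⟩ := hc'
    simp [hM.1 s t x hx hne]

/-- an operator outside the cut keeps the rank (swap the roles of `f` and `g`) -/
theorem rank_out {p : Λ → Prop} {M : Matrix (Λ → Q) (Λ → Q) ℂ} (hM : Loc (fun x => ¬ p x) M)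
    {v : (Λ → Q) → ℂ} {R : ℕ} (h : RankLe p v R) : RankLe p (M *ᵥ v) R := by
  exact rank_swap' (rank_in hM (rank_swap h))

/-- moving the sites of `W` across the cut: expand `f i` and `g i` over the values `a` on `W`,
`v s = sum_(i,a) [s = a on W] * f i (s with a on W) * g i (s with a on W)`, and split the indicator
into the sites with `p'` and the others -/
theorem rank_move {p p' : Λ → Prop} (W : Finset Λ) (hW : ∀ x, x ∉ W → (p x ↔ p' x))
    {v : (Λ → Q) → ℂ} {R : ℕ} (h : RankLe p v R) :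
    RankLe p' v (Fintype.card Q ^ W.card * R) := by
  classical
  obtain ⟨ι, hι, f, g, hc, hf, hg, hv⟩ := h
  refine ⟨({x // x ∈ W} → Q) × ι, inferInstance,
    fun j s => (if ∀ x : {x // x ∈ W}, p' x → s x = j.1 x then 1 else 0) *
      f j.2 (glue W j.1 (cores W s)),
    fun j s => (if ∀ x : {x // x ∈ W}, ¬ p' x → s x = j.1 x then 1 else 0) *
      g j.2 (glue W j.1 (cores W s)), ?_, fun j s t hst => ?_, fun j s t hst => ?_, fun s => ?_⟩
  · rw [Fintype.card_prod, Fintype.card_fun, Fintype.card_coe]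
    exact Nat.mul_le_mul_left _ hc
  · have e : (∀ x : {x // x ∈ W}, p' x → s x = j.1 x) ↔
        (∀ x : {x // x ∈ W}, p' x → t x = j.1 x) :=
      ⟨fun h x hx => (hst x hx) ▸ h x hx, fun h x hx => (hst x hx).symm ▸ h x hx⟩
    have e2 : f j.2 (glue W j.1 (cores W s)) = f j.2 (glue W j.1 (cores W t)) := by
      refine hf j.2 _ _ fun x hx => ?_
      by_cases hxW : x ∈ W
      · simp [glue, hxW]
      · simp only [glue, hxW, dif_neg, not_false_eq_true, cores]
        exact hst x ((hW x hxW).1 hx)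
    simp only [e, e2]
  · have e : (∀ x : {x // x ∈ W}, ¬ p' x → s x = j.1 x) ↔
        (∀ x : {x // x ∈ W}, ¬ p' x → t x = j.1 x) :=
      ⟨fun h x hx => (hst x hx) ▸ h x hx, fun h x hx => (hst x hx).symm ▸ h x hx⟩
    have e2 : g j.2 (glue W j.1 (cores W s)) = g j.2 (glue W j.1 (cores W t)) := by
      refine hg j.2 _ _ fun x hx => ?_
      by_cases hxW : x ∈ W
      · simp [glue, hxW]
      · simp only [glue, hxW, dif_neg, not_false_eq_true, cores]
        exact hst x fun h' => hx ((hW x hxW).2 h')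
    simp only [e, e2]
  · rw [Fintype.sum_prod_type, Finset.sum_eq_single (res W s)]
    · simp only [glue_res, res, implies_true, if_true, one_mul]
      exact hv s
    · intro a _ hne
      refine Finset.sum_eq_zero fun i _ => ?_
      by_cases h1 : ∀ x : {x // x ∈ W}, p' x → s x = a x
      · have h2 : ¬ ∀ x : {x // x ∈ W}, ¬ p' x → s x = a x := by
          intro h2
          apply hne
          funext x
          by_cases hp : p' x
          · exact (h1 x hp).symm
          · exact (h2 x hp).symm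
        simp only [if_neg h2, zero_mul, mul_zero]
      · simp only [if_neg h1, zero_mul]
    · intro hs
      exact absurd (Finset.mem_univ _) hs

/-- an operator on `Z`: move `Z` inside (`p x ∨ x ∈ Z`), use `rank_in`, move back -/
theorem rank_loc {p : Λ → Prop} {Z : Finset Λ} {M : Matrix (Λ → Q) (Λ → Q) ℂ}
    (hM : Loc (fun x => x ∈ Z) M) {v : (Λ → Q) → ℂ} {R : ℕ} (h : RankLe p v R) :
    RankLe p (M *ᵥ v) (Fintype.card Q ^ (2 * Z.card) * R) := by
  have h1 : RankLe (fun x => p x ∨ x ∈ Z) v (Fintype.card Q ^ Z.card * R) :=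
    rank_move Z (fun x hx => by simp [hx]) h
  have h2 := rank_in (hM.mono (q := fun x => p x ∨ x ∈ Z) fun x hx => Or.inr hx) h1
  have h3 : RankLe p (M *ᵥ v) (Fintype.card Q ^ Z.card * (Fintype.card Q ^ Z.card * R)) :=
    rank_move Z (fun x hx => by simp [hx]) h2
  rwa [← mul_assoc, ← pow_add, ← two_mul] at h3

end Vale.Agent.P356F
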