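import Vale.Agent.P356F.Ker

namespace Vale.Agent.P356F

open Matrix Vale.Agent.P356
open scoped ComplexOrder

variable {Λ n : Type} [Fintype Λ] [DecidableEq Λ] [Fintype n] [DecidableEq n]

theorem round_nsq_add {n : Type} [Fintype n] (u v : n → ℂ) :
    nsq (u + v) ≤ 2 * nsq u + 2 * nsq v := by
  have h1 := nn_add_le u v
  have h2 := nn_nonneg (u + v)
  rw [← nn_sq, ← nn_sq, ← nn_sq]
  nlinarith [sq_nonneg (nn u - nn v), nn_nonneg u, nn_nonneg v]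

theorem round_proj_le {n : Type} [Fintype n] [DecidableEq n] {P : Matrix n n ℂ} (hP : Proj P)
    (v : n → ℂ) : nn (P *ᵥ v) ≤ nn v := by
  simpa using hP.opLe v

theorem round_list {d : Λ → Λ → ℕ} {R : ℕ} {Qp : Λ → Matrix n n ℂ}
    (hp : ∀ x, Proj (Qp x)) (hc : ∀ x x', 2 * R < d x x' → Commute (Qp x) (Qp x'))
    (φ : n → ℂ) (l : List Λ) (hl : l.Nodup) :
    ∃ δ : Λ → ℝ, (∀ x, 0 ≤ δ x) ∧ (∀ x, x ∉ l → δ x = 0) ∧
      (∀ x, nn ((1 - Qp x) *ᵥ ((l.map Qp).prod *ᵥ φ)) ≤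
        nn ((1 - Qp x) *ᵥ φ) + ∑ z ∈ ball d x (2 * R), δ z) ∧
      ∑ x, δ x ^ 2 = nsq φ - nsq ((l.map Qp).prod *ᵥ φ) := by
  induction l with
  | nil => exact ⟨fun _ => 0, fun _ => le_rfl, fun _ _ => rfl, fun x => by simp, by simp⟩
  | cons z l ih =>
    obtain ⟨hz, hl⟩ := List.nodup_cons.1 hl
    obtain ⟨δ, h0, h1, h2, h3⟩ := ih hl
    set ψ := (l.map Qp).prod *ᵥ φ with hψ
    have e : ((z :: l).map Qp).prod *ᵥ φ = Qp z *ᵥ ψ := by
      rw [List.map_cons, List.prod_cons, ← mulVec_mulVec]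
    set c := nn ((1 - Qp z) *ᵥ ψ) with hcdef
    have hc0 : 0 ≤ c := nn_nonneg _
    refine ⟨fun x => δ x + if x = z then c else 0, fun x => ?_, fun x hx => ?_, fun x => ?_, ?_⟩
    · have := h0 x
      dsimp only
      split_ifs <;> linarith
    · rw [List.mem_cons, not_or] at hx
      simp only [h1 x hx.2, if_neg hx.1, add_zero]
    · rw [e, Finset.sum_add_distrib, Finset.sum_ite_eq']
      split_ifs with hb
      · have e2 : (1 - Qp x) *ᵥ (Qp z *ᵥ ψ) =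
            (1 - Qp x) *ᵥ ψ - (1 - Qp x) *ᵥ ((1 - Qp z) *ᵥ ψ) := by
          rw [← mulVec_sub, sub_mulVec 1 (Qp z), one_mulVec, sub_sub_cancel]
        have h4 := nn_sub_le ((1 - Qp x) *ᵥ ψ) ((1 - Qp x) *ᵥ ((1 - Qp z) *ᵥ ψ))
        have h5 := round_proj_le (hp x).compl ((1 - Qp z) *ᵥ ψ)
        have h6 := h2 x
        rw [e2]
        linarith
      · rw [mem_ball, not_le] at hb
        have hcm : (1 - Qp x) * Qp z = Qp z * (1 - Qp x) :=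
          ((Commute.one_left _).sub_left (hc x z hb)).eq
        rw [mulVec_mulVec, hcm, ← mulVec_mulVec]
        have h5 := round_proj_le (hp z) ((1 - Qp x) *ᵥ ψ)
        have h6 := h2 x
        linarith
    · have e3 : ∀ x, (δ x + if x = z then c else 0) ^ 2 =
          δ x ^ 2 + if x = z then c ^ 2 else 0 := by
        intro x
        split_ifs with hx
        · rw [hx, h1 z hz]; ring
        · ring
      simp only [e3]
      rw [Finset.sum_add_distrib, Finset.sum_ite_eq', if_pos (Finset.mem_univ _), h3, e, hcdef,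
        nn_sq, (hp z).pyth ψ]
      ring

/-- One layer (detectability lemma). Induct over the list `S.toList` (state it for any list `l`
with `Nodup`): adding the factor `Qp z` on the left of `ψ` costs `δ = nn ((1 - Qp z) ψ)`,
`nsq ψ - nsq (Qp z ψ) = δ^2`; `nn ((1 - Qp x) Qp z ψ) ≤ nn ((1 - Qp x) ψ)` if `z` is far from `x`
(they commute) and `≤ nn ((1 - Qp x) ψ) + δ` otherwise. `a x` is the sum of `δ z` over the
`z ∈ ball x (2R)`; Cauchy-Schwarz and double counting with `hd.card`, `hd.symm`. -/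
theorem layer_dl {d : Λ → Λ → ℕ} (hd : Met d) {R : ℕ} {Qp : Λ → Matrix n n ℂ}
    (hp : ∀ x, Proj (Qp x)) (hc : ∀ x x', 2 * R < d x x' → Commute (Qp x) (Qp x'))
    (S : Finset Λ) (φ : n → ℂ) :
    ∃ a : Λ → ℝ, (∀ x, 0 ≤ a x) ∧
      (∀ x, nn ((1 - Qp x) *ᵥ (lay Qp S *ᵥ φ)) ≤ nn ((1 - Qp x) *ᵥ φ) + a x) ∧
      ∑ x, a x ^ 2 ≤ (4 * R + 1) ^ 4 * (nsq φ - nsq (lay Qp S *ᵥ φ)) := by
  obtain ⟨δ, h0, -, h2, h3⟩ := round_list (d := d) hp hc φ S.toList S.nodup_toList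
  refine ⟨fun x => ∑ z ∈ ball d x (2 * R), δ z, fun x => Finset.sum_nonneg fun z _ => h0 z,
    h2, ?_⟩
  have hcard : ∀ x, ((ball d x (2 * R)).card : ℝ) ≤ (4 * R + 1) ^ 2 := by
    intro x
    have := hd.card x (2 * R)
    have e : 2 * (2 * R) + 1 = 4 * R + 1 := by ring
    rw [e] at this
    exact_mod_cast this
  have h4 : ∀ x, (∑ z ∈ ball d x (2 * R), δ z) ^ 2 ≤
      (4 * R + 1) ^ 2 * ∑ z ∈ ball d x (2 * R), δ z ^ 2 := fun x =>
    sq_sum_le_card_mul_sum_sq.trans (mul_le_mul_of_nonneg_right (hcard x)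
      (Finset.sum_nonneg fun z _ => sq_nonneg _))
  have h5 : ∑ x, ∑ z ∈ ball d x (2 * R), δ z ^ 2 ≤ (4 * R + 1) ^ 2 * ∑ z, δ z ^ 2 := by
    rw [Finset.sum_comm' (t' := Finset.univ) (s' := fun z => ball d z (2 * R)), Finset.mul_sum]
    · refine Finset.sum_le_sum fun z _ => ?_
      rw [Finset.sum_const, nsmul_eq_mul]
      exact mul_le_mul_of_nonneg_right (hcard z) (sq_nonneg _)
    · intro x z
      simp only [Finset.mem_univ, true_and, and_true, mem_ball, hd.symm x z]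
  calc ∑ x, (∑ z ∈ ball d x (2 * R), δ z) ^ 2
      ≤ ∑ x, (4 * R + 1) ^ 2 * ∑ z ∈ ball d x (2 * R), δ z ^ 2 :=
        Finset.sum_le_sum fun x _ => h4 x
    _ = (4 * R + 1) ^ 2 * ∑ x, ∑ z ∈ ball d x (2 * R), δ z ^ 2 := by rw [Finset.mul_sum]
    _ ≤ (4 * R + 1) ^ 2 * ((4 * R + 1) ^ 2 * ∑ z, δ z ^ 2) :=
        mul_le_mul_of_nonneg_left h5 (sq_nonneg _)
    _ = _ := by rw [h3, lay]; ring

theorem round_layers {d : Λ → Λ → ℕ} (hd : Met d) {R : ℕ} {Qp : Λ → Matrix n n ℂ}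
    (hp : ∀ x, Proj (Qp x)) (hc : ∀ x x', 2 * R < d x x' → Commute (Qp x) (Qp x'))
    (S : ℕ → Finset Λ) (hS : ∀ σ, Sep d R (S σ)) (s g : ℕ) (φ : n → ℂ) :
    nsq (φ - seg (fun σ => lay Qp (S σ)) s g *ᵥ φ) ≤
      2 ^ g * (nsq φ - nsq (seg (fun σ => lay Qp (S σ)) s g *ᵥ φ)) ∧
    ∃ b : Λ → ℝ, (∀ x, 0 ≤ b x) ∧ (∀ x, (∃ i, i < g ∧ x ∈ S (s + i)) →
      nn ((1 - Qp x) *ᵥ (seg (fun σ => lay Qp (S σ)) s g *ᵥ φ)) ≤ b x) ∧
      ∑ x, b x ^ 2 ≤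
        2 ^ g * (4 * R + 1) ^ 4 * (nsq φ - nsq (seg (fun σ => lay Qp (S σ)) s g *ᵥ φ)) := by
  induction g with
  | zero =>
    refine ⟨by simp [seg, nsq], fun _ => 0, fun _ => le_rfl, fun x hx => ?_, by simp [seg]⟩
    obtain ⟨i, hi, -⟩ := hx
    omega
  | succ g ih =>
    obtain ⟨h1, b, hb0, hb1, hb2⟩ := ih
    set ψ := seg (fun σ => lay Qp (S σ)) s g *ᵥ φ with hψ
    have hcm : ∀ x ∈ S (s + g), ∀ y ∈ S (s + g), x ≠ y → Commute (Qp x) (Qp y) :=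
      fun x hx y hy hxy => hc x y (hS _ x hx y hy hxy)
    have hL : Proj (lay Qp (S (s + g))) := proj_lay (fun x _ => hp x) hcm
    have e : seg (fun σ => lay Qp (S σ)) s (g + 1) *ᵥ φ = lay Qp (S (s + g)) *ᵥ ψ := by
      rw [seg, ← mulVec_mulVec]
    rw [e]
    obtain ⟨a, ha0, ha1, ha2⟩ := layer_dl hd hp hc (S (s + g)) ψ
    have hpy := hL.pyth ψ
    have hn := nsq_nonneg ((1 - lay Qp (S (s + g))) *ᵥ ψ)
    have hpow : (1 : ℝ) ≤ 2 ^ g := one_le_pow₀ (by norm_num)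
    refine ⟨?_, fun x => b x + a x, fun x => add_nonneg (hb0 x) (ha0 x), fun x hx => ?_, ?_⟩
    · have e2 : φ - lay Qp (S (s + g)) *ᵥ ψ = (φ - ψ) + (1 - lay Qp (S (s + g))) *ᵥ ψ := by
        rw [sub_mulVec, one_mulVec, sub_add_sub_cancel]
      have h2 := round_nsq_add (φ - ψ) ((1 - lay Qp (S (s + g))) *ᵥ ψ)
      rw [e2, pow_succ]
      nlinarith [mul_le_mul_of_nonneg_right hpow hn]
    · obtain ⟨i, hi, hx⟩ := hx
      rcases Nat.lt_succ_iff_lt_or_eq.1 hi with hi | rfl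
      · exact (ha1 x).trans (add_le_add_left (hb1 x ⟨i, hi, hx⟩) _)
      · have e3 : (1 - Qp x) * lay Qp (S (s + i)) = 0 := by
          rw [lay_erase hx hcm, ← Matrix.mul_assoc, Matrix.sub_mul, Matrix.one_mul, (hp x).2,
            sub_self, Matrix.zero_mul]
        rw [mulVec_mulVec, e3, zero_mulVec, nn_zero]
        exact add_nonneg (hb0 x) (ha0 x)
    · have h3 : ∑ x, (b x + a x) ^ 2 ≤ 2 * ∑ x, b x ^ 2 + 2 * ∑ x, a x ^ 2 := by
        rw [Finset.mul_sum, Finset.mul_sum, ← Finset.sum_add_distrib]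
        exact Finset.sum_le_sum fun x _ => by nlinarith [sq_nonneg (b x - a x)]
      have hK : (0 : ℝ) ≤ (4 * R + 1) ^ 4 := by positivity
      have h4 := mul_le_mul_of_nonneg_right hpow (mul_nonneg hK hn)
      rw [pow_succ]
      have e4 : nsq ψ - nsq (lay Qp (S (s + g)) *ᵥ ψ) =
          nsq ((1 - lay Qp (S (s + g))) *ᵥ ψ) := by linarith
      have e5 : nsq φ - nsq (lay Qp (S (s + g)) *ᵥ ψ) =
          (nsq φ - nsq ψ) + nsq ((1 - lay Qp (S (s + g))) *ᵥ ψ) := by linarith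
      rw [e4] at ha2
      rw [e5]
      nlinarith

/-- Several layers, `out = seg .. *ᵥ φ`. Induct on `g` with `(b + a)^2 ≤ 2 b^2 + 2 a^2`;
each layer is a projection (`proj_lay`), and `(1 - Qp x) * lay Qp S = 0` for `x ∈ S`
(`lay_erase`). For the second claim carry `b : Λ → ℝ` with
`nn ((1 - Qp x) out) ≤ b x` for all covered `x` and `∑ x, b x ^ 2 ≤ ..`. -/
theorem layers_dl {d : Λ → Λ → ℕ} (hd : Met d) {R : ℕ} {Qp : Λ → Matrix n n ℂ}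
    (hp : ∀ x, Proj (Qp x)) (hc : ∀ x x', 2 * R < d x x' → Commute (Qp x) (Qp x'))
    (S : ℕ → Finset Λ) (hS : ∀ σ, Sep d R (S σ)) (s g : ℕ) (φ : n → ℂ) (Z : Finset Λ)
    (hZ : ∀ x ∈ Z, ∃ i, i < g ∧ x ∈ S (s + i)) :
    nsq (φ - seg (fun σ => lay Qp (S σ)) s g *ᵥ φ) ≤
      2 ^ g * (nsq φ - nsq (seg (fun σ => lay Qp (S σ)) s g *ᵥ φ)) ∧
    ∑ x ∈ Z, nsq ((1 - Qp x) *ᵥ (seg (fun σ => lay Qp (S σ)) s g *ᵥ φ)) ≤
      2 ^ g * (4 * R + 1) ^ 4 * (nsq φ - nsq (seg (fun σ => lay Qp (S σ)) s g *ᵥ φ)) := by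
  obtain ⟨h1, b, hb0, hb1, hb2⟩ := round_layers hd hp hc S hS s g φ
  refine ⟨h1, le_trans ?_ hb2⟩
  refine le_trans (Finset.sum_le_sum fun x hx => ?_)
    (Finset.sum_le_sum_of_subset_of_nonneg (Finset.subset_univ Z) fun x _ _ => sq_nonneg (b x))
  rw [← nn_sq]
  exact pow_le_pow_left₀ (nn_nonneg _) (hb1 x (hZ x hx)) 2

theorem round_cc_pos {g R : ℕ} {J γ : ℝ} (hJ : 0 ≤ J) (hγ : 0 < γ) : 0 < CC g R J γ := by
  unfold CC JJ
  positivity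

theorem thet_pos {g R : ℕ} {J γ : ℝ} (hJ : 0 ≤ J) (hγ : 0 < γ) :
    0 < thet g R J γ ∧ thet g R J γ < 1 := by
  have h := round_cc_pos (g := g) (R := R) hJ hγ
  unfold thet
  exact ⟨by positivity, (div_lt_one (by linarith)).2 (by linarith)⟩

variable {Q : Type} [Fintype Q] [DecidableEq Q]

/-- One round contracts. `nsq out = nsq (P out) + nsq ((1 - P) out)`, `P out = - P (φ - out)`,
`γ nsq ((1 - P) out) ≤ <out, H_Z out> ≤ JJ * ∑ ..` (`hz_energy`), so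
`nsq out ≤ CC * (nsq φ - nsq out)`. Commutation from `commute_ball`. -/
theorem round_dl [Nonempty Q] {d : Λ → Λ → ℕ} (hd : Met d) {T : Finset (Finset Λ)}
    {h : Finset Λ → Matrix (Λ → Q) (Λ → Q) ℂ} {R : ℕ} {J : ℝ} (Sy : Sys d T h R J) (hJ : 0 ≤ J)
    {Qp : Λ → Matrix (Λ → Q) (Λ → Q) ℂ}
    (hQ : ∀ x, IsKP (ball d x R) (HZ T h (ball d x R)) (Qp x))
    (S : ℕ → Finset Λ) (hS : ∀ σ, Sep d R (S σ)) (s g : ℕ) (Z : Finset Λ)
    (hZ : ∀ x ∈ Z, ∃ i, i < g ∧ x ∈ S (s + i)) {P : Matrix (Λ → Q) (Λ → Q) ℂ} (hP : Proj P)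
    {γ : ℝ} (hγ : 0 < γ) (hg : ∀ v, γ * nsq ((1 - P) *ᵥ v) ≤ (ip v (HZ T h Z) v).re)
    (φ : (Λ → Q) → ℂ) (hφ : P *ᵥ φ = 0) :
    nsq (seg (fun σ => lay Qp (S σ)) s g *ᵥ φ) ≤ thet g R J γ * nsq φ := by
  have hc : ∀ x x', 2 * R < d x x' → Commute (Qp x) (Qp x') := fun x x' hx =>
    commute_ball hd (hQ x).loc (hQ x').loc (by omega)
  obtain ⟨h1, h2⟩ := layers_dl hd (fun x => (hQ x).proj) hc S hS s g φ Z hZ
  set ψ := seg (fun σ => lay Qp (S σ)) s g *ᵥ φ with hψ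
  have h3 := hP.pyth ψ
  have h4 : nsq (P *ᵥ ψ) ≤ nsq (φ - ψ) := by
    have e : P *ᵥ ψ = -(P *ᵥ (φ - ψ)) := by rw [mulVec_sub, hφ, zero_sub, neg_neg]
    rw [← nn_sq, ← nn_sq, e, nn_neg]
    exact pow_le_pow_left₀ (nn_nonneg _) (round_proj_le hP _) 2
  have hJJ : 0 ≤ JJ R J := by unfold JJ; positivity
  have h5 := ((hg ψ).trans (hz_energy hd Sy hJ hQ Z ψ)).trans (mul_le_mul_of_nonneg_left h2 hJJ)
  have h6 : nsq ((1 - P) *ᵥ ψ) ≤
      JJ R J * (2 ^ g * (4 * R + 1) ^ 4 * (nsq φ - nsq ψ)) / γ := by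
    rw [le_div_iff₀ hγ, mul_comm]
    exact h5
  have h7 : nsq ψ ≤ CC g R J γ * (nsq φ - nsq ψ) := by
    have e : CC g R J γ * (nsq φ - nsq ψ) = 2 ^ g * (nsq φ - nsq ψ) +
        JJ R J * (2 ^ g * (4 * R + 1) ^ 4 * (nsq φ - nsq ψ)) / γ := by
      unfold CC
      ring
    rw [e]
    linarith
  have hC := round_cc_pos (g := g) (R := R) hJ hγ
  unfold thet
  rw [div_mul_eq_mul_div, le_div_iff₀ (by linarith)]
  nlinarith

end Vale.Agent.P356F
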