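import Vale.Agent.P356F.Nrm

namespace Vale.Agent.P356F

open Finset

theorem geo_sum {ι : Type} (s : Finset ι) (f : ι → ℕ) (c : ℝ)
    (h : ∀ i, ((s.filter fun x => f x ≤ i).card : ℝ) ≤ c * 4 ^ i) :
    ∑ x ∈ s, (1 / 8 : ℝ) ^ f x ≤ 2 * c := by
  classical
  have hc : 0 ≤ c := by
    have := h 0
    have h0 : (0 : ℝ) ≤ ((s.filter fun x => f x ≤ 0).card : ℝ) := Nat.cast_nonneg _
    linarith
  rw [← sum_fiberwise_of_maps_to (t := range (s.sup f + 1)) (g := f)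
    (fun x hx => mem_range.2 (Nat.lt_succ_of_le (le_sup hx)))]
  calc ∑ i ∈ range (s.sup f + 1), ∑ x ∈ s with f x = i, (1 / 8 : ℝ) ^ f x
      ≤ ∑ i ∈ range (s.sup f + 1), c * (1 / 2) ^ i := by
        refine sum_le_sum fun i _ => ?_
        rw [sum_congr rfl fun x hx => by rw [(mem_filter.1 hx).2], sum_const, nsmul_eq_mul]
        have h1 : ((s.filter fun x => f x = i).card : ℝ) ≤ c * 4 ^ i :=
          le_trans (Nat.cast_le.2 (card_le_card fun x hx =>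
            mem_filter.2 ⟨(mem_filter.1 hx).1, (mem_filter.1 hx).2.le⟩)) (h i)
        calc _ ≤ c * 4 ^ i * (1 / 8 : ℝ) ^ i := mul_le_mul_of_nonneg_right h1 (by positivity)
          _ = c * (1 / 2) ^ i := by rw [mul_assoc, ← mul_pow]; norm_num
    _ ≤ 2 * c := by
        rw [← mul_sum, mul_comm]
        exact mul_le_mul_of_nonneg_right (sum_geometric_two_le _) hc

theorem QN.sum {𝒜 ι : Type} [Ring 𝒜] {B : 𝒜 → ℝ → Prop} (hB : QN B) (s : Finset ι)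
    (M : ι → 𝒜) (a : ℝ) (h : ∀ i ∈ s, B (M i) a) : B (∑ i ∈ s, M i) (s.card * a) := by
  classical
  induction s using Finset.induction_on with
  | empty => simpa using hB.zero
  | insert x s hx ih =>
    rw [sum_insert hx, card_insert_of_notMem hx]
    refine hB.mono (hB.add (h x (by simp)) (ih fun i hi => h i (by simp [hi]))) (le_of_eq ?_)
    push_cast; ring

/-- a word: remaining projections, inserted operators with costs and centres, depths -/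
structure Cfg (𝒜 Λ : Type) where
  D : ℕ → Finset Λ
  X : ℕ → 𝒜
  c : ℕ → ℝ
  S : ℕ → Finset Λ
  δ : ℕ → Λ → ℕ

/-- the fixed data -/
structure Env (𝒜 Λ : Type) where
  B : 𝒜 → ℝ → Prop
  d : Λ → Λ → ℕ
  act : ℕ → Finset Λ
  Q : Λ → 𝒜
  cr : Finset Λ
  R : ℕ
  r : ℕ
  T : ℕ
  N : ℕ
  ε : ℝ

variable {𝒜 Λ : Type} [Ring 𝒜] [Fintype Λ] [DecidableEq Λ] (E : Env 𝒜 Λ)

noncomputable def Env.P (C : Cfg 𝒜 Λ) (σ : ℕ) : 𝒜 := lay E.Q (C.D σ) * C.X σ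

def Env.Clean (C : Cfg 𝒜 Λ) (s : ℕ) (y : Λ) (j : ℕ) : Prop :=
  s + j * E.T < E.N ∧ ∀ σ, s < σ → σ ≤ s + j * E.T →
    (∀ x ∈ E.act σ, E.d y x ≤ j * (3 * E.r) → x ∈ C.D σ) ∧ ∀ u ∈ C.S σ, j * (3 * E.r) < E.d y u

def Env.Good (C : Cfg 𝒜 Λ) (σ : ℕ) (y : Λ) (j : ℕ) : Prop :=
  j = 0 ∨ (E.Clean C σ y j ∧ ∀ u ∈ C.S σ, j * (3 * E.r) < E.d y u)

structure Env.Valid (t : ℕ) (C : Cfg 𝒜 Λ) : Prop where
  sub : ∀ σ, C.D σ ⊆ E.act σ
  bx : ∀ σ, E.B (C.X σ) (C.c σ)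
  c0 : ∀ σ, 0 ≤ C.c σ
  com : ∀ σ z, (∀ u ∈ C.S σ, E.r + E.R < E.d u z) → Commute (E.Q z) (C.X σ)
  good : ∀ σ, t ≤ σ → ∀ y ∈ C.D σ, E.Good C σ y (C.δ σ y)

noncomputable def Env.psi (y : Λ) (j : ℕ) : ℝ := if y ∈ E.cr then E.ε / 64 ^ j else 0

noncomputable def Env.Phi (t : ℕ) (C : Cfg 𝒜 Λ) : ℝ :=
  (∏ σ ∈ Ico t E.N, C.c σ) * Real.exp (∑ σ ∈ Ico t E.N, ∑ y ∈ C.D σ, E.psi y (C.δ σ y))

def Env.size (t : ℕ) (C : Cfg 𝒜 Λ) : ℕ := ∑ σ ∈ Ico t E.N, ((C.D σ).card + 1)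

def Env.dmg (C : Cfg 𝒜 Λ) (s : ℕ) (y : Λ) (U : ℕ → Finset Λ) (σ0 : ℕ) (O : 𝒜) (co : ℝ) :
    Cfg 𝒜 Λ where
  D σ := C.D σ \ U σ
  X := Function.update C.X σ0 (C.X σ0 * O)
  c := Function.update C.c σ0 (C.c σ0 * co)
  S := Function.update C.S σ0 (insert y (C.S σ0))
  δ σ y' := if s + E.T < σ then C.δ σ y' else
    min (C.δ σ y') (max ((s - σ - 1) / E.T) ((E.d y y' - E.r - 1) / (3 * E.r)))

variable {E}

omit [Ring 𝒜] [Fintype Λ] [DecidableEq Λ] in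
theorem good_mono {C : Cfg 𝒜 Λ} {σ : ℕ} {y : Λ} {j j' : ℕ} (h : E.Good C σ y j) (hj : j' ≤ j) :
    E.Good C σ y j' := by
  rcases h with h | ⟨⟨h1, h2⟩, h3⟩
  · left; omega
  · have a1 : j' * E.T ≤ j * E.T := Nat.mul_le_mul_right _ hj
    have a2 : j' * (3 * E.r) ≤ j * (3 * E.r) := Nat.mul_le_mul_right _ hj
    refine Or.inr ⟨⟨by omega, fun σ' k1 k2 => ⟨fun x hx hd => (h2 σ' k1 (by omega)).1 x hx
      (by omega), fun u hu => ?_⟩⟩, fun u hu => ?_⟩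
    · have := (h2 σ' k1 (by omega)).2 u hu; omega
    · have := h3 u hu; omega

theorem good_dmg (hd : Met E.d) {C : Cfg 𝒜 Λ} {s : ℕ} {y : Λ} {U : ℕ → Finset Λ} {σ0 : ℕ}
    {O : 𝒜} {co : ℝ} (hU : ∀ σ, ∀ x ∈ U σ, s < σ ∧ σ ≤ s + E.T ∧ E.d y x ≤ E.r)
    (h1 : s ≤ σ0) (h2 : σ0 ≤ s + E.T) {σ : ℕ} {y' : Λ} {j : ℕ} (h : E.Good C σ y' j)
    (ha : σ + j * E.T < s ∨ s + E.T < σ ∨ j * (3 * E.r) + E.r < E.d y y') :
    E.Good (E.dmg C s y U σ0 O co) σ y' j := by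
  rcases h with h | ⟨⟨k1, k2⟩, k3⟩
  · exact Or.inl h
  have hS : ∀ σ', σ ≤ σ' → σ' ≤ σ + j * E.T → (∀ u ∈ C.S σ', j * (3 * E.r) < E.d y' u) →
      ∀ u ∈ (E.dmg C s y U σ0 O co).S σ', j * (3 * E.r) < E.d y' u := by
    intro σ' a1 a2 a3 u hu
    by_cases e : σ' = σ0
    · subst e
      simp only [Env.dmg, Function.update_self, mem_insert] at hu
      rcases hu with rfl | hu
      · have := hd.symm u y'; omega
      · exact a3 u hu
    · simp only [Env.dmg, Function.update_of_ne e] at hu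
      exact a3 u hu
  refine Or.inr ⟨⟨k1, fun σ' a1 a2 => ⟨fun x hx hx' => ?_, hS σ' a1.le a2 (k2 σ' a1 a2).2⟩⟩,
    hS σ le_rfl (by omega) k3⟩
  refine mem_sdiff.2 ⟨(k2 σ' a1 a2).1 x hx hx', fun hxU => ?_⟩
  have := hU σ' x hxU
  have := hd.tri y x y'
  have := hd.symm x y'
  omega

theorem valid_dmg (hB : QN E.B) (hd : Met E.d) {t : ℕ} {C : Cfg 𝒜 Λ}
    (hC : E.Valid t C) {s : ℕ} {y : Λ} {U : ℕ → Finset Λ} {σ0 : ℕ} {O : 𝒜} {co : ℝ}
    (hU : ∀ σ, ∀ x ∈ U σ, s < σ ∧ σ ≤ s + E.T ∧ E.d y x ≤ E.r)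
    (h1 : s ≤ σ0) (h2 : σ0 ≤ s + E.T) (hO : E.B O co) (hco : 0 ≤ co)
    (hc : ∀ z, E.r + E.R < E.d y z → Commute (E.Q z) O) :
    E.Valid t (E.dmg C s y U σ0 O co) := by
  refine ⟨fun σ => sdiff_subset.trans (hC.sub σ), fun σ => ?_, fun σ => ?_, fun σ z hz => ?_,
    fun σ hσ y' hy' => ?_⟩
  · by_cases e : σ = σ0
    · subst e
      simp only [Env.dmg, Function.update_self]
      exact hB.mul (hC.bx σ) hO (hC.c0 σ)
    · simp only [Env.dmg, Function.update_of_ne e]; exact hC.bx σ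
  · by_cases e : σ = σ0
    · subst e
      simp only [Env.dmg, Function.update_self]
      exact mul_nonneg (hC.c0 σ) hco
    · simp only [Env.dmg, Function.update_of_ne e]; exact hC.c0 σ
  · by_cases e : σ = σ0
    · subst e
      simp only [Env.dmg, Function.update_self] at hz ⊢
      exact (hC.com σ z fun u hu => hz u (mem_insert_of_mem hu)).mul_right
        (hc z (hz y (mem_insert_self _ _)))
    · simp only [Env.dmg, Function.update_of_ne e] at hz ⊢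
      exact hC.com σ z hz
  · have hg := hC.good σ hσ y' (mem_sdiff.1 hy').1
    by_cases e : s + E.T < σ
    · have : (E.dmg C s y U σ0 O co).δ σ y' = C.δ σ y' := if_pos e
      rw [this]
      exact good_dmg hd hU h1 h2 hg (Or.inr (Or.inl e))
    · have : (E.dmg C s y U σ0 O co).δ σ y' = min (C.δ σ y')
          (max ((s - σ - 1) / E.T) ((E.d y y' - E.r - 1) / (3 * E.r))) := if_neg e
      rw [this]
      generalize hj : min (C.δ σ y')
          (max ((s - σ - 1) / E.T) ((E.d y y' - E.r - 1) / (3 * E.r))) = j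
      rcases Nat.eq_zero_or_pos j with h0 | h0
      · exact Or.inl h0
      refine good_dmg hd hU h1 h2 (good_mono hg (hj ▸ min_le_left _ _)) ?_
      rcases le_max_iff.1 (hj ▸ min_le_right _ _ : j ≤ _) with h3 | h3
      · left
        have a1 := (Nat.mul_le_mul_right E.T h3).trans (Nat.div_mul_le_self _ _)
        have a2 : (s - σ - 1) ≠ 0 := fun h => by rw [h, Nat.zero_div] at h3; omega
        omega
      · right; right
        have a1 := (Nat.mul_le_mul_right (3 * E.r) h3).trans (Nat.div_mul_le_self _ _)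
        have a2 : (E.d y y' - E.r - 1) ≠ 0 := fun h => by rw [h, Nat.zero_div] at h3; omega
        omega

omit [Fintype Λ] in
theorem size_dmg (t : ℕ) (C : Cfg 𝒜 Λ) (s : ℕ) (y : Λ) (U : ℕ → Finset Λ) (σ0 : ℕ) (O : 𝒜)
    (co : ℝ) : E.size t (E.dmg C s y U σ0 O co) ≤ E.size t C :=
  sum_le_sum fun _ _ => Nat.succ_le_succ (card_le_card sdiff_subset)

theorem clean_dmg (hd : Met E.d) {C : Cfg 𝒜 Λ} {s : ℕ} {y x : Λ} {U : ℕ → Finset Λ}
    {O : 𝒜} {co : ℝ} (hU : ∀ σ, ∀ x ∈ U σ, s < σ ∧ σ ≤ s + E.T ∧ E.d y x ≤ E.r) {j : ℕ}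
    (h : E.Clean C s y (j + 1)) (hx : E.d y x ≤ E.r) :
    E.Clean (E.dmg C s y U (s + E.T) O co) (s + E.T) x j := by
  obtain ⟨k1, k2⟩ := h
  have e1 : (j + 1) * E.T = j * E.T + E.T := by ring
  have e2 : (j + 1) * (3 * E.r) = j * (3 * E.r) + 3 * E.r := by ring
  refine ⟨by omega, fun σ a1 a2 => ⟨fun z hz hz' => ?_, fun u hu => ?_⟩⟩
  · have := hd.tri y x z
    refine mem_sdiff.2 ⟨(k2 σ (by omega) (by omega)).1 z hz (by omega), fun hzU => ?_⟩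
    have := hU σ z hzU
    omega
  · simp only [Env.dmg, Function.update_of_ne (show σ ≠ s + E.T by omega)] at hu
    have := (k2 σ (by omega) (by omega)).2 u hu
    have := hd.tri y x u
    omega

end Vale.Agent.P356F
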