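import Vale.Agent.P356F.WalkA

namespace Vale.Agent.P356F

open Finset

variable {𝒜 Λ : Type} [Ring 𝒜] [Fintype Λ] [DecidableEq Λ] {E : Env 𝒜 Λ}

theorem walk_pow (i : ℕ) : i + 1 ≤ 2 ^ i := Nat.lt_two_pow_self

theorem sum_time (T s t N : ℕ) (hT : 1 ≤ T) :
    ∑ σ ∈ (Ico t N).filter (fun σ => ¬ s + T < σ), (1 / 8 : ℝ) ^ ((s - σ - 1) / T) ≤
      2 * (4 * T) := by
  refine geo_sum _ _ _ fun i => ?_
  have h1 : (((Ico t N).filter (fun σ => ¬ s + T < σ)).filter
      fun σ => (s - σ - 1) / T ≤ i) ⊆ Icc (s - (i + 1) * T) (s + T) := by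
    intro σ hσ
    obtain ⟨h2, h3⟩ := mem_filter.1 hσ
    have h4 := (mem_filter.1 h2).2
    have h5 : s - σ - 1 < (i + 1) * T := (Nat.div_lt_iff_lt_mul (by omega)).1 (by omega)
    exact mem_Icc.2 ⟨by omega, by omega⟩
  have h2 := card_le_card h1
  rw [Nat.card_Icc] at h2
  have h3 : 2 ^ i ≤ 4 ^ i := Nat.pow_le_pow_left (by norm_num) i
  have h4 := walk_pow i
  have h5 : s + T + 1 - (s - (i + 1) * T) ≤ 4 * T * 4 ^ i := by
    have : (i + 1) * T ≤ 4 ^ i * T := Nat.mul_le_mul_right _ (h4.trans h3)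
    have : T ≤ 4 ^ i * T := Nat.le_mul_of_pos_left _ (by positivity)
    have e : 4 * T * 4 ^ i = 4 * (4 ^ i * T) := by ring
    omega
  exact_mod_cast h2.trans h5

omit [DecidableEq Λ] in
theorem sum_space {d : Λ → Λ → ℕ} (hd : Met d) (y : Λ) (r : ℕ) (hr : 1 ≤ r) :
    ∑ y', (1 / 8 : ℝ) ^ ((d y y' - r - 1) / (3 * r)) ≤ 2 * (81 * r ^ 2) := by
  refine geo_sum _ _ _ fun i => ?_
  have h1 : (univ.filter fun y' => (d y y' - r - 1) / (3 * r) ≤ i) ⊆
      ball d y (4 * (r * (i + 1))) := by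
    intro y' hy
    have h3 := (mem_filter.1 hy).2
    have h5 : d y y' - r - 1 < (i + 1) * (3 * r) :=
      (Nat.div_lt_iff_lt_mul (by omega)).1 (by omega)
    have e : (i + 1) * (3 * r) = 3 * (r * (i + 1)) := by ring
    have : r ≤ r * (i + 1) := Nat.le_mul_of_pos_right _ (by omega)
    exact mem_ball.2 (by omega)
  have h2 := (card_le_card h1).trans (hd.card _ _)
  have h3 : 1 ≤ r * (i + 1) := Nat.mul_pos hr (by omega)
  have h4 : r * (i + 1) ≤ r * 2 ^ i := Nat.mul_le_mul_left _ (walk_pow i)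
  have h5 : (2 * (4 * (r * (i + 1))) + 1) ^ 2 ≤ (9 * (r * 2 ^ i)) ^ 2 :=
    Nat.pow_le_pow_left (by omega) 2
  have e : (9 * (r * 2 ^ i)) ^ 2 = 81 * r ^ 2 * 4 ^ i := by
    rw [show (4 : ℕ) = 2 ^ 2 by norm_num, ← pow_mul, mul_comm 2 i, pow_mul]; ring
  exact_mod_cast h2.trans (h5.trans e.le)

omit [Ring 𝒜] [Fintype Λ] in
theorem psi_nonneg (hε : 0 < E.ε) (y : Λ) (j : ℕ) : 0 ≤ E.psi y j := by
  unfold Env.psi; split_ifs <;> positivity

omit [Ring 𝒜] [Fintype Λ] in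
theorem psi_min (hε : 0 < E.ε) (y : Λ) (j a b : ℕ) :
    E.psi y (min j (max a b)) ≤ E.psi y j + E.ε * ((1 / 8) ^ a * (1 / 8) ^ b) := by
  have h8 : (0 : ℝ) ≤ E.ε * ((1 / 8) ^ a * (1 / 8) ^ b) := by positivity
  rcases le_total j (max a b) with h | h
  · rw [min_eq_left h]; linarith
  · rw [min_eq_right h]
    have h0 := psi_nonneg hε y j
    have h1 : E.psi y (max a b) ≤ E.ε * ((1 / 8) ^ a * (1 / 8) ^ b) := by
      unfold Env.psi
      split_ifs
      · rw [div_eq_mul_one_div, ← one_div_pow, show (1 / 64 : ℝ) = 1 / 8 * (1 / 8) by norm_num,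
          mul_pow]
        refine mul_le_mul_of_nonneg_left (mul_le_mul ?_ ?_ (by positivity) (by positivity)) hε.le
        · exact pow_le_pow_of_le_one (by norm_num) (by norm_num) (le_max_left _ _)
        · exact pow_le_pow_of_le_one (by norm_num) (by norm_num) (le_max_right _ _)
      · exact h8
    linarith

theorem phi_nonneg {t : ℕ} {C : Cfg 𝒜 Λ} (hC : E.Valid t C) : 0 ≤ E.Phi t C :=
  mul_nonneg (prod_nonneg fun σ _ => hC.c0 σ) (Real.exp_pos _).le

theorem phi_dmg (hd : Met E.d) (hT : 1 ≤ E.T) (hr : 1 ≤ E.r) (hε : 0 < E.ε)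
    (hε1 : 1296 * E.T * E.r ^ 2 * E.ε ≤ 1) {t : ℕ} {C : Cfg 𝒜 Λ} (hC : E.Valid t C) (s : ℕ)
    (y : Λ) (U : ℕ → Finset Λ) {σ0 : ℕ} (h1 : t ≤ σ0) (h2 : σ0 < E.N) (O : 𝒜) {co : ℝ}
    (hco : 0 ≤ co) :
    E.Phi t (E.dmg C s y U σ0 O co) ≤ co * Real.exp 1 * E.Phi t C := by
  have hm : σ0 ∈ Ico t E.N := mem_Ico.2 ⟨h1, h2⟩
  have e1 : ∏ σ ∈ Ico t E.N, (E.dmg C s y U σ0 O co).c σ = co * ∏ σ ∈ Ico t E.N, C.c σ := by
    simp only [Env.dmg]
    rw [prod_update_of_mem hm, ← mul_prod_erase _ _ hm, sdiff_singleton_eq_erase]; ring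
  have e2 : ∑ σ ∈ Ico t E.N, ∑ y' ∈ (E.dmg C s y U σ0 O co).D σ,
      E.psi y' ((E.dmg C s y U σ0 O co).δ σ y') ≤
      1 + ∑ σ ∈ Ico t E.N, ∑ y' ∈ C.D σ, E.psi y' (C.δ σ y') := by
    have a1 : ∀ σ, ∑ y' ∈ (E.dmg C s y U σ0 O co).D σ,
        E.psi y' ((E.dmg C s y U σ0 O co).δ σ y') ≤ ∑ y' ∈ C.D σ, E.psi y' (C.δ σ y') +
        if ¬ s + E.T < σ then
          E.ε * (2 * (81 * E.r ^ 2)) * (1 / 8 : ℝ) ^ ((s - σ - 1) / E.T) else 0 := by
      intro σ
      refine (sum_le_sum_of_subset_of_nonneg (t := C.D σ) sdiff_subset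
        fun _ _ _ => psi_nonneg hε _ _).trans ?_
      by_cases e : s + E.T < σ
      · simp only [Env.dmg, if_pos e, e, not_true, if_false, add_zero, le_refl, if_true]
      · simp only [Env.dmg, if_neg e, e, not_false_iff, if_true, if_false]
        refine (sum_le_sum fun y' _ => psi_min hε y' _ _ _).trans ?_
        rw [sum_add_distrib, ← mul_sum, ← mul_sum]
        have b1 := (sum_le_sum_of_subset_of_nonneg (subset_univ (C.D σ))
          (f := fun y' => (1 / 8 : ℝ) ^ ((E.d y y' - E.r - 1) / (3 * E.r)))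
          fun _ _ _ => by positivity).trans (sum_space hd y E.r hr)
        have b2 := mul_le_mul_of_nonneg_left b1
          (show (0 : ℝ) ≤ E.ε * (1 / 8) ^ ((s - σ - 1) / E.T) by positivity)
        linarith
    refine (sum_le_sum fun σ _ => a1 σ).trans ?_
    rw [sum_add_distrib, ← sum_filter, ← mul_sum]
    have b3 := mul_le_mul_of_nonneg_left (sum_time E.T s t E.N hT)
      (show (0 : ℝ) ≤ E.ε * (2 * (81 * E.r ^ 2)) by positivity)
    linarith
  unfold Env.Phi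
  rw [e1]
  have h0 : 0 ≤ co * ∏ σ ∈ Ico t E.N, C.c σ := mul_nonneg hco (prod_nonneg fun σ _ => hC.c0 σ)
  refine (mul_le_mul_of_nonneg_left (Real.exp_le_exp.2 e2) h0).trans (le_of_eq ?_)
  rw [Real.exp_add]; ring

/-- the cone restricted to one slice -/
def Env.U (E : Env 𝒜 Λ) (y : Λ) (s σ : ℕ) : Finset Λ :=
  if s < σ ∧ σ ≤ s + E.T then cone E.d E.act E.R y s σ else ∅

omit [Ring 𝒜] [Fintype Λ] [DecidableEq Λ] in
theorem U_mem (hr : 2 * E.R * E.T + E.R ≤ E.r) (y : Λ) (s σ : ℕ) :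
    ∀ x ∈ E.U y s σ, s < σ ∧ σ ≤ s + E.T ∧ E.d y x ≤ E.r := by
  intro x hx
  unfold Env.U at hx
  split_ifs at hx with h
  · have h1 := (mem_filter.1 hx).2
    have : 2 * E.R * (σ - s) ≤ 2 * E.R * E.T := Nat.mul_le_mul_left _ (by omega)
    exact ⟨h.1, h.2, by omega⟩
  · simp at hx

theorem slice (hd : Met E.d) (hr : 2 * E.R * E.T + E.R ≤ E.r)
    (hS : ∀ σ, Sep E.d E.R (E.act σ))
    (hQ : ∀ x x', 2 * E.R < E.d x x' → Commute (E.Q x) (E.Q x')) {t : ℕ} {C : Cfg 𝒜 Λ}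
    (hC : E.Valid t C) {s : ℕ} {y : Λ} {j : ℕ} (h : E.Clean C s y (j + 1)) (n : ℕ)
    (hn : n ≤ E.T) :
    (1 - E.Q y) * up (E.P C) (s + 1) n =
      up (fun σ => lay E.Q (C.D σ \ E.U y s σ) * C.X σ) (s + 1) n *
        ((1 - E.Q y) * up (fun σ => lay E.Q (cone E.d E.act E.R y s σ)) (s + 1) n) := by
  induction n with
  | zero => simp [up]
  | succ n ih =>
    have e1 : (j + 1) * E.T = j * E.T + E.T := by ring
    have e2 : (j + 1) * (3 * E.r) = j * (3 * E.r) + 3 * E.r := by ring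
    obtain ⟨k1, k2⟩ := h.2 (s + 1 + n) (by omega) (by omega)
    have hU : E.U y s (s + 1 + n) = cone E.d E.act E.R y s (s + 1 + n) :=
      if_pos ⟨by omega, by omega⟩
    have hm : ∀ m, m ≤ E.T → 2 * E.R * m + E.R ≤ E.r := fun m hm =>
      le_trans (Nat.add_le_add_right (Nat.mul_le_mul_left _ hm) _) hr
    have hsub : cone E.d E.act E.R y s (s + 1 + n) ⊆ C.D (s + 1 + n) := fun x hx => by
      have := U_mem hr y s _ x (hU ▸ hx)
      exact k1 x (mem_filter.1 hx).1 (by omega)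
    -- every projection near `y` commutes with the inserted operator
    have cX : ∀ z, E.d y z ≤ E.r → Commute (E.Q z) (C.X (s + 1 + n)) := fun z hz =>
      hC.com _ z fun u hu => by
        have := k2 u hu
        have := hd.tri y z u
        have := hd.symm u z
        have := hm 0 (by omega)
        omega
    -- and with the remaining projections of the layer
    have cD : ∀ z, E.d y z ≤ 2 * E.R * n →
        Commute (E.Q z) (lay E.Q (C.D (s + 1 + n) \ cone E.d E.act E.R y s (s + 1 + n))) :=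
      fun z hz => commute_lay fun x hx => hQ z x (by
        obtain ⟨a1, a2⟩ := mem_sdiff.1 hx
        have a3 : ¬ E.d y x ≤ 2 * E.R * (s + 1 + n - s) := fun a =>
          a2 (mem_filter.2 ⟨hC.sub _ a1, a⟩)
        rw [show s + 1 + n - s = n + 1 by omega, mul_add] at a3
        have := hd.tri y z x
        omega)
    have cP : ∀ z, E.d y z ≤ 2 * E.R * n → Commute
        (lay E.Q (C.D (s + 1 + n) \ cone E.d E.act E.R y s (s + 1 + n)) * C.X (s + 1 + n))
        (E.Q z) := fun z hz =>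
      ((cD z hz).mul_right (cX z (by have := hm n (by omega); omega))).symm
    have cG : Commute
        (lay E.Q (C.D (s + 1 + n) \ cone E.d E.act E.R y s (s + 1 + n)) * C.X (s + 1 + n))
        ((1 - E.Q y) * up (fun σ => lay E.Q (cone E.d E.act E.R y s σ)) (s + 1) n) := by
      refine ((Commute.one_right _).sub_right (cP y (by rw [hd.self]; omega))).mul_right ?_
      refine up_ind _ (Commute.one_right _) (fun _ _ => Commute.mul_right) fun σ a1 a2 => ?_
      refine commute_lay fun z hz => cP z ((mem_filter.1 hz).2.trans ?_)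
      exact Nat.mul_le_mul_left _ (by omega)
    have cU : Commute (C.X (s + 1 + n)) (lay E.Q (cone E.d E.act E.R y s (s + 1 + n))) :=
      commute_lay fun z hz => (cX z (U_mem hr y s _ z (hU ▸ hz)).2.2).symm
    have eP : E.P C (s + 1 + n) =
        (lay E.Q (C.D (s + 1 + n) \ cone E.d E.act E.R y s (s + 1 + n)) * C.X (s + 1 + n)) *
          lay E.Q (cone E.d E.act E.R y s (s + 1 + n)) := by
      rw [Env.P, lay_sdiff hsub fun x hx x' hx' hne =>
        hQ x x' (hS _ x (hC.sub _ hx) x' (hC.sub _ hx') hne), mul_assoc, mul_assoc, cU.eq]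
    rw [up, up, up, ← mul_assoc, ih (by omega), eP, hU, mul_assoc, ← mul_assoc _ _ (lay _ _),
      ← cG.eq]
    simp only [mul_assoc]

end Vale.Agent.P356F
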